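import Vale.Agent.Lib.P358.Young

/-! Block matrices: Cauchy-Schwarz for positive blocks, positivity of the channel output,
the Schur determinant identity. -/

namespace Vale.Agent.Lib.P358

open Matrix
open scoped ComplexOrder

set_option linter.unusedSectionVars false

variable {ι : Type*} [Fintype ι] [DecidableEq ι]

lemma sum_elim_dot (a b c d : ι → ℂ) : (Sum.elim a b) ⬝ᵥ (Sum.elim c d) = a ⬝ᵥ c + b ⬝ᵥ d := by
  simp [dotProduct, Fintype.sum_sum_type]

lemma qf_fromBlocks (A B X X' : Matrix ι ι ℂ) (u v : ι → ℂ) :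
    (star (Sum.elim u v) ⬝ᵥ (fromBlocks A X X' B *ᵥ Sum.elim u v)) =
      star u ⬝ᵥ (A *ᵥ u) + star u ⬝ᵥ (X *ᵥ v) + star v ⬝ᵥ (X' *ᵥ u) + star v ⬝ᵥ (B *ᵥ v) := by
  have h1 : star (Sum.elim u v) = Sum.elim (star u) (star v) := by
    ext x; cases x <;> rfl
  rw [h1, fromBlocks_mulVec]
  simp only [Sum.elim_comp_inl, Sum.elim_comp_inr]
  rw [sum_elim_dot, dotProduct_add, dotProduct_add]
  ring

lemma posSemidef_block_left {A B X X' : Matrix ι ι ℂ} (hQ : (fromBlocks A X X' B).PosSemidef) :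
    A.PosSemidef := by
  have := hQ.submatrix (Sum.inl : ι → ι ⊕ ι)
  have h2 : (fromBlocks A X X' B).submatrix Sum.inl Sum.inl = A := by ext i j; simp
  rwa [h2] at this

lemma posSemidef_block_right {A B X X' : Matrix ι ι ℂ} (hQ : (fromBlocks A X X' B).PosSemidef) :
    B.PosSemidef := by
  have := hQ.submatrix (Sum.inr : ι → ι ⊕ ι)
  have h2 : (fromBlocks A X X' B).submatrix Sum.inr Sum.inr = B := by ext i j; simp
  rwa [h2] at this

lemma dot_conjTranspose_swap (X : Matrix ι ι ℂ) (u v : ι → ℂ) :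
    star v ⬝ᵥ (Xᴴ *ᵥ u) = star (star u ⬝ᵥ (X *ᵥ v)) := by
  rw [← star_dotProduct_star, star_star, star_mulVec, dotProduct_mulVec]

/-- Cauchy-Schwarz for a positive block matrix. -/
lemma block_cs {A B X : Matrix ι ι ℂ} (hQ : (fromBlocks A X Xᴴ B).PosSemidef) (u v : ι → ℂ) :
    Complex.normSq (star u ⬝ᵥ (X *ᵥ v)) ≤ qf A u * qf B v := by
  set z : ℂ := star u ⬝ᵥ (X *ᵥ v) with hz
  set a := qf A u with ha
  set d := qf B v with hd
  have ha0 : 0 ≤ a := qf_nonneg (posSemidef_block_left hQ) u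
  have hd0 : 0 ≤ d := qf_nonneg (posSemidef_block_right hQ) v
  -- the basic positivity at the vector `(t u, v)`
  have hbasic : ∀ t : ℂ, 0 ≤ Complex.normSq t * a + 2 * (star t * z).re + d := by
    intro t
    have h1 := hQ.re_dotProduct_nonneg (Sum.elim (t • u) v)
    have h2 := qf_fromBlocks A B X Xᴴ (t • u) v
    have h3 : star v ⬝ᵥ (Xᴴ *ᵥ (t • u)) = t * star z := by
      rw [mulVec_smul, dotProduct_smul, dot_conjTranspose_swap]; rfl
    have h4 : star (t • u) ⬝ᵥ (X *ᵥ v) = star t * z := by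
      rw [star_smul, smul_dotProduct]; rfl
    have h5 : star (t • u) ⬝ᵥ (A *ᵥ (t • u)) = star t * t * (star u ⬝ᵥ (A *ᵥ u)) := by
      rw [mulVec_smul, star_smul, smul_dotProduct, dotProduct_smul]
      simp only [smul_eq_mul]; ring
    rw [h3, h4, h5] at h2
    change 0 ≤ (star (Sum.elim (t • u) v) ⬝ᵥ (fromBlocks A X Xᴴ B *ᵥ Sum.elim (t • u) v)).re at h1
    rw [h2] at h1
    have h6 : (star t * t * (star u ⬝ᵥ (A *ᵥ u))).re = Complex.normSq t * a := by
      have : star t * t = ((Complex.normSq t : ℝ) : ℂ) := by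
        rw [Complex.star_def, Complex.normSq_eq_conj_mul_self]
      rw [this, Complex.re_ofReal_mul]; rfl
    have h7 : (t * star z).re = (star t * z).re := by
      simp [Complex.mul_re]
    simp only [Complex.add_re] at h1
    rw [h6, h7] at h1
    have h8 : (star v ⬝ᵥ (B *ᵥ v)).re = d := rfl
    rw [h8] at h1
    linarith
  by_cases hz0 : z = 0
  · rw [hz0]; simpa using mul_nonneg ha0 hd0
  have hzpos : 0 < Complex.normSq z := Complex.normSq_pos.mpr hz0
  rcases ha0.eq_or_lt with ha1 | ha1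
  · exfalso
    have h1 := hbasic (-(((d + 1) / Complex.normSq z : ℝ) : ℂ) * z)
    have h2 : (star (-(((d + 1) / Complex.normSq z : ℝ) : ℂ) * z) * z).re = -(d + 1) := by
      have : star (-(((d + 1) / Complex.normSq z : ℝ) : ℂ) * z) * z =
          -(((d + 1) / Complex.normSq z : ℝ) : ℂ) * (star z * z) := by
        simp only [star_mul', star_neg, Complex.star_def, Complex.conj_ofReal]; ring
      rw [this, Complex.star_def, ← Complex.normSq_eq_conj_mul_self, ← Complex.ofReal_neg,
        ← Complex.ofReal_mul, Complex.ofReal_re]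
      field_simp
    rw [h2, ← ha1] at h1
    linarith
  · have h1 := hbasic (-(((1 / a : ℝ)) : ℂ) * z)
    have h2 : (star (-(((1 / a : ℝ)) : ℂ) * z) * z).re = -(Complex.normSq z / a) := by
      have : star (-(((1 / a : ℝ)) : ℂ) * z) * z = -(((1 / a : ℝ)) : ℂ) * (star z * z) := by
        simp only [star_mul', star_neg, Complex.star_def, Complex.conj_ofReal]; ring
      rw [this, Complex.star_def, ← Complex.normSq_eq_conj_mul_self, ← Complex.ofReal_neg,
        ← Complex.ofReal_mul, Complex.ofReal_re]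
      field_simp
    have h3 : Complex.normSq (-(((1 / a : ℝ)) : ℂ) * z) * a = Complex.normSq z / a := by
      rw [Complex.normSq_mul, Complex.normSq_neg, Complex.normSq_ofReal]
      field_simp
    rw [h2, h3] at h1
    have h4 : Complex.normSq z / a ≤ d := by linarith
    rwa [div_le_iff₀ ha1, mul_comm] at h4

end Vale.Agent.Lib.P358
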