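import Vale.Agent.Lib.P358.Block

/-! The pointwise-in-`s` chain: Schur complement and matrix Young inequality. -/

namespace Vale.Agent.Lib.P358

open Matrix
open scoped ComplexOrder

set_option linter.unusedSectionVars false

variable {ι : Type*} [Fintype ι] [DecidableEq ι]

lemma psd_of_qf {κ : Type*} [Fintype κ] [DecidableEq κ] {M : Matrix κ κ ℂ} (hM : M.IsHermitian)
    (h : ∀ x, 0 ≤ qf M x) : M.PosSemidef := by
  refine PosSemidef.of_dotProduct_mulVec_nonneg hM fun x => ?_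
  rw [Complex.le_def]
  refine ⟨h x, ?_⟩
  have := hM.im_star_dotProduct_mulVec_self x
  simpa using this.symm

/-- The output block matrix. -/
noncomputable def outY (w00 w01 w10 w11 c : ℝ) (A B X : Matrix ι ι ℂ) : Matrix (ι ⊕ ι) (ι ⊕ ι) ℂ :=
  fromBlocks (w00 • A + w01 • B) (c • X) (c • Xᴴ) (w11 • B + w10 • A)

lemma outY_herm (w00 w01 w10 w11 c : ℝ) {A B : Matrix ι ι ℂ} (hA : A.IsHermitian)
    (hB : B.IsHermitian) (X : Matrix ι ι ℂ) : (outY w00 w01 w10 w11 c A B X).IsHermitian := by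
  unfold outY IsHermitian
  rw [fromBlocks_conjTranspose]
  simp [conjTranspose_add, conjTranspose_smul, hA.eq, hB.eq]

lemma outY_psd {w00 w01 w10 w11 c : ℝ} (h00 : 0 ≤ w00) (h01 : 0 ≤ w01) (h10 : 0 ≤ w10)
    (h11 : 0 ≤ w11) (hc : c ^ 2 ≤ w00 * w11) {A B X : Matrix ι ι ℂ}
    (hQ : (fromBlocks A X Xᴴ B).PosSemidef) : (outY w00 w01 w10 w11 c A B X).PosSemidef := by
  have hA := posSemidef_block_left hQ
  have hB := posSemidef_block_right hQ
  refine psd_of_qf (outY_herm _ _ _ _ _ hA.1 hB.1 _) fun x => ?_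
  have hx : x = Sum.elim (x ∘ Sum.inl) (x ∘ Sum.inr) := by
    ext y; cases y <;> rfl
  set u := x ∘ Sum.inl
  set v := x ∘ Sum.inr
  rw [hx]
  unfold qf outY
  rw [qf_fromBlocks]
  have hz := block_cs hQ u v
  set z := star u ⬝ᵥ (X *ᵥ v) with hzdef
  have e1 : star u ⬝ᵥ ((w00 • A + w01 • B) *ᵥ u) =
      (w00 : ℂ) * (star u ⬝ᵥ (A *ᵥ u)) + (w01 : ℂ) * (star u ⬝ᵥ (B *ᵥ u)) := by
    simp [add_mulVec, smul_mulVec, dotProduct_add, dotProduct_smul, Complex.real_smul]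
  have e2 : star v ⬝ᵥ ((w11 • B + w10 • A) *ᵥ v) =
      (w11 : ℂ) * (star v ⬝ᵥ (B *ᵥ v)) + (w10 : ℂ) * (star v ⬝ᵥ (A *ᵥ v)) := by
    simp [add_mulVec, smul_mulVec, dotProduct_add, dotProduct_smul, Complex.real_smul]
  have e3 : star u ⬝ᵥ ((c • X) *ᵥ v) = (c : ℂ) * z := by
    simp [smul_mulVec, dotProduct_smul, Complex.real_smul, hzdef]
  have e4 : star v ⬝ᵥ ((c • Xᴴ) *ᵥ u) = (c : ℂ) * star z := by
    rw [smul_mulVec, dotProduct_smul, dot_conjTranspose_swap, Complex.real_smul]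
  rw [e1, e2, e3, e4]
  simp only [Complex.add_re, Complex.re_ofReal_mul]
  have e5 : (star z).re = z.re := by simp
  rw [e5]
  change 0 ≤ w00 * qf A u + w01 * qf B u + c * z.re + c * z.re + (w11 * qf B v + w10 * qf A v)
  have ha := qf_nonneg hA u
  have hb := qf_nonneg hB u
  have ha' := qf_nonneg hA v
  have hb' := qf_nonneg hB v
  have hre : z.re ^ 2 ≤ Complex.normSq z := by
    rw [Complex.normSq_apply]; nlinarith [mul_self_nonneg z.im]
  have hP : 0 ≤ w00 * qf A u + w11 * qf B v := by positivity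
  have hsq : (2 * c * z.re) ^ 2 ≤ (w00 * qf A u + w11 * qf B v) ^ 2 := by
    have h1 : (2 * c * z.re) ^ 2 = 4 * c ^ 2 * z.re ^ 2 := by ring
    have h2 : 4 * c ^ 2 * z.re ^ 2 ≤ 4 * c ^ 2 * (qf A u * qf B v) :=
      mul_le_mul_of_nonneg_left (hre.trans hz) (by positivity)
    have h3 : 4 * c ^ 2 * (qf A u * qf B v) ≤ 4 * (w00 * w11) * (qf A u * qf B v) :=
      mul_le_mul_of_nonneg_right (by linarith) (mul_nonneg ha hb')
    have h4 : 4 * (w00 * w11) * (qf A u * qf B v) ≤ (w00 * qf A u + w11 * qf B v) ^ 2 := by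
      nlinarith [sq_nonneg (w00 * qf A u - w11 * qf B v)]
    linarith
  have := (abs_le_of_sq_le_sq' hsq hP).1
  have h6 : 0 ≤ w01 * qf B u := mul_nonneg h01 hb
  have h7 : 0 ≤ w10 * qf A v := mul_nonneg h10 ha'
  linarith

/-- The Schur complement determinant identity in terms of inverse roots. -/
lemma schur_det {M0 M1 : Matrix ι ι ℂ} (hM0 : M0.PosDef) (hM1 : M1.PosDef) (X : Matrix ι ι ℂ)
    (c : ℝ) :
    (fromBlocks M0 (c • X) (c • Xᴴ) M1).det =
      M0.det * M1.det *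
        ((1 : ℝ) • (1 : Matrix ι ι ℂ) + (-(c * c)) •
          ((invRoot hM0.1 * X * invRoot hM1.1)ᴴ * (invRoot hM0.1 * X * invRoot hM1.1))).det := by
  set R0 := invRoot hM0.1 with hR0
  set R1 := invRoot hM1.1 with hR1
  have hR0h : R0ᴴ = R0 := invRoot_herm hM0.1
  have hR1h : R1ᴴ = R1 := invRoot_herm hM1.1
  have h1 : (R0 * M0) * R0 = 1 := invRoot_conj hM0
  have h2 : R0 * (R0 * M0) = 1 := mul_eq_one_comm.mp h1
  have h3 : (R0 * R0) * M0 = 1 := by rw [Matrix.mul_assoc]; exact h2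
  have h4 : M0 * (R0 * R0) = 1 := mul_eq_one_comm.mp h3
  let inst : Invertible M0 := ⟨R0 * R0, h3, h4⟩
  rw [det_fromBlocks₁₁]
  have hinv : ⅟M0 = R0 * R0 := rfl
  rw [hinv]
  set Sch := M1 - c • Xᴴ * (R0 * R0) * c • X with hSch
  have hconj : R1 * Sch * R1 = (1 : ℝ) • (1 : Matrix ι ι ℂ) +
      (-(c * c)) • ((R0 * X * R1)ᴴ * (R0 * X * R1)) := by
    have e1 : (R0 * X * R1)ᴴ = R1 * Xᴴ * R0 := by
      simp [conjTranspose_mul, hR0h, hR1h, Matrix.mul_assoc]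
    have e2 : (c • Xᴴ) * (R0 * R0) * (c • X) = (c * c) • (Xᴴ * (R0 * R0) * X) := by
      simp only [Matrix.smul_mul, Matrix.mul_smul, smul_smul]
    have e3 : R1 * ((c * c) • (Xᴴ * (R0 * R0) * X)) * R1 =
        (c * c) • ((R1 * Xᴴ * R0) * (R0 * X * R1)) := by
      simp only [Matrix.mul_smul, Matrix.smul_mul, Matrix.mul_assoc]
    rw [e1, hSch, e2, Matrix.mul_sub, Matrix.sub_mul, e3, invRoot_conj hM1, one_smul, neg_smul,
      sub_eq_add_neg]
  have hdet := det_conj_ratio R1 Sch M1 (invRoot_conj hM1)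
  rw [hconj] at hdet
  rw [← hdet]
  ring

/-- The shifted sum `s + A + B`. -/
noncomputable def shiftM (A B : Matrix ι ι ℂ) (s : ℝ) : Matrix ι ι ℂ :=
  s • (1 : Matrix ι ι ℂ) + (A + B)

lemma shiftM_herm {A B : Matrix ι ι ℂ} (hA : A.IsHermitian) (hB : B.IsHermitian) (s : ℝ) :
    (shiftM A B s).IsHermitian := by
  unfold shiftM IsHermitian
  simp [conjTranspose_add, conjTranspose_smul, hA.eq, hB.eq]

lemma shiftM_posDef {A B : Matrix ι ι ℂ} (hA : A.PosSemidef) (hB : B.PosSemidef) {s : ℝ}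
    (hs : 0 < s) : (shiftM A B s).PosDef :=
  posDef_shift (hA.add hB) hs

lemma shiftM_sub (A B : Matrix ι ι ℂ) (s : ℝ) :
    shiftM A B s - A = s • (1 : Matrix ι ι ℂ) + B := by
  unfold shiftM; abel

/-- The determinant relation between the pencil, the shift and the remainder. -/
lemma det_pencil_relation {A B : Matrix ι ι ℂ} (hA : A.PosSemidef) (hB : B.PosSemidef) {s : ℝ}
    (hs : 0 < s) (hM : (shiftM A B s).IsHermitian) :
    ((1 : ℝ) • (1 : Matrix ι ι ℂ) + (-1 : ℝ) • pencil A hM).det * (shiftM A B s).det =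
      (s • (1 : Matrix ι ι ℂ) + B).det := by
  have hMd := shiftM_posDef hA hB hs
  have e1 : (1 : ℝ) • (1 : Matrix ι ι ℂ) + (-1 : ℝ) • pencil A hM = 1 - pencil A hMd.1 := by
    rw [one_smul, neg_one_smul, sub_eq_add_neg]
  rw [e1, one_sub_pencil hMd, det_conj_ratio _ _ _ (invRoot_conj hMd), shiftM_sub]

/-- The eigenvalues of the pencil lie in `[0,1)`. -/
lemma pencil_eig_mem {A B : Matrix ι ι ℂ} (hA : A.PosSemidef) (hB : B.PosSemidef) {s : ℝ}
    (hs : 0 < s) (hM : (shiftM A B s).IsHermitian) (hT : (pencil A hM).IsHermitian) (k : ι) :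
    hT.eigenvalues k ∈ Set.Ico (0 : ℝ) 1 := by
  have hMd := shiftM_posDef hA hB hs
  refine ⟨(pencil_psd hA hM).eigenvalues_nonneg k, ?_⟩
  have h2 : (shiftM A B s - A).PosDef := by
    rw [shiftM_sub]; exact posDef_shift hB hs
  exact pencil_eig_lt_one hMd h2 hT k

/-- The pointwise-in-`s` inequality. -/
theorem chain_ineq {A B X : Matrix ι ι ℂ} (hQ : (fromBlocks A X Xᴴ B).PosSemidef)
    {w00 w01 w10 w11 c θ : ℝ} (h00 : 0 ≤ w00) (h01 : 0 ≤ w01) (h10 : 0 ≤ w10) (h11 : 0 ≤ w11)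
    (hcw : c ^ 2 ≤ w00 * w11) (hcθ : c ^ 2 ≤ θ * (w00 * w11)) (hθ1 : θ ≤ 1)
    (Λ1 Λ2 : ℝ → ℝ) (hΛ1 : ConvexOn ℝ (Set.Ico 0 1) Λ1) (hΛ2 : ConvexOn ℝ (Set.Ico 0 1) Λ2)
    (hΛ1n : ∀ x ∈ Set.Ico (0 : ℝ) 1, 0 ≤ Λ1 x) (hΛ2n : ∀ x ∈ Set.Ico (0 : ℝ) 1, 0 ≤ Λ2 x)
    (hYoung : ∀ x ∈ Set.Ico (0 : ℝ) 1, ∀ y ∈ Set.Ico (0 : ℝ) 1,
      -Real.log (1 - θ * x * y) ≤ Λ1 x + Λ2 y)
    {s : ℝ} (hs : 0 < s)
    (hY : (outY w00 w01 w10 w11 c A B X).IsHermitian)
    (hB' : (w01 • B).IsHermitian) (hA' : (w10 • A).IsHermitian)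
    (hM0 : (shiftM (w00 • A) (w01 • B) s).IsHermitian)
    (hM1 : (shiftM (w11 • B) (w10 • A) s).IsHermitian)
    (hT0 : (pencil (w00 • A) hM0).IsHermitian) (hT1 : (pencil (w11 • B) hM1).IsHermitian) :
    ∑ j, Real.log (s + hB'.eigenvalues j) + ∑ j, Real.log (s + hA'.eigenvalues j) +
      ∑ k, (-Real.log (1 - hT0.eigenvalues k) - Λ1 (hT0.eigenvalues k)) +
      ∑ k, (-Real.log (1 - hT1.eigenvalues k) - Λ2 (hT1.eigenvalues k)) ≤
    ∑ i, Real.log (s + hY.eigenvalues i) := by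
  classical
  have hA := posSemidef_block_left hQ
  have hB := posSemidef_block_right hQ
  have hA00 : (w00 • A).PosSemidef := hA.smul h00
  have hB01 : (w01 • B).PosSemidef := hB.smul h01
  have hA10 : (w10 • A).PosSemidef := hA.smul h10
  have hB11 : (w11 • B).PosSemidef := hB.smul h11
  have hM0d := shiftM_posDef hA00 hB01 hs
  have hM1d := shiftM_posDef hB11 hA10 hs
  set R0 := invRoot hM0d.1 with hR0
  set R1 := invRoot hM1d.1 with hR1
  set Z := R0 * X * R1 with hZdef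
  have hK : (Zᴴ * Z).IsHermitian := (posSemidef_conjTranspose_mul_self Z).1
  -- determinant identity
  have hdetY : (s • (1 : Matrix (ι ⊕ ι) (ι ⊕ ι) ℂ) + (1 : ℝ) • outY w00 w01 w10 w11 c A B X).det =
      (shiftM (w00 • A) (w01 • B) s).det * (shiftM (w11 • B) (w10 • A) s).det *
        ((1 : ℝ) • (1 : Matrix ι ι ℂ) + (-(c * c)) • (Zᴴ * Z)).det := by
    have e : s • (1 : Matrix (ι ⊕ ι) (ι ⊕ ι) ℂ) + (1 : ℝ) • outY w00 w01 w10 w11 c A B X =
        fromBlocks (shiftM (w00 • A) (w01 • B) s) (c • X) (c • Xᴴ) (shiftM (w11 • B) (w10 • A) s) := by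
      rw [one_smul, ← fromBlocks_one, fromBlocks_smul, outY, fromBlocks_add]
      simp [shiftM]
    rw [e]
    exact schur_det hM0d hM1d X c
  have hd0 := det_pencil_relation hA00 hB01 hs hM0
  have hd1 := det_pencil_relation hB11 hA10 hs hM1
  have hprod : (∏ i, (s + 1 * hY.eigenvalues i)) * (∏ k, (1 + (-1) * hT0.eigenvalues k)) *
      (∏ k, (1 + (-1) * hT1.eigenvalues k)) =
      (∏ j, (s + 1 * hB'.eigenvalues j)) * (∏ j, (s + 1 * hA'.eigenvalues j)) *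
        (∏ j, (1 + (-(c * c)) * hK.eigenvalues j)) := by
    have h1 := det_shift hY s 1
    have h2 := det_shift hT0 1 (-1)
    have h3 := det_shift hT1 1 (-1)
    have h4 := det_shift hB' s 1
    have h5 := det_shift hA' s 1
    have h6 := det_shift hK 1 (-(c * c))
    rw [one_smul] at h4 h5
    apply Complex.ofReal_injective
    push_cast at h1 h2 h3 h4 h5 h6 ⊢
    rw [← h1, ← h2, ← h3, ← h4, ← h5, ← h6, hdetY, ← hd0, ← hd1]
    ring
  -- positivity of the factors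
  have hYpsd := outY_psd h00 h01 h10 h11 hcw hQ
  have hpos1 : ∀ i, 0 < s + 1 * hY.eigenvalues i := fun i => by
    have := hYpsd.eigenvalues_nonneg i; linarith
  have hpos2 : ∀ k, 0 < 1 + (-1) * hT0.eigenvalues k := fun k => by
    have := (pencil_eig_mem hA00 hB01 hs hM0 hT0 k).2; linarith
  have hpos3 : ∀ k, 0 < 1 + (-1) * hT1.eigenvalues k := fun k => by
    have := (pencil_eig_mem hB11 hA10 hs hM1 hT1 k).2; linarith
  have hpos4 : ∀ j, 0 < s + 1 * hB'.eigenvalues j := fun j => by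
    have := hB01.eigenvalues_nonneg j; linarith
  have hpos5 : ∀ j, 0 < s + 1 * hA'.eigenvalues j := fun j => by
    have := hA10.eigenvalues_nonneg j; linarith
  -- Young
  have hZ : ∀ u v, (c * c) * Complex.normSq (star u ⬝ᵥ (Z *ᵥ v)) ≤
      θ * qf (pencil (w00 • A) hM0) u * qf (pencil (w11 • B) hM1) v := by
    intro u v
    have e1 : star u ⬝ᵥ (Z *ᵥ v) = star (R0 *ᵥ u) ⬝ᵥ (X *ᵥ (R1 *ᵥ v)) := by
      rw [star_mulVec, invRoot_herm, ← dotProduct_mulVec, hZdef, mulVec_mulVec, mulVec_mulVec,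
        Matrix.mul_assoc]
    have e2 : qf (pencil (w00 • A) hM0) u = w00 * qf A (R0 *ᵥ u) := by
      rw [qf_pencil, qf_smul]
    have e3 : qf (pencil (w11 • B) hM1) v = w11 * qf B (R1 *ᵥ v) := by
      rw [qf_pencil, qf_smul]
    rw [e1, e2, e3]
    have h7 := block_cs hQ (R0 *ᵥ u) (R1 *ᵥ v)
    have h8 : 0 ≤ qf A (R0 *ᵥ u) := qf_nonneg hA _
    have h9 : 0 ≤ qf B (R1 *ᵥ v) := qf_nonneg hB _
    calc c * c * Complex.normSq (star (R0 *ᵥ u) ⬝ᵥ (X *ᵥ (R1 *ᵥ v)))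
        ≤ c ^ 2 * (qf A (R0 *ᵥ u) * qf B (R1 *ᵥ v)) := by
          rw [sq]; exact mul_le_mul_of_nonneg_left h7 (mul_self_nonneg c)
      _ ≤ (θ * (w00 * w11)) * (qf A (R0 *ᵥ u) * qf B (R1 *ᵥ v)) :=
          mul_le_mul_of_nonneg_right hcθ (mul_nonneg h8 h9)
      _ = _ := by ring
  obtain ⟨hpos6, hyoung⟩ := young_matrix hT0 hT1 hK (c * c) θ hθ1
    (pencil_eig_mem hA00 hB01 hs hM0 hT0) (pencil_eig_mem hB11 hA10 hs hM1 hT1)
    hZ Λ1 Λ2 hΛ1 hΛ2 hΛ1n hΛ2n hYoung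
  -- logarithms
  have hlog := congrArg Real.log hprod
  have P1 := Finset.prod_pos (s := Finset.univ) fun i _ => hpos1 i
  have P2 := Finset.prod_pos (s := Finset.univ) fun i _ => hpos2 i
  have P3 := Finset.prod_pos (s := Finset.univ) fun i _ => hpos3 i
  have P4 := Finset.prod_pos (s := Finset.univ) fun i _ => hpos4 i
  have P5 := Finset.prod_pos (s := Finset.univ) fun i _ => hpos5 i
  have hpos6' : ∀ j, 0 < 1 + (-(c * c)) * hK.eigenvalues j := fun j => by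
    have := hpos6 j; linarith
  have P6 := Finset.prod_pos (s := Finset.univ) fun i _ => hpos6' i
  rw [Real.log_mul (mul_pos P1 P2).ne' P3.ne', Real.log_mul P1.ne' P2.ne',
    Real.log_mul (mul_pos P4 P5).ne' P6.ne', Real.log_mul P4.ne' P5.ne',
    Real.log_prod (fun i _ => (hpos1 i).ne'), Real.log_prod (fun i _ => (hpos2 i).ne'),
    Real.log_prod (fun i _ => (hpos3 i).ne'), Real.log_prod (fun i _ => (hpos4 i).ne'),
    Real.log_prod (fun i _ => (hpos5 i).ne'), Real.log_prod (fun i _ => (hpos6' i).ne')] at hlog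
  simp only [one_mul, ← sub_eq_add_neg, neg_mul] at hlog
  rw [Finset.sum_neg_distrib] at hyoung
  rw [Finset.sum_sub_distrib, Finset.sum_sub_distrib, Finset.sum_neg_distrib,
    Finset.sum_neg_distrib]
  linarith

end Vale.Agent.Lib.P358
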