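import Mathlib

/-! Definitions used in the statement: entropy, the channel, tensor powers, Holevo and classical
capacities. -/

namespace Vale.Agent.Lib.P358

open Matrix
open scoped ComplexOrder

/-- Von Neumann entropy in bits: the sum of `-x log x` over the eigenvalues `x` of `ρ`, counted with
multiplicity as the roots of the characteristic polynomial, divided by `log 2`. -/
noncomputable def entropy {m : Type*} [Fintype m] [DecidableEq m] (ρ : Matrix m m ℂ) : ℝ :=
  (ρ.charpoly.roots.map fun z => Real.negMulLog z.re).sum / Real.log 2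

/-- The generalized amplitude-damping channel, as a linear map on all `2 × 2` matrices.
On states it is the formula of the problem, see `gadc_state`. -/
noncomputable def gadc (γ ν : ℝ) (ρ : Matrix (Fin 2) (Fin 2) ℂ) : Matrix (Fin 2) (Fin 2) ℂ :=
  !![((1 - γ * ν : ℝ) : ℂ) * ρ 0 0 + ((γ * (1 - ν) : ℝ) : ℂ) * ρ 1 1,
      ((Real.sqrt (1 - γ) : ℝ) : ℂ) * ρ 0 1;
     ((Real.sqrt (1 - γ) : ℝ) : ℂ) * ρ 1 0,
      ((γ * ν : ℝ) : ℂ) * ρ 0 0 + ((1 - γ + γ * ν : ℝ) : ℂ) * ρ 1 1]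

/-- The formula of the problem: `1 - q, z, conj z, q` is sent to `1 - t`, `√(1-γ) z`,
`√(1-γ) conj z`, `t` with `t = (1 - γ) q + γ ν`. -/
lemma gadc_state (γ ν q : ℝ) (z : ℂ) :
    gadc γ ν !![((1 - q : ℝ) : ℂ), z; (starRingEnd ℂ) z, (q : ℂ)] =
      !![((1 - ((1 - γ) * q + γ * ν) : ℝ) : ℂ), ((Real.sqrt (1 - γ) : ℝ) : ℂ) * z;
         ((Real.sqrt (1 - γ) : ℝ) : ℂ) * (starRingEnd ℂ) z, (((1 - γ) * q + γ * ν : ℝ) : ℂ)] := by
  ext i j
  fin_cases i <;> fin_cases j <;> simp [gadc] <;> ring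

/-- The `n`-fold tensor power of a linear map `N` on `m × m` matrices: its matrix elements in the
product basis are the products of the matrix elements of `N`, so that it sends
`|x'⟩⟨y'|` to `⊗ᵢ N |x'ᵢ⟩⟨y'ᵢ|`. -/
noncomputable def tensorPow {m : Type*} [Fintype m] [DecidableEq m]
    (N : Matrix m m ℂ → Matrix m m ℂ) (n : ℕ) (ρ : Matrix (Fin n → m) (Fin n → m) ℂ) :
    Matrix (Fin n → m) (Fin n → m) ℂ :=
  of fun x y => ∑ x', ∑ y', (∏ i, N (Matrix.single (x' i) (y' i) 1) (x i) (y i)) * ρ x' y'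

/-- The values of the Holevo quantity over all finite ensembles of input states. -/
def holevoSet {d : Type*} [Fintype d] [DecidableEq d] (N : Matrix d d ℂ → Matrix d d ℂ) : Set ℝ :=
  {x | ∃ (k : ℕ) (q : Fin k → ℝ) (ρ : Fin k → Matrix d d ℂ),
    (∀ a, 0 ≤ q a) ∧ ∑ a, q a = 1 ∧ (∀ a, (ρ a).PosSemidef ∧ (ρ a).trace = 1) ∧
      x = entropy (∑ a, q a • N (ρ a)) - ∑ a, q a * entropy (N (ρ a))}

/-- The Holevo capacity. -/
noncomputable def holevoCapacity {d : Type*} [Fintype d] [DecidableEq d]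
    (N : Matrix d d ℂ → Matrix d d ℂ) : ℝ :=
  sSup (holevoSet N)

/-- The classical capacity `sup_n χ(N^{⊗n}) / n`. -/
noncomputable def classicalCapacity {m : Type*} [Fintype m] [DecidableEq m]
    (N : Matrix m m ℂ → Matrix m m ℂ) : ℝ :=
  sSup {x | ∃ n : ℕ, 1 ≤ n ∧ x = holevoCapacity (tensorPow N n) / n}

end Vale.Agent.Lib.P358
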