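import Mathlib

/-! The explicit one-parameter function whose maximum is the capacity. -/

namespace Vale.Agent.Lib.P358

/-- With `H = Real.binEntropy` (in nats), the function of the input population `q`:
`(H((1-γ)q + γν) - H((1 + √(1 - 4γ((1-γ)(q-ν)² + ν(1-ν)))) / 2)) / log 2`, in bits. -/
noncomputable def gadcF (γ ν q : ℝ) : ℝ :=
  (Real.binEntropy ((1 - γ) * q + γ * ν) -
    Real.binEntropy ((1 + Real.sqrt (1 - 4 * (γ * ((1 - γ) * (q - ν) ^ 2 + ν * (1 - ν))))) / 2)) /
      Real.log 2

end Vale.Agent.Lib.P358
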