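import Vale.Agent.Lib.P358.Kappa

/-! Weights, primitives and the layer-cake dominance (high part of the main lemma). -/

namespace Vale.Agent.Lib.P358

open Matrix MeasureTheory Set
open scoped ComplexOrder ENNReal

set_option linter.unusedSectionVars false

variable {ι : Type*} [Fintype ι] [DecidableEq ι]

/-- Primitive from `0`. -/
noncomputable def Lfun (g : ℝ → ℝ) (k : ℝ) : ℝ := ∫ t in (0 : ℝ)..k, g t

/-- Bounded measurable weights. -/
structure BddWeight (g : ℝ → ℝ) : Prop where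
  meas : Measurable g
  nonneg : ∀ t, 0 ≤ g t
  le_one : ∀ t, g t ≤ 1

lemma BddWeight.intInt {g : ℝ → ℝ} (h : BddWeight g) (a b : ℝ) :
    IntervalIntegrable g volume a b := by
  have h1 : IntervalIntegrable (fun _ => (1 : ℝ)) volume a b := intervalIntegrable_const
  refine h1.mono_fun' h.meas.aestronglyMeasurable (ae_of_all _ fun t => ?_)
  change ‖g t‖ ≤ 1
  rw [Real.norm_eq_abs, abs_of_nonneg (h.nonneg t)]
  exact h.le_one t

lemma Lfun_nonneg {g : ℝ → ℝ} (h : BddWeight g) {k : ℝ} (hk : 0 ≤ k) : 0 ≤ Lfun g k :=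
  intervalIntegral.integral_nonneg hk fun t _ => h.nonneg t

lemma Lfun_sub {g : ℝ → ℝ} (h : BddWeight g) (k k' : ℝ) :
    Lfun g k' - Lfun g k = ∫ t in k..k', g t :=
  intervalIntegral.integral_interval_sub_left (h.intInt _ _) (h.intInt _ _)

lemma Lfun_mono {g : ℝ → ℝ} (h : BddWeight g) {k k' : ℝ} (hkk : k ≤ k') :
    Lfun g k ≤ Lfun g k' := by
  have h1 := Lfun_sub h k k'
  have h2 : 0 ≤ ∫ t in k..k', g t := intervalIntegral.integral_nonneg hkk fun t _ => h.nonneg t
  linarith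

lemma Lfun_le {g : ℝ → ℝ} (h : BddWeight g) {k : ℝ} (hk : 0 ≤ k) : Lfun g k ≤ k := by
  have h1 : Lfun g k ≤ ∫ _t in (0 : ℝ)..k, (1 : ℝ) :=
    intervalIntegral.integral_mono_on hk (h.intInt _ _) intervalIntegrable_const
      fun t _ => h.le_one t
  simpa using h1

lemma Lfun_continuous {g : ℝ → ℝ} (h : BddWeight g) : Continuous (Lfun g) :=
  intervalIntegral.continuous_primitive (fun a b => h.intInt a b) 0

lemma BddWeight.indicator {g : ℝ → ℝ} (h : BddWeight g) {S : Set ℝ} (hS : MeasurableSet S) :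
    BddWeight (S.indicator g) where
  meas := h.meas.indicator hS
  nonneg t := Set.indicator_nonneg (fun t _ => h.nonneg t) t
  le_one t := by
    by_cases ht : t ∈ S
    · rw [Set.indicator_of_mem ht]; exact h.le_one t
    · rw [Set.indicator_of_notMem ht]; exact zero_le_one

lemma ofReal_sum_le {κ : Type*} (S : Finset κ) (x : κ → ℝ) :
    ENNReal.ofReal (∑ j ∈ S, x j) ≤ ∑ j ∈ S, ENNReal.ofReal (x j) := by
  classical
  induction S using Finset.induction_on with
  | empty => simp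
  | insert a S ha ih =>
    rw [Finset.sum_insert ha, Finset.sum_insert ha]
    exact ENNReal.ofReal_add_le.trans (add_le_add le_rfl ih)

lemma trace_re_nonneg {A : Matrix ι ι ℂ} (hA : A.PosSemidef) : 0 ≤ A.trace.re := by
  rw [trace_re_eq_sum hA.1]
  exact Finset.sum_nonneg fun i _ => hA.eigenvalues_nonneg i

/-- Measure comparison at a fixed level `t`. -/
lemma level_compare {A B : Matrix ι ι ℂ} (hA : A.PosSemidef) (hB : B.PosSemidef) {ε Λ t : ℝ}
    (hε : 0 < ε) (hΛ : A.trace.re / ε ≤ Λ) (ht : ε < t) :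
    (volume.restrict (Ioc (0 : ℝ) Λ)) {s | t ≤ A.trace.re / (s + B.trace.re)} ≤
      ∑ j, (volume.restrict (Ioc (0 : ℝ) Λ)) {s | t ≤ kapS hA.1 hB.1 s j} := by
  set a := A.trace.re with ha
  set b := B.trace.re with hb
  have ha0 : 0 ≤ a := trace_re_nonneg hA
  have hb0 : 0 ≤ b := trace_re_nonneg hB
  have ht0 : 0 < t := hε.trans ht
  -- the left side
  have hL : (volume.restrict (Ioc (0 : ℝ) Λ)) {s | t ≤ a / (s + b)} ≤
      ENNReal.ofReal ((a - t * b) / t) := by
    rw [Measure.restrict_apply' measurableSet_Ioc]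
    refine (measure_mono (t := Ioc 0 ((a - t * b) / t)) ?_).trans ?_
    · rintro s ⟨hs1, hs2⟩
      have hs3 : t ≤ a / (s + b) := hs1
      refine ⟨hs2.1, ?_⟩
      have hsb : 0 < s + b := by linarith [hs2.1]
      rw [le_div_iff₀ hsb] at hs3
      rw [le_div_iff₀ ht0]
      nlinarith
    · rw [Real.volume_Ioc]; simp
  -- each term on the right
  have hR : ∀ j, ENNReal.ofReal ((sub_smul_herm hA.1 hB.1 t).eigenvalues₀ j / t) ≤
      (volume.restrict (Ioc (0 : ℝ) Λ)) {s | t ≤ kapS hA.1 hB.1 s j} := by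
    intro j
    refine le_trans ?_ (Measure.le_restrict_apply _ _)
    set μj := (sub_smul_herm hA.1 hB.1 t).eigenvalues₀ j with hμj
    have h1 : Ioc 0 (μj / t) ⊆ {s | t ≤ kapS hA.1 hB.1 s j} ∩ Ioc 0 Λ := by
      rintro s ⟨hs1, hs2⟩
      refine ⟨?_, hs1, ?_⟩
      · have : t * s ≤ μj := by
          rw [le_div_iff₀ ht0] at hs2; linarith
        exact le_kapS_high hA hB hs1 ht0 j this
      · have h2 : μj ≤ a := eig_sub_le_trace hA hB ht0.le j
        have h3 : μj / t ≤ a / t := div_le_div_of_nonneg_right h2 ht0.le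
        have h4 : a / t ≤ a / ε := div_le_div_of_nonneg_left ha0 hε ht.le
        linarith
    refine le_trans ?_ (measure_mono h1)
    rw [Real.volume_Ioc]; simp
  refine hL.trans ?_
  have e : (a - t * b) / t = ∑ j, (sub_smul_herm hA.1 hB.1 t).eigenvalues₀ j / t := by
    rw [← Finset.sum_div, sum_eig_sub hA.1 hB.1]
  rw [e]
  exact (ofReal_sum_le _ _).trans (Finset.sum_le_sum fun j _ => hR j)

/-- High part of the main lemma: layer cake plus level comparison. -/
theorem stepH {A B : Matrix ι ι ℂ} (hA : A.PosSemidef) (hB : B.PosSemidef) {G : ℝ → ℝ}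
    (hG : BddWeight G) {ε Λ : ℝ} (hε : 0 < ε) (hGε : ∀ t, t ≤ ε → G t = 0)
    (hΛ : A.trace.re / ε ≤ Λ) :
    ∫⁻ s in Ioc (0 : ℝ) Λ, ENNReal.ofReal (Lfun G (A.trace.re / (s + B.trace.re))) ≤
      ∑ j, ∫⁻ s in Ioc (0 : ℝ) Λ, ENNReal.ofReal (Lfun G (kapS hA.1 hB.1 s j)) := by
  set a := A.trace.re with ha
  set b := B.trace.re with hb
  have ha0 : 0 ≤ a := trace_re_nonneg hA
  have hb0 : 0 ≤ b := trace_re_nonneg hB
  set R := volume.restrict (Ioc (0 : ℝ) Λ) with hR
  have hlayer : ∀ f : ℝ → ℝ, (∀ s ∈ Ioc (0 : ℝ) Λ, 0 ≤ f s) → AEMeasurable f R →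
      lintegral R (fun s => ENNReal.ofReal (Lfun G (f s))) =
        ∫⁻ t in Ioi (0 : ℝ), R {s | t ≤ f s} * ENNReal.ofReal (G t) := by
    intro f hf0 hfm
    exact lintegral_comp_eq_lintegral_meas_le_mul R
      ((ae_restrict_iff' measurableSet_Ioc).mpr (ae_of_all _ hf0)) hfm
      (fun t _ => hG.intInt 0 t) (ae_of_all _ hG.nonneg)
  have hbarm : AEMeasurable (fun s : ℝ => a / (s + b)) R :=
    (measurable_const.div (measurable_id.add measurable_const)).aemeasurable
  have hbar0 : ∀ s ∈ Ioc (0 : ℝ) Λ, 0 ≤ a / (s + b) := fun s hs =>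
    div_nonneg ha0 (by linarith [hs.1])
  have hkapm : ∀ j, AEMeasurable (fun s : ℝ => kapS hA.1 hB.1 s j) R := fun j =>
    aemeasurable_restrict_of_antitoneOn measurableSet_Ioc
      ((kapS_anti hA hB j).mono Ioc_subset_Ioi_self)
  have hkap0 : ∀ j, ∀ s ∈ Ioc (0 : ℝ) Λ, 0 ≤ kapS hA.1 hB.1 s j := fun j s hs =>
    kapS_nonneg hA hB hs.1 j
  rw [hlayer _ hbar0 hbarm]
  simp_rw [hlayer _ (hkap0 _) (hkapm _)]
  have hmeas : ∀ j : Fin (Fintype.card ι),
      Measurable fun t => R {s | t ≤ kapS hA.1 hB.1 s j} * ENNReal.ofReal (G t) := by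
    intro j
    refine Measurable.mul ?_ (ENNReal.measurable_ofReal.comp hG.meas)
    apply Antitone.measurable
    intro t t' htt
    exact measure_mono fun s hs => le_trans htt hs
  rw [← lintegral_finsetSum _ fun j _ => (hmeas j)]
  refine setLIntegral_mono' measurableSet_Ioi fun t _ => ?_
  by_cases ht : t ≤ ε
  · rw [hGε t ht]; simp
  · have ht := not_le.mp ht
    rw [← Finset.sum_mul]
    gcongr
    exact level_compare hA hB hε hΛ ht

end Vale.Agent.Lib.P358
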