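import Vale.Agent.Lib.P358.Holevo

/-! Ensembles: the link with the Holevo quantity in bits, the single-site ensembles, boundedness. -/

namespace Vale.Agent.Lib.P358

open Matrix
open scoped ComplexOrder

set_option linter.unusedSectionVars false

lemma log_two_pos' : 0 < Real.log 2 := Real.log_pos (by norm_num)

lemma entropy_eq_sumEig {m : Type*} [Fintype m] [DecidableEq m] (M : Matrix m m ℂ) :
    entropy M = -sumEig phi M / Real.log 2 := by
  unfold entropy sumEig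
  congr 1
  have : (fun z : ℂ => Real.negMulLog z.re) = fun z : ℂ => -phi z.re := by
    funext z
    simp [Real.negMulLog, phi]
  rw [this]
  induction M.charpoly.roots using Multiset.induction_on with
  | empty => simp
  | cons a s ih =>
    simp only [Multiset.map_cons, Multiset.sum_cons, ih]
    ring

lemma En_eq_entropy {m : Type*} [Fintype m] [DecidableEq m] {M : Matrix m m ℂ}
    (h : M.trace.re = 1) : En M = Real.log 2 * entropy M := by
  unfold En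
  rw [h, entropy_eq_sumEig]
  have := log_two_pos'.ne'
  simp only [phi, Real.log_one, mul_zero, zero_sub]
  field_simp

/-- Membership for ensembles with an arbitrary finite index type. -/
lemma mem_holevoSet_fintype {d : Type*} [Fintype d] [DecidableEq d]
    (N : Matrix d d ℂ → Matrix d d ℂ) {κ : Type*} [Fintype κ] (q : κ → ℝ)
    (ρ : κ → Matrix d d ℂ) (h0 : ∀ a, 0 ≤ q a) (h1 : ∑ a, q a = 1)
    (h2 : ∀ a, (ρ a).PosSemidef ∧ (ρ a).trace = 1) :
    entropy (∑ a, q a • N (ρ a)) - ∑ a, q a * entropy (N (ρ a)) ∈ holevoSet N := by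
  set e := Fintype.equivFin κ
  refine ⟨Fintype.card κ, fun a => q (e.symm a), fun a => ρ (e.symm a), fun a => h0 _, ?_,
    fun a => h2 _, ?_⟩
  · rw [e.symm.sum_comp q]; exact h1
  · rw [e.symm.sum_comp (fun a => q a • N (ρ a)), e.symm.sum_comp (fun a => q a * entropy (N (ρ a)))]

section
variable {γ ν : ℝ}

/-- The bound on Holevo values of the tensor power. -/
lemma holevo_le (h0 : 0 ≤ γ) (h1 : γ ≤ 1) (h2 : 0 ≤ ν) (h3 : ν ≤ 1) {χ : ℝ}
    (hSS : SSprop (1 - γ * ν) (γ * (1 - ν)) (γ * ν) (1 - γ + γ * ν) (Real.sqrt (1 - γ))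
      (Real.log 2 * χ)) (n : ℕ) {x : ℝ} (hx : x ∈ holevoSet (tensorPow (gadc γ ν) n)) :
    x ≤ n * χ := by
  obtain ⟨k, q, ρ, hq0, hq1, hρ, rfl⟩ := hx
  have hpsd : ∀ a, ((q a) • ρ a).PosSemidef := fun a => (hρ a).1.smul (hq0 a)
  have main := holevo_ind h0 h1 h2 h3 hSS n (Fin k) (fun a => q a • ρ a) hpsd
  simp only [T_smul, trace_re_smul, T_sum] at main
  have htr : ∀ a, (ρ a).trace.re = 1 := fun a => by rw [(hρ a).2]; simp
  simp only [htr, mul_one, hq1] at main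
  have hTtr : ∀ a, (tensorPow (gadc γ ν) n (ρ a)).trace.re = 1 := fun a => by rw [T_trace, htr]
  have hE : ∀ a, En (q a • tensorPow (gadc γ ν) n (ρ a)) =
      Real.log 2 * (q a * entropy (tensorPow (gadc γ ν) n (ρ a))) := by
    intro a
    rw [En_smul (T_psd h0 h1 h2 h3 (hρ a).1).1, En_eq_entropy (hTtr a)]
    ring
  simp only [hE] at main
  have hav : (∑ a, q a • tensorPow (gadc γ ν) n (ρ a)).trace.re = 1 := by
    rw [Matrix.trace_sum, Complex.re_sum]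
    simp only [trace_re_smul, hTtr, mul_one, hq1]
  rw [En_eq_entropy hav, ← Finset.mul_sum] at main
  have hlog := log_two_pos'
  have : Real.log 2 * (entropy (∑ a, q a • tensorPow (gadc γ ν) n (ρ a)) -
      ∑ a, q a * entropy (tensorPow (gadc γ ν) n (ρ a))) ≤ Real.log 2 * (n * χ) := by
    nlinarith
  exact le_of_mul_le_mul_left this hlog

end

/-- Input matrix of a pure state with populations `u0`, `u1` and sign `s`. -/
noncomputable def psiM (s u0 u1 : ℝ) : Matrix (Fin 2) (Fin 2) ℂ :=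
  !![(u0 : ℂ), ((s * Real.sqrt (u0 * u1) : ℝ) : ℂ); ((s * Real.sqrt (u0 * u1) : ℝ) : ℂ), (u1 : ℂ)]

lemma psiM_psd {s u0 u1 : ℝ} (hs : s * s = 1) (h0 : 0 ≤ u0) (h1 : 0 ≤ u1) :
    (psiM s u0 u1).PosSemidef := by
  have h := Matrix.posSemidef_vecMulVec_self_star
    (![((Real.sqrt u0 : ℝ) : ℂ), ((s * Real.sqrt u1 : ℝ) : ℂ)] : Fin 2 → ℂ)
  have he : vecMulVec (![((Real.sqrt u0 : ℝ) : ℂ), ((s * Real.sqrt u1 : ℝ) : ℂ)] : Fin 2 → ℂ)
      (star ![((Real.sqrt u0 : ℝ) : ℂ), ((s * Real.sqrt u1 : ℝ) : ℂ)]) = psiM s u0 u1 := by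
    have hsq := Real.mul_self_sqrt h0
    have hsq1 := Real.mul_self_sqrt h1
    have hm : Real.sqrt (u0 * u1) = Real.sqrt u0 * Real.sqrt u1 := Real.sqrt_mul h0 u1
    ext i j
    fin_cases i <;> fin_cases j <;> simp only [vecMulVec_apply, Pi.star_apply, psiM, hm] <;>
      simp [Complex.conj_ofReal]
    · rw [← Complex.ofReal_mul, hsq]
    · ring
    · ring
    · have : s * Real.sqrt u1 * (s * Real.sqrt u1) = u1 := by
        calc _ = (s * s) * (Real.sqrt u1 * Real.sqrt u1) := by ring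
          _ = u1 := by rw [hs, hsq1, one_mul]
      exact_mod_cast this
  rw [← he]
  exact h

lemma psiM_trace (s u0 u1 : ℝ) : (psiM s u0 u1).trace.re = u0 + u1 := by
  simp [psiM, Matrix.trace_fin_two]

lemma psiM_trace' (s u0 u1 : ℝ) : (psiM s u0 u1).trace = ((u0 + u1 : ℝ) : ℂ) := by
  simp [psiM, Matrix.trace_fin_two]

section
variable {γ ν : ℝ}

lemma gadc_smul (t : ℝ) (ρ : Matrix (Fin 2) (Fin 2) ℂ) :
    gadc γ ν (t • ρ) = t • gadc γ ν ρ := by
  ext i j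
  fin_cases i <;> fin_cases j <;> simp [gadc] <;> ring

lemma gadc_add (ρ ρ' : Matrix (Fin 2) (Fin 2) ℂ) :
    gadc γ ν (ρ + ρ') = gadc γ ν ρ + gadc γ ν ρ' := by
  ext i j
  fin_cases i <;> fin_cases j <;> simp [gadc] <;> ring

lemma gadc_psi (s u0 u1 : ℝ) :
    gadc γ ν (psiM s u0 u1) = blk (1 - γ * ν) (γ * (1 - ν)) (γ * ν) (1 - γ + γ * ν)
      (s * Real.sqrt (1 - γ)) u0 u1 := by
  ext i j
  fin_cases i <;> fin_cases j <;> simp [gadc, psiM, blk] <;> ring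

lemma gadc_trace (ρ : Matrix (Fin 2) (Fin 2) ℂ) : (gadc γ ν ρ).trace = ρ.trace := by
  simp only [gadc, Matrix.trace_fin_two, of_apply, cons_val', cons_val_zero, cons_val_one,
    cons_val_fin_one]
  push_cast
  ring

lemma gadc_eq_sum (h0 : 0 ≤ γ) (h1 : γ ≤ 1) (h2 : 0 ≤ ν) (h3 : ν ≤ 1)
    (ρ : Matrix (Fin 2) (Fin 2) ℂ) :
    gadc γ ν ρ = ∑ J : Fin 4, (of fun a b => ((Kr γ ν J a b : ℝ) : ℂ)) * ρ *
      (of fun a b => ((Kr γ ν J a b : ℝ) : ℂ))ᴴ := by
  have hp : (((Real.sqrt (1 - ν)) : ℝ) : ℂ) * ((Real.sqrt (1 - ν) : ℝ) : ℂ) = 1 - (ν : ℂ) := by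
    rw [← Complex.ofReal_mul, Real.mul_self_sqrt (by linarith)]
    simp
  have hq : (((Real.sqrt (1 - γ)) : ℝ) : ℂ) * ((Real.sqrt (1 - γ) : ℝ) : ℂ) = 1 - (γ : ℂ) := by
    rw [← Complex.ofReal_mul, Real.mul_self_sqrt (by linarith)]
    simp
  have hr : (((Real.sqrt ν) : ℝ) : ℂ) * ((Real.sqrt ν : ℝ) : ℂ) = (ν : ℂ) := by
    rw [← Complex.ofReal_mul, Real.mul_self_sqrt h2]
  have hg : (((Real.sqrt γ) : ℝ) : ℂ) * ((Real.sqrt γ : ℝ) : ℂ) = (γ : ℂ) := by
    rw [← Complex.ofReal_mul, Real.mul_self_sqrt h0]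
  ext i j
  fin_cases i <;> fin_cases j <;>
    simp [gadc, Kr, Fin.sum_univ_four, Fin.sum_univ_two, Matrix.sum_apply, Matrix.mul_apply,
      Complex.conj_ofReal]
  · linear_combination (ρ 0 0) * (-hp - ((Real.sqrt (1 - γ) : ℝ) : ℂ) * ((Real.sqrt (1 - γ) : ℝ) : ℂ) * hr -
      (ν : ℂ) * hq) + (ρ 1 1) * (-((Real.sqrt γ : ℝ) : ℂ) * ((Real.sqrt γ : ℝ) : ℂ) * hp - (1 - (ν : ℂ)) * hg)
  · linear_combination (ρ 0 1) * (-((Real.sqrt (1 - γ) : ℝ) : ℂ) * hp - ((Real.sqrt (1 - γ) : ℝ) : ℂ) * hr)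
  · linear_combination (ρ 1 0) * (-((Real.sqrt (1 - γ) : ℝ) : ℂ) * hp - ((Real.sqrt (1 - γ) : ℝ) : ℂ) * hr)
  · linear_combination (ρ 0 0) * (-((Real.sqrt γ : ℝ) : ℂ) * ((Real.sqrt γ : ℝ) : ℂ) * hr - (ν : ℂ) * hg) +
      (ρ 1 1) * (-((Real.sqrt (1 - γ) : ℝ) : ℂ) * ((Real.sqrt (1 - γ) : ℝ) : ℂ) * hp - (1 - (ν : ℂ)) * hq - hr)

lemma gadc_psd (h0 : 0 ≤ γ) (h1 : γ ≤ 1) (h2 : 0 ≤ ν) (h3 : ν ≤ 1)
    {ρ : Matrix (Fin 2) (Fin 2) ℂ} (h : ρ.PosSemidef) : (gadc γ ν ρ).PosSemidef := by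
  rw [gadc_eq_sum h0 h1 h2 h3]
  exact Matrix.posSemidef_sum _ fun J _ => h.mul_mul_conjTranspose_same _

/-- The sign of the off-diagonal part does not matter. -/
lemma En_blk_sign {w00 w01 w10 w11 c s u0 u1 : ℝ} (hs : s * s = 1) :
    En (blk w00 w01 w10 w11 (s * c) u0 u1) = En (blk w00 w01 w10 w11 c u0 u1) := by
  unfold En sumEig
  have h1 : (blk w00 w01 w10 w11 (s * c) u0 u1).trace = (blk w00 w01 w10 w11 c u0 u1).trace := by
    simp [blk, Matrix.trace_fin_two]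
  have h2 : (blk w00 w01 w10 w11 (s * c) u0 u1).det = (blk w00 w01 w10 w11 c u0 u1).det := by
    have hC : ((s : ℂ)) * (s : ℂ) = 1 := by exact_mod_cast hs
    simp only [blk, Matrix.det_fin_two_of]
    push_cast
    linear_combination (-(c : ℂ) * (c : ℂ) * ((Real.sqrt (u0 * u1) : ℝ) : ℂ) *
      ((Real.sqrt (u0 * u1) : ℝ) : ℂ)) * hC
  rw [Matrix.charpoly_fin_two, Matrix.charpoly_fin_two, h1, h2]

lemma blk_herm (w00 w01 w10 w11 c u0 u1 : ℝ) : (blk w00 w01 w10 w11 c u0 u1).IsHermitian := by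
  ext i j
  fin_cases i <;> fin_cases j <;> simp [blk, Complex.conj_ofReal]

lemma blk_zero (w00 w01 w10 w11 c : ℝ) : blk w00 w01 w10 w11 c 0 0 = 0 := by
  ext i j
  fin_cases i <;> fin_cases j <;> simp [blk]

lemma En_zero {m : Type*} [Fintype m] [DecidableEq m] : En (0 : Matrix m m ℂ) = 0 := by
  have h : (0 : Matrix m m ℂ).IsHermitian := by simp [IsHermitian]
  have := En_smul (ι := m) h 0
  simpa using this

/-- Diagonal matrix with two real entries. -/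
noncomputable def dg (t0 t1 : ℝ) : Matrix (Fin 2) (Fin 2) ℂ :=
  diagonal fun i => (((![t0, t1] : Fin 2 → ℝ) i : ℝ) : ℂ)

lemma En_dg (t0 t1 : ℝ) : En (dg t0 t1) = phi (t0 + t1) - phi t0 - phi t1 := by
  unfold En dg
  rw [sumEig_diagonal]
  simp [Matrix.trace_fin_two, Fin.sum_univ_two]
  ring

lemma dg_trace (t0 t1 : ℝ) : (dg t0 t1).trace.re = t0 + t1 := by
  simp [dg, Matrix.trace_fin_two]

/-- Two signs average out the off-diagonal part. -/
lemma blk_sign_sum (w00 w01 w10 w11 c u0 u1 : ℝ) :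
    blk w00 w01 w10 w11 ((1 : ℝ) * c) u0 u1 + blk w00 w01 w10 w11 ((-1 : ℝ) * c) u0 u1 =
      (2 : ℝ) • dg (w00 * u0 + w01 * u1) (w11 * u1 + w10 * u0) := by
  ext i j
  fin_cases i <;> fin_cases j <;> simp [blk, dg] <;> ring

lemma dg_sum {κ : Type*} (s : Finset κ) (f g : κ → ℝ) :
    ∑ a ∈ s, dg (f a) (g a) = dg (∑ a ∈ s, f a) (∑ a ∈ s, g a) := by
  ext i j
  simp only [Matrix.sum_apply, dg]
  fin_cases i <;> fin_cases j <;> simp

/-- The normalized input state for populations `u0`, `u1`. -/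
noncomputable def stOf (s u0 u1 : ℝ) : Matrix (Fin 2) (Fin 2) ℂ :=
  if u0 + u1 = 0 then psiM 1 1 0 else (1 / (u0 + u1)) • psiM s u0 u1

lemma stOf_state {s u0 u1 : ℝ} (hs : s * s = 1) (h0 : 0 ≤ u0) (h1 : 0 ≤ u1) :
    (stOf s u0 u1).PosSemidef ∧ (stOf s u0 u1).trace = 1 := by
  unfold stOf
  split_ifs with h
  · refine ⟨psiM_psd (by norm_num) (by norm_num) le_rfl, ?_⟩
    rw [psiM_trace']
    simp
  · have hμ : 0 < u0 + u1 := lt_of_le_of_ne (add_nonneg h0 h1) (Ne.symm h)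
    refine ⟨(psiM_psd hs h0 h1).smul (by positivity), ?_⟩
    rw [Matrix.trace_smul, psiM_trace', Complex.real_smul]
    push_cast
    have : ((u0 : ℂ) + (u1 : ℂ)) ≠ 0 := by exact_mod_cast h
    field_simp

lemma stOf_out {s u0 u1 m : ℝ} (h0 : 0 ≤ u0) (h1 : 0 ≤ u1) (hm : 0 < m) :
    ((u0 + u1) / (2 * m)) • gadc γ ν (stOf s u0 u1) =
      (1 / (2 * m)) • blk (1 - γ * ν) (γ * (1 - ν)) (γ * ν) (1 - γ + γ * ν)
        (s * Real.sqrt (1 - γ)) u0 u1 := by
  unfold stOf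
  split_ifs with h
  · have h2 : u0 = 0 := by linarith
    have h3 : u1 = 0 := by linarith
    rw [h2, h3, blk_zero]
    simp
  · rw [gadc_smul, gadc_psi, smul_smul]
    congr 1
    have hμ : u0 + u1 ≠ 0 := h
    field_simp

lemma stOf_ent {s u0 u1 m : ℝ} (hs : s * s = 1) (h0 : 0 ≤ u0) (h1 : 0 ≤ u1) (hm : 0 < m) :
    ((u0 + u1) / (2 * m)) * entropy (gadc γ ν (stOf s u0 u1)) * Real.log 2 =
      (1 / (2 * m)) * En (blk (1 - γ * ν) (γ * (1 - ν)) (γ * ν) (1 - γ + γ * ν)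
        (Real.sqrt (1 - γ)) u0 u1) := by
  by_cases h : u0 + u1 = 0
  · have h2 : u0 = 0 := by linarith
    have h3 : u1 = 0 := by linarith
    rw [h2, h3, blk_zero, En_zero]
    simp
  · have hμ : 0 < u0 + u1 := lt_of_le_of_ne (add_nonneg h0 h1) (Ne.symm h)
    have htr : (gadc γ ν (stOf s u0 u1)).trace.re = 1 := by
      rw [gadc_trace, (stOf_state hs h0 h1).2]
      simp
    have hE := En_eq_entropy htr
    have hst : stOf s u0 u1 = (1 / (u0 + u1)) • psiM s u0 u1 := by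
      unfold stOf
      rw [if_neg h]
    rw [hst, gadc_smul, gadc_psi, En_smul (blk_herm _ _ _ _ _ _ _), En_blk_sign hs] at hE
    rw [hst, gadc_smul, gadc_psi]
    have hl := log_two_pos'.ne'
    have : entropy ((1 / (u0 + u1)) • blk (1 - γ * ν) (γ * (1 - ν)) (γ * ν) (1 - γ + γ * ν)
        (s * Real.sqrt (1 - γ)) u0 u1) * Real.log 2 =
        1 / (u0 + u1) * En (blk (1 - γ * ν) (γ * (1 - ν)) (γ * ν) (1 - γ + γ * ν)
          (Real.sqrt (1 - γ)) u0 u1) := by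
      rw [hE]
      ring
    rw [mul_assoc, this]
    field_simp

/-- The single-site statement from an upper bound of the Holevo values of one use. -/
theorem ss_of_bound (h0 : 0 ≤ γ) (h1 : γ ≤ 1) (h2 : 0 ≤ ν) (h3 : ν ≤ 1) {χ : ℝ}
    (hub : ∀ x ∈ holevoSet (gadc γ ν), x ≤ χ) :
    SSprop (1 - γ * ν) (γ * (1 - ν)) (γ * ν) (1 - γ + γ * ν) (Real.sqrt (1 - γ))
      (Real.log 2 * χ) := by
  intro κ _ u0 u1 hu0 hu1
  have hl := log_two_pos'
  set U0 := ∑ a, u0 a with hU0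
  set U1 := ∑ a, u1 a with hU1
  have hU0n : 0 ≤ U0 := Finset.sum_nonneg fun a _ => hu0 a
  have hU1n : 0 ≤ U1 := Finset.sum_nonneg fun a _ => hu1 a
  have hms : ∑ a, (u0 a + u1 a) = U0 + U1 := Finset.sum_add_distrib
  rw [hms]
  have ht : (1 - γ * ν) * U0 + γ * (1 - ν) * U1 + ((1 - γ + γ * ν) * U1 + γ * ν * U0) = U0 + U1 := by
    ring
  rw [ht]
  by_cases hm0 : U0 + U1 = 0
  · have hU00 : U0 = 0 := by linarith
    have hU10 : U1 = 0 := by linarith
    have hz0 : ∀ a, u0 a = 0 := fun a =>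
      (Finset.sum_eq_zero_iff_of_nonneg fun a _ => hu0 a).mp hU00 a (Finset.mem_univ a)
    have hz1 : ∀ a, u1 a = 0 := fun a =>
      (Finset.sum_eq_zero_iff_of_nonneg fun a _ => hu1 a).mp hU10 a (Finset.mem_univ a)
    simp [hU00, hU10, hz0, hz1, blk_zero, En_zero, phi_zero]
  have hm : 0 < U0 + U1 := lt_of_le_of_ne (add_nonneg hU0n hU1n) (Ne.symm hm0)
  set m := U0 + U1 with hmd
  set sg : Bool → ℝ := fun b => if b then 1 else -1 with hsg
  have hsg1 : ∀ b, sg b * sg b = 1 := by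
    intro b
    cases b <;> simp [hsg]
  set wt : κ × Bool → ℝ := fun p => (u0 p.1 + u1 p.1) / (2 * m) with hwt
  set st : κ × Bool → Matrix (Fin 2) (Fin 2) ℂ := fun p => stOf (sg p.2) (u0 p.1) (u1 p.1) with hst
  have hwt0 : ∀ p, 0 ≤ wt p := fun p => div_nonneg (add_nonneg (hu0 _) (hu1 _)) (by positivity)
  have hwt1 : ∑ p, wt p = 1 := by
    rw [Fintype.sum_prod_type]
    simp only [hwt, Fintype.sum_bool]
    have : ∀ a, (u0 a + u1 a) / (2 * m) + (u0 a + u1 a) / (2 * m) = (u0 a + u1 a) / m := by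
      intro a
      field_simp
      ring
    simp only [this]
    rw [← Finset.sum_div, hms]
    exact div_self hm0
  have hmem := mem_holevoSet_fintype (gadc γ ν) wt st hwt0 hwt1
    (fun p => stOf_state (hsg1 _) (hu0 _) (hu1 _))
  have hle := hub _ hmem
  -- The average output
  have havg : ∑ p, wt p • gadc γ ν (st p) =
      (1 / m) • dg ((1 - γ * ν) * U0 + γ * (1 - ν) * U1) ((1 - γ + γ * ν) * U1 + γ * ν * U0) := by
    have h4 : ∀ p, wt p • gadc γ ν (st p) = (1 / (2 * m)) • blk (1 - γ * ν) (γ * (1 - ν)) (γ * ν)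
        (1 - γ + γ * ν) (sg p.2 * Real.sqrt (1 - γ)) (u0 p.1) (u1 p.1) :=
      fun p => stOf_out (hu0 _) (hu1 _) hm
    simp only [h4]
    rw [Fintype.sum_prod_type]
    simp only [Fintype.sum_bool, hsg, if_true, Bool.false_eq_true, if_false]
    have h5 : ∀ a, (1 / (2 * m)) • blk (1 - γ * ν) (γ * (1 - ν)) (γ * ν) (1 - γ + γ * ν)
        ((1 : ℝ) * Real.sqrt (1 - γ)) (u0 a) (u1 a) +
        (1 / (2 * m)) • blk (1 - γ * ν) (γ * (1 - ν)) (γ * ν) (1 - γ + γ * ν)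
        ((-1 : ℝ) * Real.sqrt (1 - γ)) (u0 a) (u1 a) =
        (1 / m) • dg ((1 - γ * ν) * u0 a + γ * (1 - ν) * u1 a)
          ((1 - γ + γ * ν) * u1 a + γ * ν * u0 a) := by
      intro a
      rw [← smul_add, blk_sign_sum, smul_smul]
      congr 1
      field_simp
    simp only [h5]
    rw [← Finset.smul_sum, dg_sum]
    congr 2
    · rw [Finset.sum_add_distrib, ← Finset.mul_sum, ← Finset.mul_sum]
    · rw [Finset.sum_add_distrib, ← Finset.mul_sum, ← Finset.mul_sum]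
  have hent : ∑ p, wt p * entropy (gadc γ ν (st p)) * Real.log 2 =
      (1 / m) * ∑ a, En (blk (1 - γ * ν) (γ * (1 - ν)) (γ * ν) (1 - γ + γ * ν)
        (Real.sqrt (1 - γ)) (u0 a) (u1 a)) := by
    have h4 : ∀ p, wt p * entropy (gadc γ ν (st p)) * Real.log 2 =
        (1 / (2 * m)) * En (blk (1 - γ * ν) (γ * (1 - ν)) (γ * ν) (1 - γ + γ * ν)
        (Real.sqrt (1 - γ)) (u0 p.1) (u1 p.1)) := fun p => stOf_ent (hsg1 _) (hu0 _) (hu1 _) hm
    simp only [h4]
    rw [Fintype.sum_prod_type, Finset.mul_sum]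
    refine Finset.sum_congr rfl fun a _ => ?_
    rw [Fintype.sum_bool]
    field_simp
    ring
  have hdg : En ((1 / m) • dg ((1 - γ * ν) * U0 + γ * (1 - ν) * U1)
      ((1 - γ + γ * ν) * U1 + γ * ν * U0)) = Real.log 2 * entropy (∑ p, wt p • gadc γ ν (st p)) := by
    rw [havg]
    apply En_eq_entropy
    rw [trace_re_smul, dg_trace, ht]
    exact one_div_mul_cancel hm0
  have hherm : (dg ((1 - γ * ν) * U0 + γ * (1 - ν) * U1)
      ((1 - γ + γ * ν) * U1 + γ * ν * U0)).IsHermitian := by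
    unfold dg
    rw [IsHermitian, diagonal_conjTranspose]
    congr 1
    funext i
    simp [Complex.conj_ofReal]
  rw [En_smul hherm, En_dg, ht] at hdg
  set S1 := ∑ a, En (blk (1 - γ * ν) (γ * (1 - ν)) (γ * ν) (1 - γ + γ * ν)
        (Real.sqrt (1 - γ)) (u0 a) (u1 a))
  set H := phi (U0 + U1) - phi ((1 - γ * ν) * U0 + γ * (1 - ν) * U1) -
      phi ((1 - γ + γ * ν) * U1 + γ * ν * U0) with hH
  have h5 : Real.log 2 * (entropy (∑ p, wt p • gadc γ ν (st p)) -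
      ∑ p, wt p * entropy (gadc γ ν (st p))) = (1 / m) * (H - S1) := by
    rw [mul_sub, ← hdg, Finset.mul_sum]
    have : ∑ p, Real.log 2 * (wt p * entropy (gadc γ ν (st p))) =
        ∑ p, wt p * entropy (gadc γ ν (st p)) * Real.log 2 :=
      Finset.sum_congr rfl fun p _ => by ring
    rw [this, hent]
    ring
  have h6 : (1 / m) * (H - S1) ≤ Real.log 2 * χ := by
    rw [← h5]
    exact mul_le_mul_of_nonneg_left hle hl.le
  have h7 : H - S1 ≤ Real.log 2 * χ * m := by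
    have h8 := mul_le_mul_of_nonneg_left h6 hm.le
    have h9 : m * ((1 / m) * (H - S1)) = H - S1 := by
      field_simp
    rw [h9] at h8
    linarith
  linarith

end

end Vale.Agent.Lib.P358
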