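import Mathlib

/-! Convexity and monotonicity of the function `C ↦ H((1 + √(1 - C²)) / 2)`. -/

namespace Vale.Agent.Lib.P358

open Set

/-- The function `log (1 + u) - log (1 - u)`. -/
noncomputable def Wf (u : ℝ) : ℝ := Real.log (1 + u) - Real.log (1 - u)

/-- Derivative of `εf`, as a function of `u = √(1 - C²)`. -/
noncomputable def Af (u : ℝ) : ℝ := Real.sqrt (1 - u ^ 2) * Wf u / (2 * u)

/-- The function `C ↦ H((1 + √(1 - C²)) / 2)`. -/
noncomputable def εf (C : ℝ) : ℝ := Real.binEntropy ((1 + Real.sqrt (1 - C ^ 2)) / 2)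

lemma Wf_ge {u : ℝ} (h0 : 0 ≤ u) (h1 : u < 1) : 2 * u ≤ Wf u := by
  have habs : |u| < 1 := by rwa [abs_of_nonneg h0]
  have h := Real.hasSum_log_sub_log_of_abs_lt_one habs
  have h2 := le_hasSum h 0 (fun j _ => by positivity)
  simpa [Wf] using h2

lemma hasDeriv_Wf {u : ℝ} (h : u ∈ Ioo (0 : ℝ) 1) : HasDerivAt Wf (2 / (1 - u ^ 2)) u := by
  have h1 : (1 + u) ≠ 0 := by linarith [h.1]
  have h2 : (1 - u) ≠ 0 := by linarith [h.2]
  have hd1 : HasDerivAt (fun t : ℝ => 1 + t) 1 u := by simpa using (hasDerivAt_id u).const_add 1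
  have hd2 : HasDerivAt (fun t : ℝ => 1 - t) (-1) u := by simpa using (hasDerivAt_id u).const_sub 1
  have := (hd1.log h1).sub (hd2.log h2)
  have h3 : 1 - u ^ 2 = (1 + u) * (1 - u) := by ring
  have e : 1 / (1 + u) - -1 / (1 - u) = 2 / (1 - u ^ 2) := by
    rw [h3]
    field_simp
    ring
  rw [e] at this
  exact this

lemma hasDeriv_R {u : ℝ} (h : u ∈ Ioo (0 : ℝ) 1) :
    HasDerivAt (fun t : ℝ => Real.sqrt (1 - t ^ 2)) (-u / Real.sqrt (1 - u ^ 2)) u := by
  have hpos : 0 < 1 - u ^ 2 := by nlinarith [h.1, h.2]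
  have hd : HasDerivAt (fun t : ℝ => 1 - t ^ 2) (-(2 * u)) u := by
    simpa using ((hasDerivAt_id u).pow 2).const_sub 1
  have := hd.sqrt hpos.ne'
  convert this using 1
  have hs : Real.sqrt (1 - u ^ 2) ≠ 0 := (Real.sqrt_pos.mpr hpos).ne'
  field_simp

lemma hasDeriv_Af {u : ℝ} (h : u ∈ Ioo (0 : ℝ) 1) :
    HasDerivAt Af ((2 * u - Wf u) / (2 * Real.sqrt (1 - u ^ 2) * u ^ 2)) u := by
  have hpos : 0 < 1 - u ^ 2 := by nlinarith [h.1, h.2]
  have hR := hasDeriv_R h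
  have hW := hasDeriv_Wf h
  have hu : u ≠ 0 := h.1.ne'
  have hs : Real.sqrt (1 - u ^ 2) ≠ 0 := (Real.sqrt_pos.mpr hpos).ne'
  have hss : Real.sqrt (1 - u ^ 2) ^ 2 = 1 - u ^ 2 := Real.sq_sqrt hpos.le
  have hd2 : HasDerivAt (fun t : ℝ => 2 * t) 2 u := by
    simpa using (hasDerivAt_id u).const_mul 2
  have := (hR.mul hW).div hd2 (by simpa using hu)
  have e : ((-u / Real.sqrt (1 - u ^ 2) * Wf u + Real.sqrt (1 - u ^ 2) * (2 / (1 - u ^ 2))) * (2 * u) -
      (Real.sqrt (1 - u ^ 2) * Wf u) * 2) / (2 * u) ^ 2 =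
      (2 * u - Wf u) / (2 * Real.sqrt (1 - u ^ 2) * u ^ 2) := by
    have hne : (1 - u ^ 2) ≠ 0 := hpos.ne'
    have h12 : 2 / (1 - u ^ 2) = 2 / Real.sqrt (1 - u ^ 2) ^ 2 := by rw [hss]
    rw [h12]
    set R := Real.sqrt (1 - u ^ 2) with hRd
    set W := Wf u
    have h13 : R ^ 2 = 1 - u ^ 2 := hss
    field_simp
    rw [h13]
    ring
  have h5 : HasDerivAt ((fun t : ℝ => Real.sqrt (1 - t ^ 2)) * Wf / fun t : ℝ => 2 * t)
      ((2 * u - Wf u) / (2 * Real.sqrt (1 - u ^ 2) * u ^ 2)) u := by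
    rw [← e]
    exact this
  exact h5

lemma Af_antitone : AntitoneOn Af (Ioo 0 1) := by
  apply antitoneOn_of_deriv_nonpos (convex_Ioo 0 1)
  · intro u hu
    exact (hasDeriv_Af hu).continuousAt.continuousWithinAt
  · intro u hu
    rw [interior_Ioo] at hu
    exact (hasDeriv_Af hu).differentiableAt.differentiableWithinAt
  · intro u hu
    rw [interior_Ioo] at hu
    rw [(hasDeriv_Af hu).deriv]
    have hpos : 0 < 1 - u ^ 2 := by nlinarith [hu.1, hu.2]
    apply div_nonpos_of_nonpos_of_nonneg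
    · linarith [Wf_ge hu.1.le hu.2]
    · have := Real.sqrt_nonneg (1 - u ^ 2)
      positivity

lemma hasDeriv_εf {C : ℝ} (h : C ∈ Ioo (0 : ℝ) 1) :
    HasDerivAt εf (Af (Real.sqrt (1 - C ^ 2))) C := by
  have hpos : 0 < 1 - C ^ 2 := by nlinarith [h.1, h.2]
  have hu0 : 0 < Real.sqrt (1 - C ^ 2) := Real.sqrt_pos.mpr hpos
  have hu1 : Real.sqrt (1 - C ^ 2) < 1 := by
    rw [Real.sqrt_lt' one_pos]
    nlinarith [h.1]
  set u := Real.sqrt (1 - C ^ 2) with hu
  have hp0 : (1 + u) / 2 ≠ 0 := by positivity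
  have hp1 : (1 + u) / 2 ≠ 1 := by
    intro h2
    linarith
  have hb := Real.hasDerivAt_binEntropy hp0 hp1
  have hR := hasDeriv_R h
  have hin : HasDerivAt (fun t : ℝ => (1 + Real.sqrt (1 - t ^ 2)) / 2) (-C / u / 2) C := by
    have := (hR.const_add 1).div_const 2
    simpa using this
  have hc := hb.comp C hin
  unfold εf
  have hval : Af u = (Real.log (1 - (1 + u) / 2) - Real.log ((1 + u) / 2)) * (-C / u / 2) := by
    have e1 : 1 - (1 + u) / 2 = (1 - u) / 2 := by ring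
    have h1u : (1 - u) ≠ 0 := by linarith
    have h1u' : (1 + u) ≠ 0 := by positivity
    rw [e1, Real.log_div h1u (by norm_num), Real.log_div h1u' (by norm_num)]
    unfold Af Wf
    have hR1 : Real.sqrt (1 - u ^ 2) = C := by
      have : 1 - u ^ 2 = C ^ 2 := by
        rw [hu, Real.sq_sqrt hpos.le]
        ring
      rw [this, Real.sqrt_sq h.1.le]
    rw [hR1]
    field_simp
    ring
  rw [hval]
  exact hc

lemma εf_continuous : Continuous εf := by
  unfold εf
  exact Real.binEntropy_continuous.comp (by fun_prop)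

lemma mem_Ioo_u {C : ℝ} (h : C ∈ Ioo (0 : ℝ) 1) : Real.sqrt (1 - C ^ 2) ∈ Ioo (0 : ℝ) 1 := by
  have hpos : 0 < 1 - C ^ 2 := by nlinarith [h.1, h.2]
  refine ⟨Real.sqrt_pos.mpr hpos, ?_⟩
  rw [Real.sqrt_lt' one_pos]
  nlinarith [h.1]

lemma εf_convex : ConvexOn ℝ (Icc 0 1) εf := by
  apply MonotoneOn.convexOn_of_deriv (convex_Icc 0 1) εf_continuous.continuousOn
  · rw [interior_Icc]
    intro C hC
    exact (hasDeriv_εf hC).differentiableAt.differentiableWithinAt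
  · rw [interior_Icc]
    intro C hC D hD hCD
    rw [(hasDeriv_εf hC).deriv, (hasDeriv_εf hD).deriv]
    apply Af_antitone (mem_Ioo_u hD) (mem_Ioo_u hC)
    apply Real.sqrt_le_sqrt
    nlinarith [hC.1, hD.1]

lemma εf_mono : MonotoneOn εf (Icc 0 1) := by
  apply monotoneOn_of_deriv_nonneg (convex_Icc 0 1) εf_continuous.continuousOn
  · rw [interior_Icc]
    intro C hC
    exact (hasDeriv_εf hC).differentiableAt.differentiableWithinAt
  · rw [interior_Icc]
    intro C hC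
    rw [(hasDeriv_εf hC).deriv]
    obtain ⟨h0, h1⟩ := mem_Ioo_u hC
    unfold Af
    have hW := Wf_ge h0.le h1
    apply div_nonneg _ (by positivity)
    exact mul_nonneg (Real.sqrt_nonneg _) (by linarith)

/-- Convexity of `q ↦ 2 √(a + b (q - ν)²)`. -/
lemma conv_sqrt_quad {a b ν : ℝ} (ha : 0 ≤ a) (hb : 0 ≤ b) :
    ConvexOn ℝ univ (fun q : ℝ => 2 * Real.sqrt (a + b * (q - ν) ^ 2)) := by
  refine ⟨convex_univ, ?_⟩
  intro x _ y _ l m hl hm hlm
  simp only [smul_eq_mul]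
  set A := a + b * (x - ν) ^ 2 with hA
  set B := a + b * (y - ν) ^ 2 with hB
  have hA0 : 0 ≤ A := by positivity
  have hB0 : 0 ≤ B := by positivity
  have hsA := Real.sq_sqrt hA0
  have hsB := Real.sq_sqrt hB0
  have hAB : a + b * ((x - ν) * (y - ν)) ≤ Real.sqrt A * Real.sqrt B := by
    rw [← Real.sqrt_mul hA0]
    apply Real.le_sqrt_of_sq_le
    have : 0 ≤ a * b * ((x - ν) - (y - ν)) ^ 2 := by positivity
    rw [hA, hB]
    nlinarith
  have key : Real.sqrt (a + b * (l * x + m * y - ν) ^ 2) ≤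
      l * Real.sqrt A + m * Real.sqrt B := by
    apply Real.sqrt_le_iff.mpr
    refine ⟨by positivity, ?_⟩
    have hm' : m = 1 - l := by linarith
    have e : (l * Real.sqrt A + m * Real.sqrt B) ^ 2 = l ^ 2 * A + m ^ 2 * B +
        2 * l * m * (Real.sqrt A * Real.sqrt B) := by
      rw [← hsA, ← hsB]
      simp only [Real.sqrt_sq (Real.sqrt_nonneg _)]
      ring
    rw [e]
    have h3 : 2 * l * m * (a + b * ((x - ν) * (y - ν))) ≤
        2 * l * m * (Real.sqrt A * Real.sqrt B) :=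
      mul_le_mul_of_nonneg_left hAB (by positivity)
    have e2 : a + b * (l * x + m * y - ν) ^ 2 = l ^ 2 * A + m ^ 2 * B +
        2 * l * m * (a + b * ((x - ν) * (y - ν))) := by
      rw [hA, hB, hm']
      ring
    rw [e2]
    linarith
  nlinarith

end Vale.Agent.Lib.P358
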