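import Vale.Agent.Lib.P358.Product
import Vale.Agent.Lib.P358.DefsF
import Vale.Agent.Lib.P358.Wootters

/-! The explicit one-parameter formula for the Holevo capacity. -/

namespace Vale.Agent.Lib.P358

open Matrix Set
open scoped ComplexOrder

set_option linter.unusedSectionVars false

variable {γ ν : ℝ}

/-- The determinant of the output for a pure input of population `q`. -/
noncomputable def Dq (γ ν q : ℝ) : ℝ := γ * ((1 - γ) * (q - ν) ^ 2 + ν * (1 - ν))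

/-- The output population. -/
noncomputable def tq (γ ν q : ℝ) : ℝ := (1 - γ) * q + γ * ν

lemma Dq_eq (q : ℝ) : Dq γ ν q = tq γ ν q * (1 - tq γ ν q) - (1 - γ) * (q * (1 - q)) := by
  unfold Dq tq
  ring

lemma Dq_nonneg (h0 : 0 ≤ γ) (h1 : γ ≤ 1) (h2 : 0 ≤ ν) (h3 : ν ≤ 1) (q : ℝ) : 0 ≤ Dq γ ν q := by
  unfold Dq
  have h4 : 0 ≤ 1 - γ := by linarith
  have h5 : 0 ≤ 1 - ν := by linarith
  positivity

lemma Dq_le (h1 : γ ≤ 1) {q : ℝ} (hq : q ∈ Icc (0 : ℝ) 1) : 4 * Dq γ ν q ≤ 1 := by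
  rw [Dq_eq]
  have h2 : 0 ≤ (1 - γ) * (q * (1 - q)) :=
    mul_nonneg (by linarith) (mul_nonneg hq.1 (by linarith [hq.2]))
  nlinarith [sq_nonneg (2 * tq γ ν q - 1)]

/-- The entropy of the output of a pure input with population `q`, in nats. -/
noncomputable def Gq (γ ν q : ℝ) : ℝ := Real.binEntropy ((1 + Real.sqrt (1 - 4 * Dq γ ν q)) / 2)

lemma Gq_eq_εf (h0 : 0 ≤ γ) (h1 : γ ≤ 1) (h2 : 0 ≤ ν) (h3 : ν ≤ 1) (q : ℝ) :
    Gq γ ν q = εf (2 * Real.sqrt (Dq γ ν q)) := by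
  unfold Gq εf
  have : (2 * Real.sqrt (Dq γ ν q)) ^ 2 = 4 * Dq γ ν q := by
    rw [mul_pow, Real.sq_sqrt (Dq_nonneg h0 h1 h2 h3 q)]
    norm_num
  rw [this]

lemma Gq_convex (h0 : 0 ≤ γ) (h1 : γ ≤ 1) (h2 : 0 ≤ ν) (h3 : ν ≤ 1) :
    ConvexOn ℝ (Icc 0 1) (Gq γ ν) := by
  have hC : ConvexOn ℝ univ (fun q : ℝ => 2 * Real.sqrt (Dq γ ν q)) := by
    have ha : 0 ≤ γ * (ν * (1 - ν)) := mul_nonneg h0 (mul_nonneg h2 (by linarith))
    have hb : 0 ≤ γ * (1 - γ) := mul_nonneg h0 (by linarith)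
    have := conv_sqrt_quad (ν := ν) ha hb
    convert this using 3
    unfold Dq
    ring_nf
  have hmem : ∀ q ∈ Icc (0 : ℝ) 1, 2 * Real.sqrt (Dq γ ν q) ∈ Icc (0 : ℝ) 1 := by
    intro q hq
    refine ⟨by positivity, ?_⟩
    have h4 := Dq_le (ν := ν) h1 hq
    have h5 := Dq_nonneg h0 h1 h2 h3 q
    have h6 := Real.sq_sqrt h5
    have h7 := Real.sqrt_nonneg (Dq γ ν q)
    nlinarith
  refine ⟨convex_Icc 0 1, ?_⟩
  intro x hx y hy l m hl hm hlm
  simp only [smul_eq_mul]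
  have hz : l * x + m * y ∈ Icc (0 : ℝ) 1 := by
    have := (convex_Icc (0 : ℝ) 1) hx hy hl hm hlm
    simpa [smul_eq_mul] using this
  rw [Gq_eq_εf h0 h1 h2 h3, Gq_eq_εf h0 h1 h2 h3, Gq_eq_εf h0 h1 h2 h3]
  have h4 := hC.2 (mem_univ x) (mem_univ y) hl hm hlm
  simp only [smul_eq_mul] at h4
  have h5 := εf_convex.2 (hmem x hx) (hmem y hy) hl hm hlm
  simp only [smul_eq_mul] at h5
  have h6 : l * (2 * Real.sqrt (Dq γ ν x)) + m * (2 * Real.sqrt (Dq γ ν y)) ∈ Icc (0 : ℝ) 1 := by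
    have := (convex_Icc (0 : ℝ) 1) (hmem x hx) (hmem y hy) hl hm hlm
    simpa [smul_eq_mul] using this
  exact (εf_mono (hmem _ hz) h6 h4).trans h5

/-- Entropy of the block matrix for a normalized input. -/
lemma En_blk_norm (h0 : 0 ≤ γ) (h1 : γ ≤ 1) (h2 : 0 ≤ ν) (h3 : ν ≤ 1) {q : ℝ}
    (hq : q ∈ Icc (0 : ℝ) 1) :
    En (blk (1 - γ * ν) (γ * (1 - ν)) (γ * ν) (1 - γ + γ * ν) (Real.sqrt (1 - γ)) (1 - q) q) =
      Gq γ ν q := by
  have hq1 : 0 ≤ 1 - q := by linarith [hq.2]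
  have hD := Dq_le (ν := ν) h1 hq
  have hw : Real.sqrt (1 - 4 * Dq γ ν q) ^ 2 = 1 - 4 * Dq γ ν q := Real.sq_sqrt (by linarith)
  have hcsq : Real.sqrt (1 - γ) ^ 2 = 1 - γ := Real.sq_sqrt (by linarith)
  set w := Real.sqrt (1 - 4 * Dq γ ν q) with hwd
  have hs : (1 + w) / 2 + (1 - w) / 2 = ((1 - γ * ν) * (1 - q) + γ * (1 - ν) * q) +
      ((1 - γ + γ * ν) * q + γ * ν * (1 - q)) := by ring
  have hd : (1 + w) / 2 * ((1 - w) / 2) = ((1 - γ * ν) * (1 - q) + γ * (1 - ν) * q) *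
      ((1 - γ + γ * ν) * q + γ * ν * (1 - q)) - Real.sqrt (1 - γ) ^ 2 * ((1 - q) * q) := by
    rw [hcsq]
    have : (1 + w) / 2 * ((1 - w) / 2) = (1 - w ^ 2) / 4 := by ring
    rw [this, hw, Dq_eq]
    unfold tq
    ring
  unfold En
  rw [blk_sumEig _ _ _ _ _ _ _ hq1 hq.1 hs hd, blk_trace, ← hs]
  unfold Gq
  rw [Real.binEntropy_eq_negMulLog_add_negMulLog_one_sub, ← hwd]
  have e1 : (1 + w) / 2 + (1 - w) / 2 = 1 := by ring
  have e2 : 1 - (1 + w) / 2 = (1 - w) / 2 := by ring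
  rw [e1, e2]
  simp [phi, Real.negMulLog]
  ring

lemma blk_smul (w00 w01 w10 w11 c : ℝ) {μ : ℝ} (hμ : 0 ≤ μ) (a b : ℝ) (ha : 0 ≤ a) :
    blk w00 w01 w10 w11 c (μ * a) (μ * b) = μ • blk w00 w01 w10 w11 c a b := by
  have hs : Real.sqrt (μ * a * (μ * b)) = μ * Real.sqrt (a * b) := by
    have : μ * a * (μ * b) = μ ^ 2 * (a * b) := by ring
    rw [this, Real.sqrt_mul (by positivity), Real.sqrt_sq hμ]
  ext i j
  fin_cases i <;> fin_cases j <;> simp [blk, hs] <;> ring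

lemma En_blk_hom (h0 : 0 ≤ γ) (h1 : γ ≤ 1) (h2 : 0 ≤ ν) (h3 : ν ≤ 1) {u0 u1 : ℝ}
    (hu0 : 0 ≤ u0) (hu1 : 0 ≤ u1) :
    En (blk (1 - γ * ν) (γ * (1 - ν)) (γ * ν) (1 - γ + γ * ν) (Real.sqrt (1 - γ)) u0 u1) =
      (u0 + u1) * Gq γ ν (u1 / (u0 + u1)) := by
  by_cases hm : u0 + u1 = 0
  · have e0 : u0 = 0 := by linarith
    have e1 : u1 = 0 := by linarith
    rw [e0, e1, blk_zero, En_zero]
    simp
  · have hμ : 0 < u0 + u1 := lt_of_le_of_ne (add_nonneg hu0 hu1) (Ne.symm hm)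
    set q := u1 / (u0 + u1) with hq
    have hq0 : 0 ≤ q := div_nonneg hu1 hμ.le
    have hq1 : q ≤ 1 := by
      rw [hq, div_le_one hμ]
      linarith
    have e0 : u0 = (u0 + u1) * (1 - q) := by
      rw [hq]
      field_simp
      ring
    have e1 : u1 = (u0 + u1) * q := by
      rw [hq]
      field_simp
    have : blk (1 - γ * ν) (γ * (1 - ν)) (γ * ν) (1 - γ + γ * ν) (Real.sqrt (1 - γ)) u0 u1 =
        (u0 + u1) • blk (1 - γ * ν) (γ * (1 - ν)) (γ * ν) (1 - γ + γ * ν) (Real.sqrt (1 - γ))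
          (1 - q) q := by
      rw [← blk_smul _ _ _ _ _ hμ.le _ _ (by linarith), ← e0, ← e1]
    rw [this, En_smul (blk_herm _ _ _ _ _ _ _), En_blk_norm h0 h1 h2 h3 ⟨hq0, hq1⟩]

/-- The single-site statement, from the maximum of the explicit function. -/
theorem ss_of_formula (h0 : 0 ≤ γ) (h1 : γ ≤ 1) (h2 : 0 ≤ ν) (h3 : ν ≤ 1) {M : ℝ}
    (hM : ∀ q ∈ Icc (0 : ℝ) 1, gadcF γ ν q ≤ M) :
    SSprop (1 - γ * ν) (γ * (1 - ν)) (γ * ν) (1 - γ + γ * ν) (Real.sqrt (1 - γ))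
      (Real.log 2 * M) := by
  intro κ _ u0 u1 hu0 hu1
  have hl := log_two_pos'
  set U0 := ∑ a, u0 a with hU0
  set U1 := ∑ a, u1 a with hU1
  have hU0n : 0 ≤ U0 := Finset.sum_nonneg fun a _ => hu0 a
  have hU1n : 0 ≤ U1 := Finset.sum_nonneg fun a _ => hu1 a
  have hms : ∑ a, (u0 a + u1 a) = U0 + U1 := Finset.sum_add_distrib
  rw [hms]
  have ht : (1 - γ * ν) * U0 + γ * (1 - ν) * U1 + ((1 - γ + γ * ν) * U1 + γ * ν * U0) = U0 + U1 := by
    ring
  rw [ht]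
  by_cases hm0 : U0 + U1 = 0
  · have hU00 : U0 = 0 := by linarith
    have hU10 : U1 = 0 := by linarith
    have hz0 : ∀ a, u0 a = 0 := fun a =>
      (Finset.sum_eq_zero_iff_of_nonneg fun a _ => hu0 a).mp hU00 a (Finset.mem_univ a)
    have hz1 : ∀ a, u1 a = 0 := fun a =>
      (Finset.sum_eq_zero_iff_of_nonneg fun a _ => hu1 a).mp hU10 a (Finset.mem_univ a)
    simp [hU00, hU10, hz0, hz1, blk_zero, En_zero, phi_zero]
  have hm : 0 < U0 + U1 := lt_of_le_of_ne (add_nonneg hU0n hU1n) (Ne.symm hm0)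
  set m := U0 + U1 with hmd
  set qb := U1 / m with hqb
  have hqb0 : 0 ≤ qb := div_nonneg hU1n hm.le
  have hqb1 : qb ≤ 1 := by
    rw [hqb, div_le_one hm, hmd]
    linarith
  have hJ := (Gq_convex (ν := ν) h0 h1 h2 h3).map_sum_le (t := Finset.univ)
    (w := fun a => (u0 a + u1 a) / m) (p := fun a => u1 a / (u0 a + u1 a))
    (fun a _ => div_nonneg (add_nonneg (hu0 a) (hu1 a)) hm.le)
    (by rw [← Finset.sum_div, hms]; exact div_self hm0)
    (fun a _ => by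
      constructor
      · exact div_nonneg (hu1 a) (add_nonneg (hu0 a) (hu1 a))
      · exact div_le_one_of_le₀ (by linarith [hu0 a]) (add_nonneg (hu0 a) (hu1 a)))
  have hbar : ∑ a, ((u0 a + u1 a) / m) • (u1 a / (u0 a + u1 a)) = qb := by
    rw [hqb, hU1, Finset.sum_div]
    refine Finset.sum_congr rfl fun a _ => ?_
    rw [smul_eq_mul]
    by_cases h : u0 a + u1 a = 0
    · have e1 : u1 a = 0 := by linarith [hu0 a, hu1 a]
      rw [e1]
      simp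
    · field_simp
  rw [hbar] at hJ
  simp only [smul_eq_mul] at hJ
  have hS : ∑ a, En (blk (1 - γ * ν) (γ * (1 - ν)) (γ * ν) (1 - γ + γ * ν) (Real.sqrt (1 - γ))
      (u0 a) (u1 a)) = m * ∑ a, ((u0 a + u1 a) / m * Gq γ ν (u1 a / (u0 a + u1 a))) := by
    rw [Finset.mul_sum]
    refine Finset.sum_congr rfl fun a _ => ?_
    rw [En_blk_hom h0 h1 h2 h3 (hu0 a) (hu1 a)]
    field_simp
  rw [hS]
  have hG := mul_le_mul_of_nonneg_left hJ hm.le
  have hF := hM qb ⟨hqb0, hqb1⟩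
  unfold gadcF at hF
  rw [div_le_iff₀ hl] at hF
  have hb1 : (1 + Real.sqrt (1 - 4 * (γ * ((1 - γ) * (qb - ν) ^ 2 + ν * (1 - ν))))) / 2 =
      (1 + Real.sqrt (1 - 4 * Dq γ ν qb)) / 2 := rfl
  rw [hb1] at hF
  have hU1e : U1 = m * qb := by
    rw [hqb]
    field_simp
  set t := (1 - γ) * qb + γ * ν with htd
  have ht1 : (1 - γ + γ * ν) * U1 + γ * ν * U0 = m * t := by
    have : U0 = m - U1 := by rw [hmd]; ring
    rw [this, hU1e, htd]
    ring
  have ht0 : (1 - γ * ν) * U0 + γ * (1 - ν) * U1 = m * (1 - t) := by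
    have : U0 = m - U1 := by rw [hmd]; ring
    rw [this, hU1e, htd]
    ring
  rw [ht0, ht1, phi_mul, phi_mul]
  have hent : Real.binEntropy t = -phi t - phi (1 - t) := by
    rw [Real.binEntropy_eq_negMulLog_add_negMulLog_one_sub]
    simp [phi, Real.negMulLog]
    ring
  rw [hent] at hF
  have e3 : Gq γ ν qb = Real.binEntropy ((1 + Real.sqrt (1 - 4 * Dq γ ν qb)) / 2) := rfl
  rw [← e3] at hF
  have e4 : phi m - (m * phi (1 - t) + (1 - t) * phi m) - (m * phi t + t * phi m) =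
      m * (-phi t - phi (1 - t)) := by ring
  rw [e4]
  have hmF := mul_le_mul_of_nonneg_left hF hm.le
  nlinarith

/-- Every value of the explicit function is a Holevo value. -/
theorem formula_mem (h0 : 0 ≤ γ) (h1 : γ ≤ 1) (h2 : 0 ≤ ν) (h3 : ν ≤ 1) {q : ℝ}
    (hq : q ∈ Icc (0 : ℝ) 1) : gadcF γ ν q ∈ holevoSet (gadc γ ν) := by
  have hl := log_two_pos'
  have hq1 : 0 ≤ 1 - q := by linarith [hq.2]
  set sg : Bool → ℝ := fun b => if b then 1 else -1 with hsg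
  have hsg1 : ∀ b, sg b * sg b = 1 := by
    intro b
    cases b <;> simp [hsg]
  have hstate : ∀ b, (psiM (sg b) (1 - q) q).PosSemidef ∧ (psiM (sg b) (1 - q) q).trace = 1 := by
    intro b
    refine ⟨psiM_psd (hsg1 b) hq1 hq.1, ?_⟩
    rw [psiM_trace']
    simp
  have hmem := mem_holevoSet_fintype (gadc γ ν) (κ := Bool) (fun _ => (1 / 2 : ℝ))
    (fun b => psiM (sg b) (1 - q) q) (fun _ => by norm_num) (by simp) hstate
  convert hmem using 1
  have hent : ∀ b, entropy (gadc γ ν (psiM (sg b) (1 - q) q)) = Gq γ ν q / Real.log 2 := by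
    intro b
    have htr : (gadc γ ν (psiM (sg b) (1 - q) q)).trace.re = 1 := by
      rw [gadc_trace, (hstate b).2]
      simp
    have hE := En_eq_entropy htr
    rw [gadc_psi, En_blk_sign (hsg1 b), En_blk_norm h0 h1 h2 h3 hq] at hE
    rw [gadc_psi] at *
    rw [hE]
    field_simp
  simp only [hent]
  have havg : ∑ b, (1 / 2 : ℝ) • gadc γ ν (psiM (sg b) (1 - q) q) =
      dg (1 - tq γ ν q) (tq γ ν q) := by
    rw [Fintype.sum_bool]
    simp only [gadc_psi, hsg, if_true, Bool.false_eq_true, if_false]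
    rw [← smul_add, blk_sign_sum, smul_smul]
    norm_num
    congr 1
    · unfold tq
      ring
    · unfold tq
      ring
  rw [havg]
  have htr : (dg (1 - tq γ ν q) (tq γ ν q)).trace.re = 1 := by
    rw [dg_trace]
    ring
  have hE := En_eq_entropy htr
  rw [En_dg] at hE
  have e1 : entropy (dg (1 - tq γ ν q) (tq γ ν q)) = Real.binEntropy (tq γ ν q) / Real.log 2 := by
    rw [eq_div_iff hl.ne']
    have e2 : 1 - tq γ ν q + tq γ ν q = 1 := by ring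
    rw [e2] at hE
    rw [Real.binEntropy_eq_negMulLog_add_negMulLog_one_sub]
    simp only [phi, Real.negMulLog] at hE ⊢
    simp only [Real.log_one, mul_zero] at hE
    linarith
  rw [e1]
  unfold gadcF
  simp only [Fintype.sum_bool]
  unfold Gq Dq tq
  ring

/-- The capacity is the maximum of the explicit function. -/
theorem gadc_formula (h0 : 0 ≤ γ) (h1 : γ ≤ 1) (h2 : 0 ≤ ν) (h3 : ν ≤ 1) :
    IsGreatest (gadcF γ ν '' Icc 0 1) (holevoCapacity (gadc γ ν)) := by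
  have hcont : Continuous (gadcF γ ν) := by
    unfold gadcF
    fun_prop
  obtain ⟨qs, hqs, hmax⟩ := isCompact_Icc.exists_isMaxOn (s := Icc (0 : ℝ) 1)
    ⟨0, by simp⟩ hcont.continuousOn
  obtain ⟨hlub, hlubn, -, -⟩ := gadc_additivity h0 h1 h2 h3
  have hup : ∀ q ∈ Icc (0 : ℝ) 1, gadcF γ ν q ≤ gadcF γ ν qs := fun q hq => hmax hq
  have hSS := ss_of_formula h0 h1 h2 h3 hup
  have h4 : gadcF γ ν qs ≤ holevoCapacity (gadc γ ν) := hlub.1 (formula_mem h0 h1 h2 h3 hqs)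
  have h5 : holevoCapacity (gadc γ ν) ≤ gadcF γ ν qs := by
    have h6 := (hlubn 1).2 (show ((1 : ℕ) : ℝ) * gadcF γ ν qs ∈
      upperBounds (holevoSet (tensorPow (gadc γ ν) 1)) from
      fun x hx => holevo_le h0 h1 h2 h3 hSS 1 hx)
    simpa using h6
  have heq : gadcF γ ν qs = holevoCapacity (gadc γ ν) := le_antisymm h4 h5
  refine ⟨⟨qs, hqs, heq⟩, ?_⟩
  rintro _ ⟨q, hq, rfl⟩
  rw [← heq]
  exact hup q hq

end Vale.Agent.Lib.P358
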