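import Vale.Agent.Lib.P358.Tensor

/-! The additivity induction for the Holevo quantity. -/

namespace Vale.Agent.Lib.P358

open Matrix
open scoped ComplexOrder

set_option linter.unusedSectionVars false

variable {ι : Type*} [Fintype ι] [DecidableEq ι]

lemma eU_conj_diag {H : Matrix ι ι ℂ} (h : H.IsHermitian) :
    (eU h)ᴴ * H * eU h = diagonal (fun i => ((h.eigenvalues i : ℝ) : ℂ)) := by
  calc (eU h)ᴴ * H * eU h
      = (eU h)ᴴ * (eU h * diagonal (fun i => ((h.eigenvalues i : ℝ) : ℂ)) * (eU h)ᴴ) * eU h := by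
        rw [← spectral_eq h]
    _ = ((eU h)ᴴ * eU h) * diagonal (fun i => ((h.eigenvalues i : ℝ) : ℂ)) * ((eU h)ᴴ * eU h) := by
        simp only [Matrix.mul_assoc]
    _ = _ := by rw [star_mul_eU h, Matrix.one_mul, Matrix.mul_one]

lemma qf_single (Z : Matrix ι ι ℂ) (k : ι) : qf Z (Pi.single k 1) = (Z k k).re := by
  unfold qf
  simp [Matrix.mulVec_single, dotProduct, Pi.single_apply]

/-- Diagonal entries are majorized by the spectrum. -/
lemma schur_phi {Z : Matrix ι ι ℂ} (hZ : Z.PosSemidef) :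
    ∑ k, phi ((Z k k).re) ≤ sumEig phi Z := by
  have h := hZ.1
  rw [sumEig_eq h phi]
  set p : ι → ι → ℝ := fun i k => Complex.normSq (((eU h)ᴴ *ᵥ Pi.single k 1) i) with hp
  have hp0 : ∀ i k, 0 ≤ p i k := fun i k => Complex.normSq_nonneg _
  have hcol : ∀ k, ∑ i, p i k = 1 := by
    intro k
    rw [hp]
    simp only
    rw [nsq_coord h (Pi.single k 1)]
    unfold nsq
    simp [dotProduct, Pi.single_apply]
  have hrow : ∀ i, ∑ k, p i k = 1 := by
    intro i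
    have h1 : ((eU h)ᴴ * ((eU h)ᴴ)ᴴ) i i = 1 := by
      rw [conjTranspose_conjTranspose, star_mul_eU h, Matrix.one_apply_eq]
    rw [Matrix.mul_apply] at h1
    have h2 : ∀ k, (eU h)ᴴ i k * ((eU h)ᴴ)ᴴ k i = ((p i k : ℝ) : ℂ) := by
      intro k
      rw [conjTranspose_apply ((eU h)ᴴ) i k]
      simp only [hp, Matrix.mulVec_single, MulOpposite.op_one, one_smul, col_apply]
      rw [Complex.star_def, Complex.mul_conj]
    simp_rw [h2] at h1
    exact_mod_cast h1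
  have hle : ∀ k, phi ((Z k k).re) ≤ ∑ i, p i k * phi (h.eigenvalues i) := by
    intro k
    have hq : (Z k k).re = ∑ i, p i k * h.eigenvalues i := by
      rw [← qf_single, qf_eq_sum h]
      exact Finset.sum_congr rfl fun i _ => by rw [hp]; ring
    rw [hq]
    have := Real.convexOn_mul_log.map_sum_le (t := Finset.univ) (w := fun i => p i k)
      (p := fun i => h.eigenvalues i) (fun i _ => hp0 i k) (hcol k)
      (fun i _ => hZ.eigenvalues_nonneg i)
    simpa [phi, smul_eq_mul] using this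
  calc ∑ k, phi ((Z k k).re) ≤ ∑ k, ∑ i, p i k * phi (h.eigenvalues i) :=
        Finset.sum_le_sum fun k _ => hle k
    _ = ∑ i, ∑ k, p i k * phi (h.eigenvalues i) := Finset.sum_comm
    _ = ∑ i, phi (h.eigenvalues i) := by
        refine Finset.sum_congr rfl fun i _ => ?_
        rw [← Finset.sum_mul, hrow, one_mul]

/-- Pinching increases entropy. -/
lemma pinch {M0 M1 X X' : Matrix ι ι ℂ} (h0 : M0.IsHermitian) (h1 : M1.IsHermitian)
    (hY : (fromBlocks M0 X X' M1).PosSemidef) :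
    sumEig phi M0 + sumEig phi M1 ≤ sumEig phi (fromBlocks M0 X X' M1) := by
  set W : Matrix (ι ⊕ ι) (ι ⊕ ι) ℂ := fromBlocks (eU h0) 0 0 (eU h1) with hW
  have hWW : Wᴴ * W = 1 := by
    rw [hW, fromBlocks_conjTranspose, fromBlocks_multiply]
    simp [star_mul_eU]
  have hU : Wᴴ * (Wᴴ)ᴴ = 1 := by rw [conjTranspose_conjTranspose, hWW]
  have hZ : (Wᴴ * fromBlocks M0 X X' M1 * W).PosSemidef := hY.conjTranspose_mul_mul_same W
  have hsE := sumEig_conj hU phi (fromBlocks M0 X X' M1)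
  rw [conjTranspose_conjTranspose] at hsE
  have hs := schur_phi hZ
  rw [hsE] at hs
  refine le_trans (le_of_eq ?_) hs
  have hZe : Wᴴ * fromBlocks M0 X X' M1 * W =
      fromBlocks ((eU h0)ᴴ * M0 * eU h0) ((eU h0)ᴴ * X * eU h1) ((eU h1)ᴴ * X' * eU h0)
        ((eU h1)ᴴ * M1 * eU h1) := by
    rw [hW, fromBlocks_conjTranspose, fromBlocks_multiply, fromBlocks_multiply]
    simp
  rw [hZe, eU_conj_diag h0, eU_conj_diag h1, Fintype.sum_sum_type, sumEig_eq h0, sumEig_eq h1]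
  simp

lemma trace_reindex_aux {m n : Type*} [Fintype m] [DecidableEq m] [Fintype n] [DecidableEq n]
    (e : m ≃ n) (M : Matrix m m ℂ) : (reindex e e M).trace = M.trace := by
  simp only [Matrix.trace, reindex_apply, diag_apply, submatrix_apply]
  exact e.symm.sum_comp fun i => M i i

lemma En_reindex {m n : Type*} [Fintype m] [DecidableEq m] [Fintype n] [DecidableEq n]
    (e : m ≃ n) (M : Matrix m m ℂ) : En (reindex e e M) = En M := by
  unfold En
  rw [sumEig_reindex, trace_reindex_aux]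

section linear

variable {m : Type*} [Fintype m] [DecidableEq m] (N : Matrix m m ℂ → Matrix m m ℂ) {n : ℕ}

lemma T_sum {κ : Type*} (s : Finset κ) (Q : κ → Matrix (Fin n → m) (Fin n → m) ℂ) :
    tensorPow N n (∑ a ∈ s, Q a) = ∑ a ∈ s, tensorPow N n (Q a) := by
  ext x y
  simp only [tensorPow, of_apply, Matrix.sum_apply, Finset.mul_sum]
  exact (Finset.sum_congr rfl fun x' _ => Finset.sum_comm).trans Finset.sum_comm

lemma T_add (Q Q' : Matrix (Fin n → m) (Fin n → m) ℂ) :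
    tensorPow N n (Q + Q') = tensorPow N n Q + tensorPow N n Q' := by
  ext x y
  simp only [tensorPow, of_apply, Matrix.add_apply, mul_add, Finset.sum_add_distrib]

lemma T_smul (t : ℝ) (Q : Matrix (Fin n → m) (Fin n → m) ℂ) :
    tensorPow N n (t • Q) = t • tensorPow N n Q := by
  ext x y
  simp only [tensorPow, of_apply, Matrix.smul_apply, Finset.smul_sum, mul_smul_comm]

end linear

lemma Qb_sum {n : ℕ} {κ : Type*} (s : Finset κ) (Q : κ → Matrix (S (n + 1)) (S (n + 1)) ℂ)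
    (a b : Fin 2) : Qb (∑ c ∈ s, Q c) a b = ∑ c ∈ s, Qb (Q c) a b := by
  ext x y
  simp [Qb, Matrix.sum_apply]

lemma T_zero {γ ν : ℝ} (Q : Matrix (S 0) (S 0) ℂ) : tensorPow (gadc γ ν) 0 Q = Q := by
  ext x y
  simp only [tensorPow, of_apply, Finset.univ_eq_empty, Finset.prod_empty, one_mul]
  rw [Fintype.sum_unique]
  rw [Fintype.sum_unique]
  exact congrArg₂ Q (Subsingleton.elim _ _) (Subsingleton.elim _ _)

lemma trace_Qb {n : ℕ} (Q : Matrix (S (n + 1)) (S (n + 1)) ℂ) :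
    Q.trace = (Qb Q 0 0).trace + (Qb Q 1 1).trace := by
  rw [← trace_reindex_aux (splitE n) Q, reindex_split, trace_fromBlocks_aux]

lemma T_trace {γ ν : ℝ} : ∀ (n : ℕ) (Q : Matrix (S n) (S n) ℂ),
    (tensorPow (gadc γ ν) n Q).trace = Q.trace
  | 0, Q => by rw [T_zero]
  | n + 1, Q => by
    rw [← trace_reindex_aux (splitE n) (tensorPow (gadc γ ν) (n + 1) Q), T_blocks,
      trace_fromBlocks_aux, Matrix.trace_add, Matrix.trace_add, Matrix.trace_smul,
      Matrix.trace_smul, Matrix.trace_smul, Matrix.trace_smul, T_trace n, T_trace n, trace_Qb Q]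
    simp only [Complex.real_smul]
    push_cast
    ring

/-- The single-site statement that drives the induction. -/
def SSprop (w00 w01 w10 w11 c χ : ℝ) : Prop :=
  ∀ (κ : Type) [Fintype κ] (u0 u1 : κ → ℝ), (∀ a, 0 ≤ u0 a) → (∀ a, 0 ≤ u1 a) →
    phi ((w00 * ∑ a, u0 a + w01 * ∑ a, u1 a) + (w11 * ∑ a, u1 a + w10 * ∑ a, u0 a)) -
      phi (w00 * ∑ a, u0 a + w01 * ∑ a, u1 a) - phi (w11 * ∑ a, u1 a + w10 * ∑ a, u0 a) ≤
    ∑ a, En (blk w00 w01 w10 w11 c (u0 a) (u1 a)) + χ * ∑ a, (u0 a + u1 a)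

section main
variable {γ ν : ℝ}

lemma weights_nonneg (h0 : 0 ≤ γ) (h1 : γ ≤ 1) (h2 : 0 ≤ ν) (h3 : ν ≤ 1) :
    0 ≤ 1 - γ * ν ∧ 0 ≤ γ * (1 - ν) ∧ 0 ≤ γ * ν ∧ 0 ≤ 1 - γ + γ * ν ∧
      (Real.sqrt (1 - γ)) ^ 2 ≤ (1 - γ * ν) * (1 - γ + γ * ν) := by
  refine ⟨by nlinarith, mul_nonneg h0 (by linarith), mul_nonneg h0 h2, by nlinarith, ?_⟩
  rw [Real.sq_sqrt (by linarith)]
  have h4 : 0 ≤ γ * γ * (ν * (1 - ν)) :=
    mul_nonneg (mul_nonneg h0 h0) (mul_nonneg h2 (by linarith))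
  nlinarith

lemma T_succ_outY (h0 : 0 ≤ γ) (h1 : γ ≤ 1) (h2 : 0 ≤ ν) (h3 : ν ≤ 1) {n : ℕ}
    {Q : Matrix (S (n + 1)) (S (n + 1)) ℂ} (hQ : Q.PosSemidef) :
    (fromBlocks (tensorPow (gadc γ ν) n (Qb Q 0 0)) (tensorPow (gadc γ ν) n (Qb Q 0 1))
      (tensorPow (gadc γ ν) n (Qb Q 0 1))ᴴ (tensorPow (gadc γ ν) n (Qb Q 1 1))).PosSemidef ∧
    reindex (splitE n) (splitE n) (tensorPow (gadc γ ν) (n + 1) Q) =
      outY (1 - γ * ν) (γ * (1 - ν)) (γ * ν) (1 - γ + γ * ν) (Real.sqrt (1 - γ))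
        (tensorPow (gadc γ ν) n (Qb Q 0 0)) (tensorPow (gadc γ ν) n (Qb Q 1 1))
        (tensorPow (gadc γ ν) n (Qb Q 0 1)) := by
  have hF : (fromBlocks (Qb Q 0 0) (Qb Q 0 1) (Qb Q 1 0) (Qb Q 1 1)).PosSemidef := by
    rw [← reindex_split, reindex_apply]
    exact hQ.submatrix _
  have hcp := block_cp h0 h1 h2 h3 hF
  have hX : tensorPow (gadc γ ν) n (Qb Q 1 0) = (tensorPow (gadc γ ν) n (Qb Q 0 1))ᴴ := by
    have h := hcp.1
    unfold IsHermitian at h
    rw [fromBlocks_conjTranspose] at h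
    exact (fromBlocks_inj.mp h).2.2.1.symm
  refine ⟨by rw [← hX]; exact hcp, ?_⟩
  rw [T_blocks, hX]
  rfl

/-- One use of the main inequality. -/
lemma step_single (h0 : 0 ≤ γ) (h1 : γ ≤ 1) (h2 : 0 ≤ ν) (h3 : ν ≤ 1) {n : ℕ}
    {Q : Matrix (S (n + 1)) (S (n + 1)) ℂ} (hQ : Q.PosSemidef) :
    En (tensorPow (gadc γ ν) n (Qb Q 0 0)) + En (tensorPow (gadc γ ν) n (Qb Q 1 1)) +
      En (blk (1 - γ * ν) (γ * (1 - ν)) (γ * ν) (1 - γ + γ * ν) (Real.sqrt (1 - γ))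
        (Qb Q 0 0).trace.re (Qb Q 1 1).trace.re) ≤ En (tensorPow (gadc γ ν) (n + 1) Q) := by
  obtain ⟨hb, he⟩ := T_succ_outY h0 h1 h2 h3 hQ
  obtain ⟨w1, w2, w3, w4, w5⟩ := weights_nonneg h0 h1 h2 h3
  have := star_ineq hb w1 w2 w3 w4 (by ring) (by ring) w5
  rw [← he, En_reindex, T_trace, T_trace] at this
  exact this

/-- Pinching for the next tensor power. -/
lemma step_pinch (h0 : 0 ≤ γ) (h1 : γ ≤ 1) (h2 : 0 ≤ ν) (h3 : ν ≤ 1) {n : ℕ}
    {Q : Matrix (S (n + 1)) (S (n + 1)) ℂ} (hQ : Q.PosSemidef) {M0 M1 : Matrix (S n) (S n) ℂ}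
    (hM0 : M0 = (1 - γ * ν) • tensorPow (gadc γ ν) n (Qb Q 0 0) +
      (γ * (1 - ν)) • tensorPow (gadc γ ν) n (Qb Q 1 1))
    (hM1 : M1 = (1 - γ + γ * ν) • tensorPow (gadc γ ν) n (Qb Q 1 1) +
      (γ * ν) • tensorPow (gadc γ ν) n (Qb Q 0 0)) :
    En (tensorPow (gadc γ ν) (n + 1) Q) ≤ En M0 + En M1 +
      (phi (M0.trace.re + M1.trace.re) - phi M0.trace.re - phi M1.trace.re) := by
  obtain ⟨hb, he⟩ := T_succ_outY h0 h1 h2 h3 hQ
  obtain ⟨w1, w2, w3, w4, w5⟩ := weights_nonneg h0 h1 h2 h3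
  have hY := outY_psd w1 w2 w3 w4 w5 hb
  rw [← En_reindex (splitE n), he]
  have hA := posSemidef_block_left hb
  have hB := posSemidef_block_right hb
  have hA' := (hA.smul w1).add (hB.smul w2)
  have hB' := (hB.smul w4).add (hA.smul w3)
  have hp := pinch hA'.1 hB'.1 hY
  unfold En outY
  rw [trace_fromBlocks_aux, Complex.add_re, ← hM0, ← hM1]
  rw [← hM0, ← hM1] at hp
  linarith

/-- Two applications of the inductive hypothesis combined. -/
lemma ih_two {n : ℕ} {χ : ℝ}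
    (ih : ∀ (κ : Type) [Fintype κ] (Q : κ → Matrix (S n) (S n) ℂ), (∀ a, (Q a).PosSemidef) →
      En (tensorPow (gadc γ ν) n (∑ a, Q a)) ≤
        ∑ a, En (tensorPow (gadc γ ν) n (Q a)) + n * χ * ∑ a, (Q a).trace.re)
    (h0 : 0 ≤ γ) (h1 : γ ≤ 1) (h2 : 0 ≤ ν) (h3 : ν ≤ 1)
    {κ : Type} [Fintype κ] {F0 F1 : κ → Matrix (S n) (S n) ℂ} (hF0 : ∀ a, (F0 a).PosSemidef)
    (hF1 : ∀ a, (F1 a).PosSemidef) {v0 v1 : ℝ} (hv0 : 0 ≤ v0) (hv1 : 0 ≤ v1) :
    En (v0 • tensorPow (gadc γ ν) n (∑ a, F0 a) + v1 • tensorPow (gadc γ ν) n (∑ a, F1 a)) ≤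
      ∑ a, (v0 * En (tensorPow (gadc γ ν) n (F0 a)) + v1 * En (tensorPow (gadc γ ν) n (F1 a))) +
        n * χ * (v0 * ∑ a, (F0 a).trace.re + v1 * ∑ a, (F1 a).trace.re) := by
  have := ih (κ ⊕ κ) (Sum.elim (fun a => v0 • F0 a) (fun a => v1 • F1 a)) (by
    rintro (a | a)
    · exact (hF0 a).smul hv0
    · exact (hF1 a).smul hv1)
  simp only [Fintype.sum_sum_type, Sum.elim_inl, Sum.elim_inr] at this
  rw [T_add, T_sum, T_sum] at this
  simp only [T_smul] at this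
  rw [← Finset.smul_sum, ← Finset.smul_sum, ← T_sum, ← T_sum] at this
  simp only [trace_re_smul] at this
  simp only [fun a => En_smul (T_psd h0 h1 h2 h3 (hF0 a)).1 v0,
    fun a => En_smul (T_psd h0 h1 h2 h3 (hF1 a)).1 v1] at this
  rw [← Finset.mul_sum, ← Finset.mul_sum, ← Finset.mul_sum, ← Finset.mul_sum] at this
  rw [Finset.sum_add_distrib, ← Finset.mul_sum, ← Finset.mul_sum]
  exact this

lemma En_unique (M : Matrix (S 0) (S 0) ℂ) (hM : M.IsHermitian) : En M = 0 := by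
  unfold En
  rw [sumEig_eq hM, trace_re_eq_sum hM, Fintype.sum_unique, Fintype.sum_unique, sub_self]

/-- The inductive Holevo bound. -/
theorem holevo_ind (h0 : 0 ≤ γ) (h1 : γ ≤ 1) (h2 : 0 ≤ ν) (h3 : ν ≤ 1) {χ : ℝ}
    (hSS : SSprop (1 - γ * ν) (γ * (1 - ν)) (γ * ν) (1 - γ + γ * ν) (Real.sqrt (1 - γ)) χ) :
    ∀ (n : ℕ) (κ : Type) [Fintype κ] (Q : κ → Matrix (S n) (S n) ℂ), (∀ a, (Q a).PosSemidef) →
      En (tensorPow (gadc γ ν) n (∑ a, Q a)) ≤
        ∑ a, En (tensorPow (gadc γ ν) n (Q a)) + n * χ * ∑ a, (Q a).trace.re := by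
  intro n
  induction n with
  | zero =>
    intro κ _ Q hQ
    simp only [T_zero]
    rw [En_unique _ (Matrix.posSemidef_sum _ fun a _ => hQ a).1,
      Finset.sum_eq_zero (fun a _ => En_unique _ (hQ a).1)]
    simp
  | succ n ih =>
    intro κ _ Q hQ
    obtain ⟨w1, w2, w3, w4, w5⟩ := weights_nonneg h0 h1 h2 h3
    set F0 : κ → Matrix (S n) (S n) ℂ := fun a => Qb (Q a) 0 0 with hF0d
    set F1 : κ → Matrix (S n) (S n) ℂ := fun a => Qb (Q a) 1 1 with hF1d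
    have hpsdF : ∀ {R : Matrix (S (n + 1)) (S (n + 1)) ℂ}, R.PosSemidef →
        (Qb R 0 0).PosSemidef ∧ (Qb R 1 1).PosSemidef := by
      intro R hR
      have hF : (fromBlocks (Qb R 0 0) (Qb R 0 1) (Qb R 1 0) (Qb R 1 1)).PosSemidef := by
        rw [← reindex_split, reindex_apply]
        exact hR.submatrix _
      exact ⟨posSemidef_block_left hF, posSemidef_block_right hF⟩
    have hF0 : ∀ a, (F0 a).PosSemidef := fun a => (hpsdF (hQ a)).1
    have hF1 : ∀ a, (F1 a).PosSemidef := fun a => (hpsdF (hQ a)).2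
    have hQbar : (∑ a, Q a).PosSemidef := Matrix.posSemidef_sum _ fun a _ => hQ a
    set M0 := (1 - γ * ν) • tensorPow (gadc γ ν) n (∑ a, F0 a) +
      (γ * (1 - ν)) • tensorPow (gadc γ ν) n (∑ a, F1 a) with hM0
    set M1 := (1 - γ + γ * ν) • tensorPow (gadc γ ν) n (∑ a, F1 a) +
      (γ * ν) • tensorPow (gadc γ ν) n (∑ a, F0 a) with hM1
    have hp := step_pinch h0 h1 h2 h3 hQbar (M0 := M0) (M1 := M1)
      (by rw [Qb_sum, Qb_sum]) (by rw [Qb_sum, Qb_sum])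
    have ih0 := ih_two ih h0 h1 h2 h3 hF0 hF1 w1 w2
    have ih1 := ih_two ih h0 h1 h2 h3 hF1 hF0 w4 w3
    set U0 := ∑ a, (F0 a).trace.re with hU0
    set U1 := ∑ a, (F1 a).trace.re with hU1
    have ht0 : (tensorPow (gadc γ ν) n (∑ a, F0 a)).trace.re = U0 := by
      rw [T_trace, Matrix.trace_sum, Complex.re_sum]
    have ht1 : (tensorPow (gadc γ ν) n (∑ a, F1 a)).trace.re = U1 := by
      rw [T_trace, Matrix.trace_sum, Complex.re_sum]
    have hM0t : M0.trace.re = (1 - γ * ν) * U0 + γ * (1 - ν) * U1 := by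
      rw [hM0, Matrix.trace_add, Complex.add_re, trace_re_smul, trace_re_smul, ht0, ht1]
    have hM1t : M1.trace.re = (1 - γ + γ * ν) * U1 + γ * ν * U0 := by
      rw [hM1, Matrix.trace_add, Complex.add_re, trace_re_smul, trace_re_smul, ht0, ht1]
    have hss := hSS κ (fun a => (F0 a).trace.re) (fun a => (F1 a).trace.re)
      (fun a => trace_re_nonneg (hF0 a)) (fun a => trace_re_nonneg (hF1 a))
    have hsingle : ∀ a, En (tensorPow (gadc γ ν) n (F0 a)) + En (tensorPow (gadc γ ν) n (F1 a)) +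
        En (blk (1 - γ * ν) (γ * (1 - ν)) (γ * ν) (1 - γ + γ * ν) (Real.sqrt (1 - γ))
          (F0 a).trace.re (F1 a).trace.re) ≤ En (tensorPow (gadc γ ν) (n + 1) (Q a)) :=
      fun a => step_single h0 h1 h2 h3 (hQ a)
    have hsum := Finset.sum_le_sum fun a (_ : a ∈ Finset.univ) => hsingle a
    rw [Finset.sum_add_distrib, Finset.sum_add_distrib] at hsum
    have htr : ∑ a, (Q a).trace.re = U0 + U1 := by
      rw [hU0, hU1, ← Finset.sum_add_distrib]
      refine Finset.sum_congr rfl fun a _ => ?_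
      rw [trace_Qb (Q a), Complex.add_re]
    have htr2 : ∑ a, ((F0 a).trace.re + (F1 a).trace.re) = U0 + U1 := by
      rw [Finset.sum_add_distrib]
    rw [htr2] at hss
    rw [hM0t, hM1t] at hp
    rw [htr]
    have hE0 : ∑ a, ((1 - γ * ν) * En (tensorPow (gadc γ ν) n (F0 a)) +
        γ * (1 - ν) * En (tensorPow (gadc γ ν) n (F1 a))) =
        (1 - γ * ν) * ∑ a, En (tensorPow (gadc γ ν) n (F0 a)) +
        γ * (1 - ν) * ∑ a, En (tensorPow (gadc γ ν) n (F1 a)) := by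
      rw [Finset.sum_add_distrib, Finset.mul_sum, Finset.mul_sum]
    have hE1 : ∑ a, ((1 - γ + γ * ν) * En (tensorPow (gadc γ ν) n (F1 a)) +
        γ * ν * En (tensorPow (gadc γ ν) n (F0 a))) =
        (1 - γ + γ * ν) * ∑ a, En (tensorPow (gadc γ ν) n (F1 a)) +
        γ * ν * ∑ a, En (tensorPow (gadc γ ν) n (F0 a)) := by
      rw [Finset.sum_add_distrib, Finset.mul_sum, Finset.mul_sum]
    rw [hE0] at ih0
    rw [hE1] at ih1
    push_cast
    set EA := ∑ a, En (tensorPow (gadc γ ν) n (F0 a))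
    set EB := ∑ a, En (tensorPow (gadc γ ν) n (F1 a))
    have e1 : (1 - γ * ν) * EA + γ * (1 - ν) * EB + ((1 - γ + γ * ν) * EB + γ * ν * EA) =
        EA + EB := by ring
    have e2 : (n : ℝ) * χ * ((1 - γ * ν) * U0 + γ * (1 - ν) * U1) +
        (n : ℝ) * χ * ((1 - γ + γ * ν) * U1 + γ * ν * U0) = n * χ * (U0 + U1) := by ring
    have e3 : ((n : ℝ) + 1) * χ * (U0 + U1) = n * χ * (U0 + U1) + χ * (U0 + U1) := by ring
    rw [e3]
    linarith

end main

end Vale.Agent.Lib.P358
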