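import Vale.Agent.Lib.P358.Chain

/-! The sorted generalized eigenvalue functions of the shift parameter and their counting
properties. -/

namespace Vale.Agent.Lib.P358

open Matrix
open scoped ComplexOrder

set_option linter.unusedSectionVars false

variable {ι : Type*} [Fintype ι] [DecidableEq ι]

/-- Sorted eigenvalues of the pencil of `A` in `s + A + B`. -/
noncomputable def tauS {A B : Matrix ι ι ℂ} (hA : A.IsHermitian) (hB : B.IsHermitian) (s : ℝ)
    (j : Fin (Fintype.card ι)) : ℝ :=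
  (pencil_herm hA (shiftM_herm hA hB s)).eigenvalues₀ j

/-- The variable `κ = τ / (1 - τ)`. -/
noncomputable def kapS {A B : Matrix ι ι ℂ} (hA : A.IsHermitian) (hB : B.IsHermitian) (s : ℝ)
    (j : Fin (Fintype.card ι)) : ℝ :=
  tauS hA hB s j / (1 - tauS hA hB s j)

lemma tauS_mem {A B : Matrix ι ι ℂ} (hA : A.PosSemidef) (hB : B.PosSemidef) {s : ℝ} (hs : 0 < s)
    (j : Fin (Fintype.card ι)) : tauS hA.1 hB.1 s j ∈ Set.Ico (0 : ℝ) 1 := by
  unfold tauS
  rw [← eigenvalues_sEq]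
  exact pencil_eig_mem hA hB hs _ _ _

lemma kapS_nonneg {A B : Matrix ι ι ℂ} (hA : A.PosSemidef) (hB : B.PosSemidef) {s : ℝ} (hs : 0 < s)
    (j : Fin (Fintype.card ι)) : 0 ≤ kapS hA.1 hB.1 s j := by
  have h := tauS_mem hA hB hs j
  exact div_nonneg h.1 (by linarith [h.2])

lemma tauS_anti {A B : Matrix ι ι ℂ} (hA : A.PosSemidef) (hB : B.PosSemidef) {s s' : ℝ} (hs : 0 < s)
    (hss' : s ≤ s') (j : Fin (Fintype.card ι)) : tauS hA.1 hB.1 s' j ≤ tauS hA.1 hB.1 s j := by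
  have hs' : 0 < s' := lt_of_lt_of_le hs hss'
  refine pencil_eig_anti hA (shiftM_posDef hA hB hs) (shiftM_posDef hA hB hs') _ _ ?_ j
  intro v
  simp only [shiftM, qf_add, qf_smul, qf_one]
  have := mul_le_mul_of_nonneg_right hss' (nsq_nonneg v)
  linarith

lemma kapS_anti {A B : Matrix ι ι ℂ} (hA : A.PosSemidef) (hB : B.PosSemidef)
    (j : Fin (Fintype.card ι)) :
    AntitoneOn (fun s => kapS hA.1 hB.1 s j) (Set.Ioi 0) := by
  intro s hs s' hs' hss'
  have h1 := tauS_mem hA hB hs j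
  have h2 := tauS_mem hA hB hs' j
  have h3 := tauS_anti hA hB hs hss' j
  simp only [kapS]
  have h4 : 0 < 1 - tauS hA.1 hB.1 s j := by linarith [h1.2]
  have h5 : 0 < 1 - tauS hA.1 hB.1 s' j := by linarith [h2.2]
  rw [div_le_div_iff₀ h5 h4]
  nlinarith

/-- The counting criterion in the variable `κ`. -/
lemma le_kapS_of_W {A B W : Matrix ι ι ℂ} (hA : A.PosSemidef) (hB : B.PosSemidef)
    (hW : W.IsHermitian) {s κ μ : ℝ} (hs : 0 < s) (hκ : 0 < κ)
    (j : Fin (Fintype.card ι)) (hμ : μ ≤ hW.eigenvalues₀ j)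
    (hcmp : ∀ v, qf W v - μ * nsq v ≤ qf A v - κ * (s * nsq v + qf B v)) :
    κ ≤ kapS hA.1 hB.1 s j := by
  have hMd := shiftM_posDef hA hB hs
  have hκ1 : 0 < 1 + κ := by linarith
  have h1 : κ / (1 + κ) ≤ tauS hA.1 hB.1 s j := by
    refine le_pencil_eig_of_W hMd _ hW j (κ / (1 + κ)) μ hμ hκ1 ?_
    intro v
    have e : qf (shiftM A B s) v = s * nsq v + (qf A v + qf B v) := by
      unfold shiftM
      rw [qf_add, qf_add, qf_smul, qf_one]
    rw [e]
    have e2 : (1 + κ) * (qf A v - κ / (1 + κ) * (s * nsq v + (qf A v + qf B v))) =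
        qf A v - κ * (s * nsq v + qf B v) := by
      field_simp
      ring
    rw [e2]
    exact hcmp v
  have h := tauS_mem hA hB hs j
  unfold kapS
  have h4 : 0 < 1 - tauS hA.1 hB.1 s j := by linarith [h.2]
  rw [le_div_iff₀ h4]
  rw [div_le_iff₀ hκ1] at h1
  nlinarith

/-- The matrix `A - κ B`. -/
lemma sub_smul_herm {A B : Matrix ι ι ℂ} (hA : A.IsHermitian) (hB : B.IsHermitian) (κ : ℝ) :
    (A - κ • B).IsHermitian := by
  unfold IsHermitian
  simp [conjTranspose_sub, conjTranspose_smul, hA.eq, hB.eq]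

/-- High-level count: if `κ s ≤ μ_j(κ)` then `κ ≤ κ_j(s)`. -/
lemma le_kapS_high {A B : Matrix ι ι ℂ} (hA : A.PosSemidef) (hB : B.PosSemidef) {s κ : ℝ}
    (hs : 0 < s) (hκ : 0 < κ) (j : Fin (Fintype.card ι))
    (h : κ * s ≤ (sub_smul_herm hA.1 hB.1 κ).eigenvalues₀ j) :
    κ ≤ kapS hA.1 hB.1 s j := by
  refine le_kapS_of_W hA hB (sub_smul_herm hA.1 hB.1 κ) hs hκ j h ?_
  intro v
  rw [qf_sub, qf_smul]
  apply le_of_eq; ring

/-- Low-level comparison: `a_j / (s + b) ≤ κ_j(s)`. -/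
lemma le_kapS_low {A B : Matrix ι ι ℂ} (hA : A.PosSemidef) (hB : B.PosSemidef) {s : ℝ}
    (hs : 0 < s) (j : Fin (Fintype.card ι)) :
    hA.1.eigenvalues₀ j / (s + B.trace.re) ≤ kapS hA.1 hB.1 s j := by
  have hb : 0 ≤ B.trace.re := by
    rw [trace_re_eq_sum hB.1]
    exact Finset.sum_nonneg fun i _ => hB.eigenvalues_nonneg i
  have hsb : 0 < s + B.trace.re := by linarith
  have haj : 0 ≤ hA.1.eigenvalues₀ j := by
    rw [← eigenvalues_sEq]; exact hA.eigenvalues_nonneg _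
  rcases haj.eq_or_lt with h0 | hpos
  · rw [← h0, zero_div]; exact kapS_nonneg hA hB hs j
  · have hκ : 0 < hA.1.eigenvalues₀ j / (s + B.trace.re) := div_pos hpos hsb
    refine le_kapS_of_W hA hB hA.1 (μ := hA.1.eigenvalues₀ j) hs hκ j le_rfl ?_
    intro v
    have h1 := qf_le_trace hB v
    have h2 := nsq_nonneg v
    set κ := hA.1.eigenvalues₀ j / (s + B.trace.re) with hκdef
    have h3 : κ * (s + B.trace.re) = hA.1.eigenvalues₀ j := by
      rw [hκdef]; field_simp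
    have h4 : κ * qf B v ≤ κ * (B.trace.re * nsq v) := mul_le_mul_of_nonneg_left h1 hκ.le
    nlinarith

/-- The eigenvalues of `A - κ B` are bounded by the trace of `A`. -/
lemma eig_sub_le_trace {A B : Matrix ι ι ℂ} (hA : A.PosSemidef) (hB : B.PosSemidef) {κ : ℝ}
    (hκ : 0 ≤ κ) (j : Fin (Fintype.card ι)) :
    (sub_smul_herm hA.1 hB.1 κ).eigenvalues₀ j ≤ A.trace.re := by
  rw [← eigenvalues_sEq]
  refine eigenvalues_le_of_qf _ (fun v => ?_) _
  rw [qf_sub, qf_smul]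
  have h1 := qf_le_trace hA v
  have h2 := mul_nonneg hκ (qf_nonneg hB v)
  linarith

lemma sum_eig_sub {A B : Matrix ι ι ℂ} (hA : A.IsHermitian) (hB : B.IsHermitian) (κ : ℝ) :
    ∑ j, (sub_smul_herm hA hB κ).eigenvalues₀ j = A.trace.re - κ * B.trace.re := by
  rw [← trace_re_eq_sum₀]
  simp [trace_sub, trace_smul]

end Vale.Agent.Lib.P358
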