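import Vale.Agent.Lib.P358.Dominance

/-! The main lemma at a finite cutoff: combination of the layer-cake dominance above level `ε`
with the elementary comparison below level `ε`. -/

namespace Vale.Agent.Lib.P358

open Matrix MeasureTheory Set
open scoped ComplexOrder ENNReal

set_option linter.unusedSectionVars false

variable {ι : Type*} [Fintype ι] [DecidableEq ι]

/-- Integral of the truncated function. -/
noncomputable def Umin (y b ε Λ : ℝ) : ℝ := ∫ s in (0 : ℝ)..Λ, min (y / (s + b)) ε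

lemma min_div_integrableOn {y ε a c : ℝ} (hy : 0 ≤ y) (hε : 0 < ε) (ha : 0 ≤ a) :
    IntegrableOn (fun t => min (y / t) ε) (Ioc a c) := by
  refine Measure.integrableOn_of_bounded (M := ε) (by simp) ?_ ?_
  · exact ((measurable_const.div measurable_id).min measurable_const).aestronglyMeasurable
  · refine (ae_restrict_iff' measurableSet_Ioc).mpr (ae_of_all _ fun t ht => ?_)
    have ht0 : 0 < t := lt_of_le_of_lt ha ht.1
    rw [Real.norm_eq_abs, abs_of_nonneg (le_min (div_nonneg hy ht0.le) hε.le)]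
    exact min_le_right _ _

lemma min_div_intervalIntegrable {y ε a c : ℝ} (hy : 0 ≤ y) (hε : 0 < ε) (ha : 0 ≤ a) (hc : a ≤ c) :
    IntervalIntegrable (fun t => min (y / t) ε) volume a c := by
  rw [intervalIntegrable_iff_integrableOn_Ioc_of_le hc]
  exact min_div_integrableOn hy hε ha

lemma min_shift_integrableOn {y b ε Λ : ℝ} (hy : 0 ≤ y) (hb : 0 ≤ b) (hε : 0 < ε) :
    IntegrableOn (fun s => min (y / (s + b)) ε) (Ioc 0 Λ) := by
  refine Measure.integrableOn_of_bounded (M := ε) (by simp) ?_ ?_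
  · exact ((measurable_const.div (measurable_id.add measurable_const)).min
      measurable_const).aestronglyMeasurable
  · refine (ae_restrict_iff' measurableSet_Ioc).mpr (ae_of_all _ fun t ht => ?_)
    have ht0 : 0 < t + b := by linarith [ht.1]
    rw [Real.norm_eq_abs, abs_of_nonneg (le_min (div_nonneg hy ht0.le) hε.le)]
    exact min_le_right _ _

/-- Exact value of the full truncated integral. -/
lemma Ufull_eq {y ε T : ℝ} (hy : 0 ≤ y) (hε : 0 < ε) (hT : 0 < T) (hyT : y ≤ T * ε) :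
    ∫ t in (0 : ℝ)..T, min (y / t) ε = y * (1 + Real.log (T * ε)) - y * Real.log y := by
  rcases hy.eq_or_lt with h0 | hpos
  · rw [← h0]; simp [hε.le]
  set t0 := y / ε with ht0
  have ht0pos : 0 < t0 := div_pos hpos hε
  have ht0T : t0 ≤ T := by rw [ht0, div_le_iff₀ hε]; exact hyT
  have h1 : ∫ t in (0 : ℝ)..t0, min (y / t) ε = y := by
    have : ∫ t in (0 : ℝ)..t0, min (y / t) ε = ∫ _t in (0 : ℝ)..t0, ε := by
      apply intervalIntegral.integral_congr_ae
      refine ae_of_all _ fun t ht => ?_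
      rw [uIoc_of_le ht0pos.le] at ht
      have ht1 : 0 < t := ht.1
      apply min_eq_right
      rw [le_div_iff₀ ht1]
      have := ht.2
      rw [ht0, le_div_iff₀ hε] at this
      linarith
    rw [this, intervalIntegral.integral_const, smul_eq_mul, sub_zero, ht0]
    field_simp
  have h2 : ∫ t in t0..T, min (y / t) ε = y * (Real.log T - Real.log t0) := by
    have : ∫ t in t0..T, min (y / t) ε = ∫ t in t0..T, y * t⁻¹ := by
      apply intervalIntegral.integral_congr
      intro t ht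
      rw [uIcc_of_le ht0T] at ht
      have ht1 : 0 < t := lt_of_lt_of_le ht0pos ht.1
      simp only
      rw [min_eq_left, div_eq_mul_inv]
      rw [div_le_iff₀ ht1]
      have := ht.1
      rw [ht0, div_le_iff₀ hε] at this
      linarith
    rw [this, intervalIntegral.integral_const_mul, integral_inv_of_pos ht0pos hT,
      Real.log_div hT.ne' ht0pos.ne']
  have h3 := intervalIntegral.integral_add_adjacent_intervals
    (min_div_intervalIntegrable hy hε le_rfl ht0pos.le)
    (min_div_intervalIntegrable hy hε ht0pos.le ht0T)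
  rw [← h3, h1, h2, ht0, Real.log_div hpos.ne' hε.ne', Real.log_mul hT.ne' hε.ne']
  ring

/-- Bounds for the truncated integral. -/
lemma Umin_bounds {y b ε Λ : ℝ} (hy : 0 ≤ y) (hb : 0 ≤ b) (hε : 0 < ε) (hΛ : 0 < Λ)
    (hyT : y ≤ (Λ + b) * ε) :
    y * (1 + Real.log ((Λ + b) * ε)) - y * Real.log y - ε * b ≤ Umin y b ε Λ ∧
      Umin y b ε Λ ≤ y * (1 + Real.log ((Λ + b) * ε)) - y * Real.log y := by
  have hT : 0 < Λ + b := by linarith
  have hfull := Ufull_eq hy hε hT hyT
  have hshift : Umin y b ε Λ = ∫ t in b..Λ + b, min (y / t) ε := by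
    unfold Umin
    have := intervalIntegral.integral_comp_add_right (a := 0) (b := Λ) (fun t => min (y / t) ε) b
    simpa using this
  have hsplit := intervalIntegral.integral_add_adjacent_intervals
    (min_div_intervalIntegrable hy hε le_rfl hb)
    (min_div_intervalIntegrable hy hε hb (by linarith : b ≤ Λ + b))
  rw [← hshift] at hsplit
  have hI := min_div_intervalIntegrable hy hε le_rfl hb
  have h0 : 0 ≤ ∫ t in (0 : ℝ)..b, min (y / t) ε := by
    have := intervalIntegral.integral_mono_on_of_le_Ioo hb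
      (intervalIntegrable_const (c := (0 : ℝ))) hI
      (fun t ht => le_min (div_nonneg hy ht.1.le) hε.le)
    simpa using this
  have h1 : ∫ t in (0 : ℝ)..b, min (y / t) ε ≤ ε * b := by
    have := intervalIntegral.integral_mono_on_of_le_Ioo hb hI
      (intervalIntegrable_const (c := ε)) (fun t _ => min_le_right _ _)
    simpa [mul_comm] using this
  rw [hfull] at hsplit
  constructor <;> linarith

/-- Upper bound of the low part. -/
lemma Lfun_low_upper {g : ℝ → ℝ} (hg : BddWeight g) {ε k : ℝ} (hk : 0 ≤ k) (hε : 0 ≤ ε) :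
    Lfun ((Iic ε).indicator g) k ≤ min k ε := by
  have hL := hg.indicator (measurableSet_Iic (a := ε))
  rcases le_total k ε with h | h
  · rw [min_eq_left h]; exact Lfun_le hL hk
  · rw [min_eq_right h]
    have h1 := Lfun_sub hL ε k
    have h2 : ∫ t in ε..k, (Iic ε).indicator g t = 0 := by
      apply intervalIntegral.integral_zero_ae
      refine ae_of_all _ fun t ht => ?_
      rw [uIoc_of_le h] at ht
      exact Set.indicator_of_notMem (by simpa using ht.1) _
    have h3 := Lfun_le hL hε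
    linarith

/-- Lower bound of the low part. -/
lemma Lfun_low_lower {g : ℝ → ℝ} (hg : BddWeight g) {ε η k : ℝ} (hk : 0 ≤ k) (hε : 0 ≤ ε)
    (hη : ∀ t ∈ Ioc 0 ε, 1 - η ≤ g t) :
    (1 - η) * min k ε ≤ Lfun ((Iic ε).indicator g) k := by
  have hL := hg.indicator (measurableSet_Iic (a := ε))
  have hm : 0 ≤ min k ε := le_min hk hε
  have h1 : Lfun ((Iic ε).indicator g) (min k ε) ≤ Lfun ((Iic ε).indicator g) k :=
    Lfun_mono hL (min_le_left _ _)
  refine le_trans ?_ h1
  have h2 := intervalIntegral.integral_mono_on_of_le_Ioo hm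
    (intervalIntegrable_const (c := 1 - η)) (hL.intInt 0 (min k ε)) (fun t ht => ?_)
  · rw [intervalIntegral.integral_const, smul_eq_mul, sub_zero] at h2
    unfold Lfun
    linarith [mul_comm (1 - η) (min k ε)]
  · have ht2 : t ≤ ε := ht.2.le.trans (min_le_right _ _)
    rw [Set.indicator_of_mem (by simpa using ht2)]
    exact hη t ⟨ht.1, ht2⟩

lemma Lfun_split {g : ℝ → ℝ} (hg : BddWeight g) (ε k : ℝ) :
    Lfun g k = Lfun ((Ioi ε).indicator g) k + Lfun ((Iic ε).indicator g) k := by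
  have hH := hg.indicator (measurableSet_Ioi (a := ε))
  have hL := hg.indicator (measurableSet_Iic (a := ε))
  unfold Lfun
  rw [← intervalIntegral.integral_add (hH.intInt _ _) (hL.intInt _ _)]
  congr 1
  ext t
  by_cases ht : t ≤ ε
  · rw [Set.indicator_of_notMem (by simpa using ht), Set.indicator_of_mem (by simpa using ht),
      zero_add]
  · rw [Set.indicator_of_mem (by simpa using ht), Set.indicator_of_notMem (by simpa using ht),
      add_zero]

lemma sum_lintegral_le {α κ : Type*} [MeasurableSpace α] (μ : Measure α) (S : Finset κ)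
    (f : κ → α → ℝ≥0∞) :
    ∑ j ∈ S, ∫⁻ x, f j x ∂μ ≤ ∫⁻ x, ∑ j ∈ S, f j x ∂μ := by
  classical
  induction S using Finset.induction_on with
  | empty => simp
  | insert a S ha ih =>
    rw [Finset.sum_insert ha]
    simp_rw [Finset.sum_insert ha]
    exact (add_le_add le_rfl ih).trans (le_lintegral_add _ _)

/-- The main lemma at finite cutoff. -/
theorem main_finite {A B : Matrix ι ι ℂ} (hA : A.PosSemidef) (hB : B.PosSemidef) {g : ℝ → ℝ}
    (hg : BddWeight g) {ε η Λ : ℝ} (hε : 0 < ε) (hη1 : η ≤ 1) (hgη : ∀ t ∈ Ioc 0 ε, 1 - η ≤ g t)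
    (hΛ : A.trace.re / ε ≤ Λ) :
    (∫⁻ s in Ioc (0 : ℝ) Λ, ENNReal.ofReal (Lfun g (A.trace.re / (s + B.trace.re)))) +
        ENNReal.ofReal ((1 - η) * ∑ j, Umin (hA.1.eigenvalues₀ j) B.trace.re ε Λ) ≤
      (∫⁻ s in Ioc (0 : ℝ) Λ, ENNReal.ofReal (∑ j, Lfun g (kapS hA.1 hB.1 s j))) +
        ENNReal.ofReal (Umin A.trace.re B.trace.re ε Λ) := by
  set a := A.trace.re with ha
  set b := B.trace.re with hb
  have ha0 : 0 ≤ a := trace_re_nonneg hA
  have hb0 : 0 ≤ b := trace_re_nonneg hB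
  have hΛ0 : 0 ≤ Λ := le_trans (div_nonneg ha0 hε.le) hΛ
  set gH := (Ioi ε).indicator g with hgH
  set gL := (Iic ε).indicator g with hgL
  have hH : BddWeight gH := hg.indicator measurableSet_Ioi
  have hL : BddWeight gL := hg.indicator measurableSet_Iic
  have hbarnn : ∀ s ∈ Ioc (0 : ℝ) Λ, 0 ≤ a / (s + b) := fun s hs =>
    div_nonneg ha0 (by linarith [hs.1])
  have hbarm : Measurable (fun s : ℝ => a / (s + b)) :=
    measurable_const.div (measurable_id.add measurable_const)
  -- Step 1: the scalar side splits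
  have hstep1 : ∫⁻ s in Ioc (0 : ℝ) Λ, ENNReal.ofReal (Lfun g (a / (s + b))) ≤
      (∫⁻ s in Ioc (0 : ℝ) Λ, ENNReal.ofReal (Lfun gH (a / (s + b)))) +
        ∫⁻ s in Ioc (0 : ℝ) Λ, ENNReal.ofReal (Lfun gL (a / (s + b))) := by
    rw [← lintegral_add_left
      (f := fun s => ENNReal.ofReal (Lfun gH (a / (s + b))))
      (ENNReal.measurable_ofReal.comp ((Lfun_continuous hH).measurable.comp hbarm))]
    refine lintegral_mono fun s => ?_
    rw [Lfun_split hg ε]
    exact ENNReal.ofReal_add_le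
  -- Step 2: the scalar low part
  have hstep2 : ∫⁻ s in Ioc (0 : ℝ) Λ, ENNReal.ofReal (Lfun gL (a / (s + b))) ≤
      ENNReal.ofReal (Umin a b ε Λ) := by
    unfold Umin
    rw [intervalIntegral.integral_of_le hΛ0, ofReal_integral_eq_lintegral_ofReal
      (min_shift_integrableOn ha0 hb0 hε)
      ((ae_restrict_iff' measurableSet_Ioc).mpr (ae_of_all _ fun s hs =>
        le_min (hbarnn s hs) hε.le))]
    refine setLIntegral_mono' measurableSet_Ioc fun s hs => ?_
    exact ENNReal.ofReal_le_ofReal (Lfun_low_upper hg (hbarnn s hs) hε.le)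
  -- Step 3: the low part of the matrix side
  have hstep3 : ENNReal.ofReal ((1 - η) * ∑ j, Umin (hA.1.eigenvalues₀ j) b ε Λ) ≤
      ∑ j, ∫⁻ s in Ioc (0 : ℝ) Λ, ENNReal.ofReal (Lfun gL (kapS hA.1 hB.1 s j)) := by
    rw [Finset.mul_sum]
    refine (ofReal_sum_le _ _).trans (Finset.sum_le_sum fun j _ => ?_)
    have haj : 0 ≤ hA.1.eigenvalues₀ j := by
      rw [← eigenvalues_sEq]; exact hA.eigenvalues_nonneg _
    have hnn : 0 ≤ 1 - η := by linarith
    unfold Umin
    rw [← intervalIntegral.integral_const_mul, intervalIntegral.integral_of_le hΛ0,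
      ofReal_integral_eq_lintegral_ofReal ((min_shift_integrableOn haj hb0 hε).const_mul _)
      ((ae_restrict_iff' measurableSet_Ioc).mpr (ae_of_all _ fun s hs =>
        mul_nonneg hnn (le_min (div_nonneg haj (by linarith [hs.1])) hε.le)))]
    refine setLIntegral_mono' measurableSet_Ioc fun s hs => ?_
    refine ENNReal.ofReal_le_ofReal ?_
    have hs0 : 0 < s + b := by linarith [hs.1]
    have h1 := Lfun_low_lower hg (div_nonneg haj hs0.le) hε.le hgη
    have h2 : Lfun gL (hA.1.eigenvalues₀ j / (s + b)) ≤ Lfun gL (kapS hA.1 hB.1 s j) :=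
      Lfun_mono hL (le_kapS_low hA hB hs.1 j)
    exact h1.trans h2
  -- Step 4: the matrix side recombines
  have hstep4 : (∑ j, ∫⁻ s in Ioc (0 : ℝ) Λ, ENNReal.ofReal (Lfun gH (kapS hA.1 hB.1 s j))) +
      (∑ j, ∫⁻ s in Ioc (0 : ℝ) Λ, ENNReal.ofReal (Lfun gL (kapS hA.1 hB.1 s j))) ≤
      ∫⁻ s in Ioc (0 : ℝ) Λ, ENNReal.ofReal (∑ j, Lfun g (kapS hA.1 hB.1 s j)) := by
    rw [← Finset.sum_add_distrib]
    refine (Finset.sum_le_sum fun j _ => le_lintegral_add _ _).trans ?_
    refine (sum_lintegral_le _ _ _).trans ?_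
    refine setLIntegral_mono' measurableSet_Ioc fun s hs => ?_
    have hk : ∀ j, 0 ≤ kapS hA.1 hB.1 s j := fun j => kapS_nonneg hA hB hs.1 j
    rw [ENNReal.ofReal_sum_of_nonneg (fun j _ => Lfun_nonneg hg (hk j))]
    refine Finset.sum_le_sum fun j _ => ?_
    rw [← ENNReal.ofReal_add (Lfun_nonneg hH (hk j)) (Lfun_nonneg hL (hk j)), ← Lfun_split hg]
  have hH' := stepH hA hB hH hε (fun t ht => Set.indicator_of_notMem (by simpa using ht) _) hΛ
  calc _ ≤ ((∫⁻ s in Ioc (0 : ℝ) Λ, ENNReal.ofReal (Lfun gH (a / (s + b)))) +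
        ∫⁻ s in Ioc (0 : ℝ) Λ, ENNReal.ofReal (Lfun gL (a / (s + b)))) +
        ENNReal.ofReal ((1 - η) * ∑ j, Umin (hA.1.eigenvalues₀ j) b ε Λ) := by gcongr
    _ ≤ ((∑ j, ∫⁻ s in Ioc (0 : ℝ) Λ, ENNReal.ofReal (Lfun gH (kapS hA.1 hB.1 s j))) +
        ENNReal.ofReal (Umin a b ε Λ)) +
        ∑ j, ∫⁻ s in Ioc (0 : ℝ) Λ, ENNReal.ofReal (Lfun gL (kapS hA.1 hB.1 s j)) := by gcongr
    _ = ((∑ j, ∫⁻ s in Ioc (0 : ℝ) Λ, ENNReal.ofReal (Lfun gH (kapS hA.1 hB.1 s j))) +
        ∑ j, ∫⁻ s in Ioc (0 : ℝ) Λ, ENNReal.ofReal (Lfun gL (kapS hA.1 hB.1 s j))) +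
        ENNReal.ofReal (Umin a b ε Λ) := by ring
    _ ≤ _ := by gcongr

end Vale.Agent.Lib.P358
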