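import Vale.Agent.Lib.P358.Spectral

/-! The pencil `R A R` with `R` the inverse square root of `M`: generalized eigenvalues. -/

namespace Vale.Agent.Lib.P358

open Matrix
open scoped ComplexOrder

set_option linter.unusedSectionVars false

variable {ι : Type*} [Fintype ι] [DecidableEq ι]

/-- The pencil matrix `M^{-1/2} A M^{-1/2}`. -/
noncomputable def pencil (A : Matrix ι ι ℂ) {M : Matrix ι ι ℂ} (hM : M.IsHermitian) : Matrix ι ι ℂ :=
  invRoot hM * A * invRoot hM

lemma pencil_herm {A M : Matrix ι ι ℂ} (hA : A.IsHermitian) (hM : M.IsHermitian) :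
    (pencil A hM).IsHermitian := by
  unfold pencil IsHermitian
  simp [conjTranspose_mul, invRoot_herm, hA.eq, Matrix.mul_assoc]

lemma pencil_eq_conj (A : Matrix ι ι ℂ) {M : Matrix ι ι ℂ} (hM : M.IsHermitian) :
    pencil A hM = (invRoot hM)ᴴ * A * invRoot hM := by
  rw [invRoot_herm]; rfl

lemma pencil_psd {A M : Matrix ι ι ℂ} (hA : A.PosSemidef) (hM : M.IsHermitian) :
    (pencil A hM).PosSemidef := by
  rw [pencil_eq_conj]
  exact hA.conjTranspose_mul_mul_same _

lemma qf_pencil (A : Matrix ι ι ℂ) {M : Matrix ι ι ℂ} (hM : M.IsHermitian) (v : ι → ℂ) :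
    qf (pencil A hM) v = qf A (invRoot hM *ᵥ v) := by
  rw [pencil_eq_conj, qf_conj]

lemma nsq_eq_qf_invRoot {M : Matrix ι ι ℂ} (hM : M.PosDef) (v : ι → ℂ) :
    nsq v = qf M (invRoot hM.1 *ᵥ v) := by
  rw [← qf_conj, invRoot_herm, invRoot_conj hM, qf_one]

/-- Lower bound for a sorted generalized eigenvalue by a subspace. -/
lemma le_pencil_eig_of_rect {A M : Matrix ι ι ℂ} (hM : M.PosDef)
    (hT : (pencil A hM.1).IsHermitian) (j : Fin (Fintype.card ι))
    (P : Matrix ι (Fin (j.val + 1)) ℂ) (Q : Matrix (Fin (j.val + 1)) ι ℂ) (hQP : Q * P = 1)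
    (τ : ℝ) (hτ : ∀ c : Fin (j.val + 1) → ℂ, τ * qf M (P *ᵥ c) ≤ qf A (P *ᵥ c)) :
    τ ≤ hT.eigenvalues₀ j := by
  refine le_eigenvalues₀_of_rect hT j (sqRoot hM.1 * P) (Q * invRoot hM.1) ?_ τ ?_
  · calc Q * invRoot hM.1 * (sqRoot hM.1 * P) = Q * (invRoot hM.1 * sqRoot hM.1) * P := by
          simp only [Matrix.mul_assoc]
      _ = 1 := by rw [invRoot_mul_sqRoot hM, Matrix.mul_one, hQP]
  · intro c
    have h1 : invRoot hM.1 *ᵥ ((sqRoot hM.1 * P) *ᵥ c) = P *ᵥ c := by
      rw [← mulVec_mulVec, mulVec_mulVec _ (invRoot hM.1), invRoot_mul_sqRoot hM, one_mulVec]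
    rw [qf_pencil, nsq_eq_qf_invRoot hM, h1]
    exact hτ c

/-- Antitonicity of sorted generalized eigenvalues in `M`. -/
lemma pencil_eig_anti {A M M' : Matrix ι ι ℂ} (hA : A.PosSemidef) (hM : M.PosDef) (hM' : M'.PosDef)
    (hT : (pencil A hM.1).IsHermitian) (hT' : (pencil A hM'.1).IsHermitian)
    (hle : ∀ v, qf M v ≤ qf M' v) (j : Fin (Fintype.card ι)) :
    hT'.eigenvalues₀ j ≤ hT.eigenvalues₀ j := by
  have hnn : 0 ≤ hT'.eigenvalues₀ j := by
    rw [← eigenvalues_sEq]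
    exact (pencil_psd hA hM'.1).eigenvalues_nonneg _
  refine le_pencil_eig_of_rect hM hT j (invRoot hM'.1 * topRect hT' j)
    ((topRect hT' j)ᴴ * sqRoot hM'.1) ?_ _ ?_
  · calc (topRect hT' j)ᴴ * sqRoot hM'.1 * (invRoot hM'.1 * topRect hT' j)
        = (topRect hT' j)ᴴ * (sqRoot hM'.1 * invRoot hM'.1) * topRect hT' j := by
          simp only [Matrix.mul_assoc]
      _ = 1 := by rw [sqRoot_mul_invRoot hM', Matrix.mul_one, topRect_left_inv]
  · intro c
    have h1 := qf_topRect_ge hT' j c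
    rw [qf_pencil, nsq_eq_qf_invRoot hM', mulVec_mulVec] at h1
    refine le_trans ?_ h1
    exact mul_le_mul_of_nonneg_left (hle _) hnn

/-- Comparison criterion: if `W` dominates suitably, then eigenvalues of `W` bound those of
the pencil. -/
lemma le_pencil_eig_of_W {A M W : Matrix ι ι ℂ} (hM : M.PosDef)
    (hT : (pencil A hM.1).IsHermitian) (hW : W.IsHermitian) (j : Fin (Fintype.card ι))
    (τ μ : ℝ) (hμ : μ ≤ hW.eigenvalues₀ j) {C : ℝ} (hC : 0 < C)
    (hcmp : ∀ v, qf W v - μ * nsq v ≤ C * (qf A v - τ * qf M v)) :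
    τ ≤ hT.eigenvalues₀ j := by
  refine le_pencil_eig_of_rect hM hT j (topRect hW j) (topRect hW j)ᴴ (topRect_left_inv hW j) τ ?_
  intro c
  have h1 := qf_topRect_ge hW j c
  have h2 := hcmp (topRect hW j *ᵥ c)
  have h3 : μ * nsq (topRect hW j *ᵥ c) ≤ hW.eigenvalues₀ j * nsq (topRect hW j *ᵥ c) :=
    mul_le_mul_of_nonneg_right hμ (nsq_nonneg _)
  have h4 : 0 ≤ C * (qf A (topRect hW j *ᵥ c) - τ * qf M (topRect hW j *ᵥ c)) := by linarith
  have h5 : 0 ≤ qf A (topRect hW j *ᵥ c) - τ * qf M (topRect hW j *ᵥ c) :=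
    nonneg_of_mul_nonneg_right h4 hC
  linarith

/-- `R N R` and `N` have determinants related through `R M R = 1`. -/
lemma det_conj_ratio (R N M : Matrix ι ι ℂ) (h : R * M * R = 1) :
    (R * N * R).det * M.det = N.det := by
  have h1 : R.det * M.det * R.det = 1 := by
    have := congrArg Matrix.det h
    simpa [Matrix.det_mul] using this
  rw [Matrix.det_mul, Matrix.det_mul]
  calc R.det * N.det * R.det * M.det = (R.det * M.det * R.det) * N.det := by ring
    _ = N.det := by rw [h1, one_mul]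

/-- `1 - T = R (M - A) R`. -/
lemma one_sub_pencil {A M : Matrix ι ι ℂ} (hM : M.PosDef) :
    (1 : Matrix ι ι ℂ) - pencil A hM.1 = invRoot hM.1 * (M - A) * invRoot hM.1 := by
  unfold pencil
  rw [Matrix.mul_sub, Matrix.sub_mul, invRoot_conj hM]

/-- Eigenvalues of the pencil are below one as soon as `M - A` is positive definite. -/
lemma pencil_eig_lt_one {A M : Matrix ι ι ℂ} (hM : M.PosDef) (hMA : (M - A).PosDef)
    (hT : (pencil A hM.1).IsHermitian) (i : ι) : hT.eigenvalues i < 1 := by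
  let u : ι → ℂ := fun x => eU hT x i
  have hu : nsq u = 1 := by
    have := nsq_eU_mulVec hT (Pi.single i 1)
    rw [nsq_eq_sum (Pi.single i 1 : ι → ℂ)] at this
    simp only [Pi.single_apply, apply_ite Complex.normSq, map_one, map_zero] at this
    simp only [Finset.sum_ite_eq', Finset.mem_univ, if_true] at this
    have h3 : nsq ((eU hT).col i) = 1 := by simpa [mulVec_single_one] using this
    exact h3
  have h1 := qf_eigenvector hT i
  have h2 : qf ((1 : Matrix ι ι ℂ) - pencil A hM.1) u = 1 - hT.eigenvalues i := by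
    rw [qf_sub, qf_one, hu]
    rw [show qf (pencil A hM.1) u = hT.eigenvalues i from h1]
  have hu0 : u ≠ 0 := by
    intro h0
    rw [h0] at hu
    have : nsq (0 : ι → ℂ) = 0 := by simp [nsq]
    rw [this] at hu
    exact zero_ne_one hu
  have hRu : invRoot hM.1 *ᵥ u ≠ 0 := by
    intro h0
    apply hu0
    have : sqRoot hM.1 *ᵥ (invRoot hM.1 *ᵥ u) = u := by
      rw [mulVec_mulVec, sqRoot_mul_invRoot hM, one_mulVec]
    rw [← this, h0, mulVec_zero]
  have h3 : 0 < qf (M - A) (invRoot hM.1 *ᵥ u) := hMA.re_dotProduct_pos hRu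
  have h4 : qf ((1 : Matrix ι ι ℂ) - pencil A hM.1) u = qf (M - A) (invRoot hM.1 *ᵥ u) := by
    rw [one_sub_pencil hM, ← qf_conj, invRoot_herm]
  rw [h4] at h2
  linarith

end Vale.Agent.Lib.P358
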