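import Vale.Agent.Lib.P358.StarLimit

/-! The scalar potentials: convex envelopes and the explicit curve data. -/

namespace Vale.Agent.Lib.P358

open MeasureTheory Set

lemma conv_neglog {k : ℝ} (hk1 : k ≤ 1) (hk0 : 0 ≤ k) :
    ConvexOn ℝ (Ico (0 : ℝ) 1) (fun y => -Real.log (1 - k * y)) := by
  refine ⟨convex_Ico 0 1, ?_⟩
  intro x hx y hy a b ha hb hab
  have hpos : ∀ z ∈ Ico (0 : ℝ) 1, 0 < 1 - k * z := by
    intro z hz
    have : k * z ≤ 1 * z := mul_le_mul_of_nonneg_right hk1 hz.1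
    linarith [hz.2]
  have hc := strictConcaveOn_log_Ioi.concaveOn.2 (show (1 - k * x) ∈ Ioi (0 : ℝ) from hpos x hx)
    (show (1 - k * y) ∈ Ioi (0 : ℝ) from hpos y hy) ha hb hab
  simp only [smul_eq_mul] at hc ⊢
  have he : a * (1 - k * x) + b * (1 - k * y) = 1 - k * (a * x + b * y) := by
    have : b = 1 - a := by linarith
    subst this
    ring
  rw [he] at hc
  nlinarith

lemma conv_sup {T : Type*} [Nonempty T] (f : T → ℝ → ℝ)
    (hf : ∀ t, ConvexOn ℝ (Ico (0 : ℝ) 1) (f t))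
    (hb : ∀ y ∈ Ico (0 : ℝ) 1, BddAbove (range fun t => f t y)) :
    ConvexOn ℝ (Ico (0 : ℝ) 1) (fun y => ⨆ t, f t y) := by
  refine ⟨convex_Ico 0 1, ?_⟩
  intro x hx y hy a b ha hb' hab
  simp only [smul_eq_mul]
  refine ciSup_le fun t => ?_
  have h1 := (hf t).2 hx hy ha hb' hab
  simp only [smul_eq_mul] at h1
  refine h1.trans ?_
  exact add_le_add (mul_le_mul_of_nonneg_left (le_ciSup (hb x hx) t) ha)
    (mul_le_mul_of_nonneg_left (le_ciSup (hb y hy) t) hb')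

lemma Lfun_zero (g : ℝ → ℝ) : Lfun g 0 = 0 := by simp [Lfun]

/-- From the inequality in the kappa variables to the full package. -/
theorem potentials_of_kappa {θ : ℝ} {g0 g1 : ℝ → ℝ} (hθ0 : 0 ≤ θ) (hθ1 : θ ≤ 1)
    (w0 : BddWeight g0) (w1 : BddWeight g1)
    (low0 : ∀ δ > 0, ∃ ε > 0, ∀ t ∈ Ioc 0 ε, 1 - δ ≤ g0 t)
    (low1 : ∀ δ > 0, ∃ ε > 0, ∀ t ∈ Ioc 0 ε, 1 - δ ≤ g1 t)
    (hY : ∀ κ, 0 ≤ κ → ∀ μ, 0 ≤ μ →
      Lfun g0 κ + Lfun g1 μ ≤ Real.log ((1 + κ) * (1 + μ) - θ * κ * μ)) :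
    ∃ Λ1 Λ2, Potentials θ Λ1 Λ2 g0 g1 := by
  set U1 : ℝ → ℝ := fun t => -Real.log (1 - t) - Lfun g0 (t / (1 - t)) with hU1
  set U2 : ℝ → ℝ := fun t => -Real.log (1 - t) - Lfun g1 (t / (1 - t)) with hU2
  have hU10 : U1 0 = 0 := by simp [hU1, Lfun_zero]
  have hU20 : U2 0 = 0 := by simp [hU2, Lfun_zero]
  set C : ℝ → ℝ → ℝ := fun x y => -Real.log (1 - θ * x * y) with hC
  have hCzero : ∀ y, C 0 y = 0 := by intro y; simp [hC]
  have hCzero' : ∀ x, C x 0 = 0 := by intro x; simp [hC]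
  have hU : ∀ x ∈ Ico (0 : ℝ) 1, ∀ y ∈ Ico (0 : ℝ) 1, C x y ≤ U1 x + U2 y := by
    intro x hx y hy
    have hx1 : 0 < 1 - x := by linarith [hx.2]
    have hy1 : 0 < 1 - y := by linarith [hy.2]
    have hκ : 0 ≤ x / (1 - x) := div_nonneg hx.1 hx1.le
    have hμ : 0 ≤ y / (1 - y) := div_nonneg hy.1 hy1.le
    have h := hY _ hκ _ hμ
    have hz : 0 < 1 - θ * x * y := by
      have h1 : θ * x * y ≤ 1 * x * y :=
        mul_le_mul_of_nonneg_right (mul_le_mul_of_nonneg_right hθ1 hx.1) hy.1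
      have h2 : x * y < 1 := by nlinarith [hx.1, hx.2, hy.1, hy.2]
      linarith
    have he : (1 + x / (1 - x)) * (1 + y / (1 - y)) - θ * (x / (1 - x)) * (y / (1 - y)) =
        (1 - θ * x * y) / ((1 - x) * (1 - y)) := by
      field_simp
      ring
    rw [he, Real.log_div hz.ne' (mul_pos hx1 hy1).ne', Real.log_mul hx1.ne' hy1.ne'] at h
    simp only [hC, hU1, hU2]
    linarith
  -- The two envelopes
  have : Nonempty (Ico (0 : ℝ) 1) := ⟨⟨0, by simp⟩⟩
  set Λ2 : ℝ → ℝ := fun y => ⨆ x : Ico (0 : ℝ) 1, (C x y - U1 x) with hΛ2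
  have hb2 : ∀ y ∈ Ico (0 : ℝ) 1, BddAbove (range fun x : Ico (0 : ℝ) 1 => C x y - U1 x) := by
    intro y hy
    refine ⟨U2 y, ?_⟩
    rintro _ ⟨x, rfl⟩
    have := hU x x.2 y hy
    simp only
    linarith
  have h2le : ∀ y ∈ Ico (0 : ℝ) 1, Λ2 y ≤ U2 y := by
    intro y hy
    refine ciSup_le fun x => ?_
    have := hU x x.2 y hy
    linarith
  have h2ge : ∀ y ∈ Ico (0 : ℝ) 1, ∀ x ∈ Ico (0 : ℝ) 1, C x y - U1 x ≤ Λ2 y := by
    intro y hy x hx
    exact le_ciSup (hb2 y hy) (⟨x, hx⟩ : Ico (0 : ℝ) 1)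
  have hmem0 : (0 : ℝ) ∈ Ico (0 : ℝ) 1 := by simp
  have h2nn : ∀ y ∈ Ico (0 : ℝ) 1, 0 ≤ Λ2 y := by
    intro y hy
    have := h2ge y hy 0 hmem0
    rw [hCzero, hU10] at this
    linarith
  set Λ1 : ℝ → ℝ := fun x => ⨆ y : Ico (0 : ℝ) 1, (C x y - Λ2 y) with hΛ1
  have hb1 : ∀ x ∈ Ico (0 : ℝ) 1, BddAbove (range fun y : Ico (0 : ℝ) 1 => C x y - Λ2 y) := by
    intro x hx
    refine ⟨U1 x, ?_⟩
    rintro _ ⟨y, rfl⟩
    have := h2ge y y.2 x hx
    simp only
    linarith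
  have h1le : ∀ x ∈ Ico (0 : ℝ) 1, Λ1 x ≤ U1 x := by
    intro x hx
    refine ciSup_le fun y => ?_
    have := h2ge y y.2 x hx
    linarith
  have h1ge : ∀ x ∈ Ico (0 : ℝ) 1, ∀ y ∈ Ico (0 : ℝ) 1, C x y - Λ2 y ≤ Λ1 x := by
    intro x hx y hy
    exact le_ciSup (hb1 x hx) (⟨y, hy⟩ : Ico (0 : ℝ) 1)
  have h1nn : ∀ x ∈ Ico (0 : ℝ) 1, 0 ≤ Λ1 x := by
    intro x hx
    have h3 := h1ge x hx 0 hmem0
    rw [hCzero'] at h3
    have h4 := h2le 0 hmem0
    rw [hU20] at h4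
    linarith
  have hconv2 : ConvexOn ℝ (Ico (0 : ℝ) 1) Λ2 := by
    refine conv_sup (fun (x : Ico (0 : ℝ) 1) y => C x y - U1 x) (fun x => ?_) hb2
    have hk0 : 0 ≤ θ * (x : ℝ) := mul_nonneg hθ0 x.2.1
    have hk1 : θ * (x : ℝ) ≤ 1 := by nlinarith [x.2.1, x.2.2]
    have := conv_neglog hk1 hk0
    exact (this.add_const (-U1 x)).congr (by
      intro y _
      simp [hC, sub_eq_add_neg])
  have hconv1 : ConvexOn ℝ (Ico (0 : ℝ) 1) Λ1 := by
    refine conv_sup (fun (y : Ico (0 : ℝ) 1) x => C x y - Λ2 y) (fun y => ?_) hb1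
    have hk0 : 0 ≤ θ * (y : ℝ) := mul_nonneg hθ0 y.2.1
    have hk1 : θ * (y : ℝ) ≤ 1 := by nlinarith [y.2.1, y.2.2]
    have := conv_neglog hk1 hk0
    exact (this.add_const (-Λ2 y)).congr (by
      intro x _
      have : θ * (y : ℝ) * x = θ * x * y := by ring
      simp [hC, sub_eq_add_neg, this])
  refine ⟨Λ1, Λ2, ?_⟩
  exact
    { conv1 := hconv1
      conv2 := hconv2
      nonneg1 := h1nn
      nonneg2 := h2nn
      young := fun x hx y hy => by
        have := h1ge x hx y hy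
        simp only [hC] at this
        linarith
      weight0 := w0
      weight1 := w1
      low0 := low0
      low1 := low1
      cmp0 := fun t ht => by
        have := h1le t ht
        simp only [hU1] at this
        linarith
      cmp1 := fun t ht => by
        have := h2le t ht
        simp only [hU2] at this
        linarith }

/-- One side of the explicit scalar data. -/
structure SideData (a b r c' θ y1 y2 l : ℝ) : Prop where
  ha : 0 < a
  hb : 0 ≤ b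
  hc : 0 < c'
  hr : c' ≤ r
  hθ0 : 0 ≤ θ
  hθ1 : θ ≤ 1
  hy1 : 0 ≤ y1
  hy2 : 0 ≤ y2
  hl0 : 0 ≤ l
  hl1 : l ≤ 1
  hp : l * y1 + (1 - l) * y2 = a + b
  hq : (1 - l) * y1 + l * y2 = r
  hdet : y1 * y2 = (a + b) * r - θ * a * c'

/-- The primitive. -/
noncomputable def Ghat (a b y1 y2 l κ : ℝ) : ℝ :=
  l * Real.log (a + (y1 - b) * κ) + (1 - l) * Real.log (a + (y2 - b) * κ) - Real.log a

/-- Its derivative. -/
noncomputable def gform (a b y1 y2 l κ : ℝ) : ℝ :=
  l * (y1 - b) / (a + (y1 - b) * κ) + (1 - l) * (y2 - b) / (a + (y2 - b) * κ)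

/-- The weight. -/
noncomputable def gcurve (a b y1 y2 l κ : ℝ) : ℝ :=
  if 0 < κ ∧ b * κ < a then gform a b y1 y2 l κ else 0

namespace SideData

variable {a b r c' θ y1 y2 l : ℝ}

lemma prod_pos_of_b (D : SideData a b r c' θ y1 y2 l) (hb : 0 < b) : 0 < y1 * y2 := by
  rw [D.hdet]
  have h1 : θ * a * c' ≤ 1 * a * c' :=
    mul_le_mul_of_nonneg_right (mul_le_mul_of_nonneg_right D.hθ1 D.ha.le) D.hc.le
  have h2 : a * c' ≤ a * r := mul_le_mul_of_nonneg_left D.hr D.ha.le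
  have h3 : 0 < b * r := mul_pos hb (lt_of_lt_of_le D.hc D.hr)
  nlinarith

lemma R_pos_aux (D : SideData a b r c' θ y1 y2 l) {y : ℝ} (hy : 0 ≤ y) (hyb : 0 < b → 0 < y)
    {κ : ℝ} (hκ : 0 ≤ κ) (hκb : b * κ ≤ a) : 0 < a + (y - b) * κ := by
  rcases hκb.lt_or_eq with h | h
  · nlinarith [mul_nonneg hy hκ]
  · have hbp : 0 < b := by
      by_contra hb0
      have hb1 : b = 0 := le_antisymm (not_lt.mp hb0) D.hb
      rw [hb1, zero_mul] at h
      exact D.ha.ne h
    have hκp : 0 < κ := by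
      by_contra hk0
      have hk1 : κ = 0 := le_antisymm (not_lt.mp hk0) hκ
      rw [hk1, mul_zero] at h
      exact D.ha.ne h
    nlinarith [mul_pos (hyb hbp) hκp]

lemma R1_pos (D : SideData a b r c' θ y1 y2 l) {κ : ℝ} (hκ : 0 ≤ κ) (hκb : b * κ ≤ a) :
    0 < a + (y1 - b) * κ :=
  D.R_pos_aux D.hy1 (fun hb => by
    have h := D.prod_pos_of_b hb
    by_contra h0
    have h1 : y1 = 0 := le_antisymm (not_lt.mp h0) D.hy1
    rw [h1, zero_mul] at h
    exact lt_irrefl _ h) hκ hκb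

lemma R2_pos (D : SideData a b r c' θ y1 y2 l) {κ : ℝ} (hκ : 0 ≤ κ) (hκb : b * κ ≤ a) :
    0 < a + (y2 - b) * κ :=
  D.R_pos_aux D.hy2 (fun hb => by
    have h := D.prod_pos_of_b hb
    by_contra h0
    have h1 : y2 = 0 := le_antisymm (not_lt.mp h0) D.hy2
    rw [h1, mul_zero] at h
    exact lt_irrefl _ h) hκ hκb

lemma hsum (D : SideData a b r c' θ y1 y2 l) : y1 + y2 = a + b + r := by
  have h1 := D.hp
  have h2 := D.hq
  linarith

/-- Closed form of the weight. -/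
lemma gform_eq (D : SideData a b r c' θ y1 y2 l) {κ : ℝ} (hκ : 0 ≤ κ) (hκb : b * κ ≤ a) :
    gform a b y1 y2 l κ * ((a + (y1 - b) * κ) * (a + (y2 - b) * κ)) =
      a * (a + κ * (r - b - θ * c')) := by
  have hR1 := (D.R1_pos hκ hκb).ne'
  have hR2 := (D.R2_pos hκ hκb).ne'
  have h3 : (y1 - b) * (y2 - b) = a * (r - b - θ * c') := by
    have h4 := D.hdet
    have h5 := D.hsum
    have : (y1 - b) * (y2 - b) = y1 * y2 - b * (y1 + y2) + b ^ 2 := by ring
    rw [this, h4, h5]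
    ring
  have h6 : l * (y1 - b) + (1 - l) * (y2 - b) = a := by
    have := D.hp
    linear_combination this
  have h7 : gform a b y1 y2 l κ * ((a + (y1 - b) * κ) * (a + (y2 - b) * κ)) =
      l * (y1 - b) * (a + (y2 - b) * κ) + (1 - l) * (y2 - b) * (a + (y1 - b) * κ) := by
    have key : ∀ R1 R2 : ℝ, R1 ≠ 0 → R2 ≠ 0 →
        (l * (y1 - b) / R1 + (1 - l) * (y2 - b) / R2) * (R1 * R2) =
          l * (y1 - b) * R2 + (1 - l) * (y2 - b) * R1 := by
      intro R1 R2 h1 h2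
      field_simp
    unfold gform
    exact key _ _ hR1 hR2
  rw [h7]
  linear_combination a * h6 + κ * h3

lemma R_prod_eq (D : SideData a b r c' θ y1 y2 l) (κ : ℝ) :
    (a + (y1 - b) * κ) * (a + (y2 - b) * κ) =
      a * (a + κ * (a + r - b) + κ ^ 2 * (r - b - θ * c')) := by
  have h3 : (y1 - b) * (y2 - b) = a * (r - b - θ * c') := by
    have h4 := D.hdet
    have h5 := D.hsum
    have : (y1 - b) * (y2 - b) = y1 * y2 - b * (y1 + y2) + b ^ 2 := by ring
    rw [this, h4, h5]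
    ring
  have h5 := D.hsum
  have : (a + (y1 - b) * κ) * (a + (y2 - b) * κ) =
      a ^ 2 + a * κ * (y1 + y2 - 2 * b) + κ ^ 2 * ((y1 - b) * (y2 - b)) := by ring
  rw [this, h3, h5]
  ring

lemma gform_bounds (D : SideData a b r c' θ y1 y2 l) {κ : ℝ} (hκ : 0 ≤ κ) (hκb : b * κ ≤ a) :
    0 ≤ gform a b y1 y2 l κ ∧ gform a b y1 y2 l κ ≤ 1 := by
  have hR1 := D.R1_pos hκ hκb
  have hR2 := D.R2_pos hκ hκb
  have hRR := mul_pos hR1 hR2
  have he := D.gform_eq hκ hκb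
  have hprod := D.R_prod_eq κ
  have hθc : θ * c' ≤ r := by
    have : θ * c' ≤ 1 * c' := mul_le_mul_of_nonneg_right D.hθ1 D.hc.le
    linarith [D.hr]
  have hn : 0 ≤ a + κ * (r - b - θ * c') := by
    have : 0 ≤ κ * (r - θ * c') := mul_nonneg hκ (by linarith)
    nlinarith
  constructor
  · have : 0 ≤ gform a b y1 y2 l κ * ((a + (y1 - b) * κ) * (a + (y2 - b) * κ)) := by
      rw [he]
      exact mul_nonneg D.ha.le hn
    exact nonneg_of_mul_nonneg_left this hRR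
  · have hθc' : 0 ≤ θ * c' := mul_nonneg D.hθ0 D.hc.le
    have h1 : gform a b y1 y2 l κ * ((a + (y1 - b) * κ) * (a + (y2 - b) * κ)) ≤
        1 * ((a + (y1 - b) * κ) * (a + (y2 - b) * κ)) := by
      rw [he, one_mul, hprod]
      apply mul_le_mul_of_nonneg_left _ D.ha.le
      have h2 : 0 ≤ κ * (a + θ * c' + κ * (r - b - θ * c')) := by
        apply mul_nonneg hκ
        have : 0 ≤ κ * (r - θ * c') := mul_nonneg hκ (by linarith)
        nlinarith
      nlinarith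
    exact le_of_mul_le_mul_right h1 hRR

lemma gcurve_bounds (D : SideData a b r c' θ y1 y2 l) (κ : ℝ) :
    0 ≤ gcurve a b y1 y2 l κ ∧ gcurve a b y1 y2 l κ ≤ 1 := by
  unfold gcurve
  split_ifs with h
  · exact D.gform_bounds h.1.le h.2.le
  · exact ⟨le_rfl, zero_le_one⟩

lemma weight (D : SideData a b r c' θ y1 y2 l) : BddWeight (gcurve a b y1 y2 l) where
  meas := by
    unfold gcurve
    refine Measurable.ite ?_ ?_ measurable_const
    · exact (measurableSet_lt measurable_const measurable_id).inter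
        (measurableSet_lt (measurable_const.mul measurable_id) measurable_const)
    · unfold gform
      fun_prop
  nonneg t := (D.gcurve_bounds t).1
  le_one t := (D.gcurve_bounds t).2

lemma low (D : SideData a b r c' θ y1 y2 l) :
    ∀ δ > 0, ∃ ε > 0, ∀ t ∈ Ioc 0 ε, 1 - δ ≤ gcurve a b y1 y2 l t := by
  intro δ hδ
  have ha := D.ha
  have hcont : ContinuousAt (gform a b y1 y2 l) 0 := by
    unfold gform
    have h1 : a + (y1 - b) * 0 ≠ 0 := by simpa using ha.ne'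
    have h2 : a + (y2 - b) * 0 ≠ 0 := by simpa using ha.ne'
    refine ContinuousAt.add (ContinuousAt.div continuousAt_const (by fun_prop) h1)
      (ContinuousAt.div continuousAt_const (by fun_prop) h2)
  have hval : gform a b y1 y2 l 0 = 1 := by
    unfold gform
    have h6 : l * (y1 - b) + (1 - l) * (y2 - b) = a := by
      have := D.hp
      linear_combination this
    simp only [mul_zero, add_zero]
    field_simp
    linarith
  have h1 : ∀ᶠ t in nhds (0 : ℝ), 1 - δ < gform a b y1 y2 l t :=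
    hcont.eventually (lt_mem_nhds (by rw [hval]; linarith))
  have hcont2 : ContinuousAt (fun t : ℝ => b * t) 0 := by fun_prop
  have h2 : ∀ᶠ t in nhds (0 : ℝ), b * t < a :=
    hcont2.eventually (gt_mem_nhds (by simpa using ha))
  obtain ⟨ε, hε, hball⟩ := Metric.eventually_nhds_iff.mp (h1.and h2)
  refine ⟨ε / 2, by positivity, fun t ht => ?_⟩
  have hd : dist t 0 < ε := by
    rw [Real.dist_eq, sub_zero, abs_of_pos ht.1]
    linarith [ht.2]
  obtain ⟨h3, h4⟩ := hball hd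
  unfold gcurve
  rw [if_pos ⟨ht.1, h4⟩]
  exact h3.le

lemma Ghat_zero : Ghat a b y1 y2 l 0 = 0 := by
  unfold Ghat
  simp only [mul_zero, add_zero]
  ring

lemma hasDeriv (D : SideData a b r c' θ y1 y2 l) {κ : ℝ} (hκ : 0 ≤ κ) (hκb : b * κ ≤ a) :
    HasDerivAt (Ghat a b y1 y2 l) (gform a b y1 y2 l κ) κ := by
  have hR1 := (D.R1_pos hκ hκb).ne'
  have hR2 := (D.R2_pos hκ hκb).ne'
  unfold Ghat gform
  have h1 : HasDerivAt (fun t => a + (y1 - b) * t) (y1 - b) κ := by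
    simpa using ((hasDerivAt_id κ).const_mul (y1 - b)).const_add a
  have h2 : HasDerivAt (fun t => a + (y2 - b) * t) (y2 - b) κ := by
    simpa using ((hasDerivAt_id κ).const_mul (y2 - b)).const_add a
  have h3 := ((h1.log hR1).const_mul l).add ((h2.log hR2).const_mul (1 - l))
  have h4 := h3.sub_const (Real.log a)
  have h5 : l * (y1 - b) / (a + (y1 - b) * κ) + (1 - l) * (y2 - b) / (a + (y2 - b) * κ) =
      l * ((y1 - b) / (a + (y1 - b) * κ)) + (1 - l) * ((y2 - b) / (a + (y2 - b) * κ)) := by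
    ring
  rw [h5]
  exact h4

/-- The primitive of the weight on the curve. -/
lemma Lfun_eq (D : SideData a b r c' θ y1 y2 l) {κ : ℝ} (hκ : 0 ≤ κ) (hκb : b * κ ≤ a) :
    Lfun (gcurve a b y1 y2 l) κ = Ghat a b y1 y2 l κ := by
  have hint : IntervalIntegrable (gcurve a b y1 y2 l) volume 0 κ := D.weight.intInt 0 κ
  have hcont : ContinuousOn (Ghat a b y1 y2 l) (Icc 0 κ) := by
    intro t ht
    have htb : b * t ≤ a := (mul_le_mul_of_nonneg_left ht.2 D.hb).trans hκb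
    exact (D.hasDeriv ht.1 htb).continuousAt.continuousWithinAt
  have hder : ∀ t ∈ Ioo 0 κ, HasDerivAt (Ghat a b y1 y2 l) (gcurve a b y1 y2 l t) t := by
    intro t ht
    have htb : b * t ≤ a := (mul_le_mul_of_nonneg_left ht.2.le D.hb).trans hκb
    have htb' : b * t < a := by
      rcases D.hb.lt_or_eq with hb | hb
      · have : b * t < b * κ := mul_lt_mul_of_pos_left ht.2 hb
        linarith
      · rw [← hb, zero_mul]
        exact D.ha
    have : gcurve a b y1 y2 l t = gform a b y1 y2 l t := by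
      unfold gcurve
      rw [if_pos ⟨ht.1, htb'⟩]
    rw [this]
    exact D.hasDeriv ht.1.le htb
  have := intervalIntegral.integral_eq_sub_of_hasDerivAt_of_le hκ hcont hder hint
  unfold Lfun
  rw [this, Ghat_zero, sub_zero]

/-- Clipped form: every primitive value is a value of the curve primitive. -/
lemma Lfun_clip (D : SideData a b r c' θ y1 y2 l) {κ : ℝ} (hκ : 0 ≤ κ) :
    ∃ κ', 0 ≤ κ' ∧ κ' ≤ κ ∧ b * κ' ≤ a ∧ Lfun (gcurve a b y1 y2 l) κ = Ghat a b y1 y2 l κ' := by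
  by_cases h : b * κ ≤ a
  · exact ⟨κ, hκ, le_rfl, h, D.Lfun_eq hκ h⟩
  · push Not at h
    have hbp : 0 < b := by
      rcases D.hb.lt_or_eq with hb | hb
      · exact hb
      · rw [← hb, zero_mul] at h
        exact absurd h (not_lt.mpr D.ha.le)
    set κ' := a / b with hκ'
    have h0 : 0 ≤ κ' := (div_pos D.ha hbp).le
    have hbκ : b * κ' = a := by rw [hκ']; field_simp
    have hle : κ' ≤ κ := by
      by_contra hc
      push Not at hc
      have : b * κ < b * κ' := mul_lt_mul_of_pos_left hc hbp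
      linarith
    refine ⟨κ', h0, hle, hbκ.le, ?_⟩
    have h1 := Lfun_sub D.weight κ' κ
    have h2 : ∫ t in κ'..κ, gcurve a b y1 y2 l t = ∫ _t in κ'..κ, (0 : ℝ) := by
      apply intervalIntegral.integral_congr
      intro t ht
      rw [uIcc_of_le hle] at ht
      have : a ≤ b * t := by
        rw [← hbκ]
        exact mul_le_mul_of_nonneg_left ht.1 hbp.le
      unfold gcurve
      rw [if_neg]
      intro hh
      linarith [hh.2]
    rw [h2, intervalIntegral.integral_zero] at h1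
    have h3 := D.Lfun_eq h0 hbκ.le
    linarith

end SideData

/-- The core inequality from the weighted arithmetic-geometric mean. -/
lemma young_core {a0 b0 a1 b1 θ y1 y2 l : ℝ}
    (D0 : SideData a0 b0 (b1 + a1) b1 θ y1 y2 l)
    (D1 : SideData b1 a1 (a0 + b0) a0 θ y1 y2 (1 - l)) {κ μ : ℝ}
    (hκ : 0 ≤ κ) (hκb : b0 * κ ≤ a0) (hμ : 0 ≤ μ) (hμb : a1 * μ ≤ b1) :
    Ghat a0 b0 y1 y2 l κ + Ghat b1 a1 y1 y2 (1 - l) μ ≤
      Real.log ((1 + κ) * (1 + μ) - θ * κ * μ) := by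
  have hR1 := D0.R1_pos hκ hκb
  have hR2 := D0.R2_pos hκ hκb
  have hS1 := D1.R1_pos hμ hμb
  have hS2 := D1.R2_pos hμ hμb
  have hl0 := D0.hl0
  have hl1 := D0.hl1
  have hp := D0.hp
  have hq := D0.hq
  have hdet := D0.hdet
  have ha0 := D0.ha
  have hb1 := D1.ha
  have hID : a0 * b1 * ((1 + κ) * (1 + μ) - θ * κ * μ) =
      (1 - l) * ((b1 + (y1 - a1) * μ) * (a0 + (y2 - b0) * κ)) +
        l * ((b1 + (y2 - a1) * μ) * (a0 + (y1 - b0) * κ)) := by
    linear_combination (-(b1 * κ) + a1 * κ * μ) * hp + (-(a0 * μ) + b0 * κ * μ) * hq -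
      κ * μ * hdet
  have hconc := strictConcaveOn_log_Ioi.concaveOn.2
    (show (b1 + (y1 - a1) * μ) * (a0 + (y2 - b0) * κ) ∈ Ioi (0 : ℝ) from mul_pos hS1 hR2)
    (show (b1 + (y2 - a1) * μ) * (a0 + (y1 - b0) * κ) ∈ Ioi (0 : ℝ) from mul_pos hS2 hR1)
    (sub_nonneg.mpr hl1) hl0 (by ring)
  simp only [smul_eq_mul] at hconc
  rw [← hID] at hconc
  have hZ : 0 < (1 + κ) * (1 + μ) - θ * κ * μ := by
    have hpos : 0 < a0 * b1 * ((1 + κ) * (1 + μ) - θ * κ * μ) := by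
      rw [hID]
      rcases hl0.lt_or_eq with h | h
      · have h1 : 0 < l * ((b1 + (y2 - a1) * μ) * (a0 + (y1 - b0) * κ)) :=
          mul_pos h (mul_pos hS2 hR1)
        have h2 : 0 ≤ (1 - l) * ((b1 + (y1 - a1) * μ) * (a0 + (y2 - b0) * κ)) :=
          mul_nonneg (sub_nonneg.mpr hl1) (mul_pos hS1 hR2).le
        linarith
      · rw [← h]
        simpa using mul_pos hS1 hR2
    exact (pos_iff_pos_of_mul_pos hpos).mp (mul_pos ha0 hb1)
  rw [Real.log_mul (mul_pos ha0 hb1).ne' hZ.ne', Real.log_mul ha0.ne' hb1.ne',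
    Real.log_mul hS1.ne' hR2.ne', Real.log_mul hS2.ne' hR1.ne'] at hconc
  unfold Ghat
  nlinarith

/-- Full inequality in the kappa variables. -/
lemma young_kappa {a0 b0 a1 b1 θ y1 y2 l : ℝ}
    (D0 : SideData a0 b0 (b1 + a1) b1 θ y1 y2 l)
    (D1 : SideData b1 a1 (a0 + b0) a0 θ y1 y2 (1 - l)) {κ μ : ℝ}
    (hκ : 0 ≤ κ) (hμ : 0 ≤ μ) :
    Lfun (gcurve a0 b0 y1 y2 l) κ + Lfun (gcurve b1 a1 y1 y2 (1 - l)) μ ≤
      Real.log ((1 + κ) * (1 + μ) - θ * κ * μ) := by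
  obtain ⟨κ', h0, hle, hb, he⟩ := D0.Lfun_clip hκ
  obtain ⟨μ', h0', hle', hb', he'⟩ := D1.Lfun_clip hμ
  rw [he, he']
  refine (young_core D0 D1 h0 hb h0' hb').trans ?_
  have hθ0 := D0.hθ0
  have hθ1 := D0.hθ1
  have hZ : 0 < (1 + κ') * (1 + μ') - θ * κ' * μ' := by
    have h1 : θ * κ' * μ' ≤ 1 * κ' * μ' :=
      mul_le_mul_of_nonneg_right (mul_le_mul_of_nonneg_right hθ1 h0) h0'
    nlinarith
  apply Real.log_le_log hZ
  have h1 : 0 ≤ (κ - κ') * (1 + μ - θ * μ) := by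
    apply mul_nonneg (by linarith)
    nlinarith
  have h2 : 0 ≤ (μ - μ') * (1 + κ' - θ * κ') := by
    apply mul_nonneg (by linarith)
    nlinarith
  nlinarith

/-- Values of the primitive at the scalar point. -/
lemma Lfun_scalar {a b r c' θ y1 y2 l : ℝ} (D : SideData a b r c' θ y1 y2 l) {s : ℝ} (hs : 0 < s) :
    Lfun (gcurve a b y1 y2 l) (a / (s + b)) =
      l * Real.log (s + y1) + (1 - l) * Real.log (s + y2) - Real.log (s + b) := by
  have hsb : 0 < s + b := by linarith [D.hb]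
  have ha := D.ha
  have hκ : 0 ≤ a / (s + b) := (div_pos ha hsb).le
  have hκb : b * (a / (s + b)) ≤ a := by
    have : b * (a / (s + b)) = a * (b / (s + b)) := by ring
    rw [this]
    have h1 : b / (s + b) ≤ 1 := by
      rw [div_le_one hsb]
      linarith
    nlinarith
  rw [D.Lfun_eq hκ hκb]
  unfold Ghat
  have he : ∀ y, a + (y - b) * (a / (s + b)) = a * (s + y) / (s + b) := by
    intro y
    field_simp
    ring
  have hy1 : 0 < s + y1 := by linarith [D.hy1]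
  have hy2 : 0 < s + y2 := by linarith [D.hy2]
  rw [he, he, Real.log_div (mul_pos ha hy1).ne' hsb.ne', Real.log_div (mul_pos ha hy2).ne' hsb.ne',
    Real.log_mul ha.ne' hy1.ne', Real.log_mul ha.ne' hy2.ne']
  ring

/-- The curve package, with the scalar identity. -/
theorem curve_potentials {a0 b0 a1 b1 θ y1 y2 l : ℝ}
    (D0 : SideData a0 b0 (b1 + a1) b1 θ y1 y2 l)
    (D1 : SideData b1 a1 (a0 + b0) a0 θ y1 y2 (1 - l)) :
    ∃ Λ1 Λ2 g0 g1, Potentials θ Λ1 Λ2 g0 g1 ∧ ∀ s, 0 < s →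
      ellF y1 s + ellF y2 s = ellF b0 s + ellF a1 s + Lfun g0 (a0 / (s + b0)) +
        Lfun g1 (b1 / (s + a1)) := by
  obtain ⟨Λ1, Λ2, hP⟩ := potentials_of_kappa (g0 := gcurve a0 b0 y1 y2 l)
    (g1 := gcurve b1 a1 y1 y2 (1 - l)) D0.hθ0 D0.hθ1 D0.weight D1.weight D0.low D1.low
    (fun κ hκ μ hμ => young_kappa D0 D1 hκ hμ)
  refine ⟨Λ1, Λ2, _, _, hP, fun s hs => ?_⟩
  rw [Lfun_scalar D0 hs, Lfun_scalar D1 hs]
  have h1 := log_add_eq D0.hy1 hs
  have h2 := log_add_eq D0.hy2 hs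
  have h3 := log_add_eq D0.hb hs
  have h4 := log_add_eq D1.hb hs
  nlinarith

/-- The trivial weight. -/
noncomputable def gtriv (κ : ℝ) : ℝ := if 0 < κ then 1 / (1 + κ) else 0

lemma gtriv_weight : BddWeight gtriv where
  meas := by
    unfold gtriv
    refine Measurable.ite (measurableSet_lt measurable_const measurable_id) ?_ measurable_const
    fun_prop
  nonneg t := by
    unfold gtriv
    split_ifs with h
    · positivity
    · exact le_rfl
  le_one t := by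
    unfold gtriv
    split_ifs with h
    · rw [div_le_one (by linarith)]
      linarith
    · exact zero_le_one

lemma Lfun_gtriv {κ : ℝ} (hκ : 0 ≤ κ) : Lfun gtriv κ = Real.log (1 + κ) := by
  have hcont : ContinuousOn (fun t : ℝ => Real.log (1 + t)) (Icc 0 κ) := by
    intro t ht
    have : 1 + t ≠ 0 := by linarith [ht.1]
    exact (ContinuousAt.log (by fun_prop) this).continuousWithinAt
  have hder : ∀ t ∈ Ioo 0 κ, HasDerivAt (fun t : ℝ => Real.log (1 + t)) (gtriv t) t := by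
    intro t ht
    have h1 : 1 + t ≠ 0 := by linarith [ht.1]
    have h2 : HasDerivAt (fun t : ℝ => 1 + t) 1 t := by simpa using (hasDerivAt_id t).const_add 1
    have := h2.log h1
    unfold gtriv
    rw [if_pos ht.1]
    exact this
  have := intervalIntegral.integral_eq_sub_of_hasDerivAt_of_le hκ hcont hder
    (gtriv_weight.intInt 0 κ)
  unfold Lfun
  rw [this]
  simp

lemma gtriv_low : ∀ δ > 0, ∃ ε > 0, ∀ t ∈ Ioc 0 ε, 1 - δ ≤ gtriv t := by
  intro δ hδ
  refine ⟨δ, hδ, fun t ht => ?_⟩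
  unfold gtriv
  rw [if_pos ht.1]
  have h1 : 0 < 1 + t := by linarith [ht.1]
  rw [le_div_iff₀ h1]
  nlinarith [ht.1, ht.2]

/-- The trivial package, with the scalar identity. -/
theorem trivial_potentials {a0 b0 a1 b1 : ℝ} (ha0 : 0 ≤ a0) (hb0 : 0 ≤ b0) (ha1 : 0 ≤ a1)
    (hb1 : 0 ≤ b1) :
    ∃ Λ1 Λ2 g0 g1, Potentials 0 Λ1 Λ2 g0 g1 ∧ ∀ s, 0 < s →
      ellF (a0 + b0) s + ellF (b1 + a1) s = ellF b0 s + ellF a1 s + Lfun g0 (a0 / (s + b0)) +
        Lfun g1 (b1 / (s + a1)) := by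
  obtain ⟨Λ1, Λ2, hP⟩ := potentials_of_kappa (θ := 0) (g0 := gtriv) (g1 := gtriv) le_rfl
    zero_le_one gtriv_weight gtriv_weight gtriv_low gtriv_low (fun κ hκ μ hμ => by
      rw [Lfun_gtriv hκ, Lfun_gtriv hμ, ← Real.log_mul (by linarith) (by linarith)]
      simp)
  refine ⟨Λ1, Λ2, _, _, hP, fun s hs => ?_⟩
  have hb0s : 0 < s + b0 := by linarith
  have ha1s : 0 < s + a1 := by linarith
  rw [Lfun_gtriv (div_nonneg ha0 hb0s.le), Lfun_gtriv (div_nonneg hb1 ha1s.le)]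
  have e1 : 1 + a0 / (s + b0) = (s + (a0 + b0)) / (s + b0) := by field_simp; ring
  have e2 : 1 + b1 / (s + a1) = (s + (b1 + a1)) / (s + a1) := by field_simp; ring
  have h1p : 0 < s + (a0 + b0) := by linarith
  have h2p : 0 < s + (b1 + a1) := by linarith
  rw [e1, e2, Real.log_div h1p.ne' hb0s.ne', Real.log_div h2p.ne' ha1s.ne']
  have h1 := log_add_eq (add_nonneg ha0 hb0) hs
  have h2 := log_add_eq (add_nonneg hb1 ha1) hs
  have h3 := log_add_eq hb0 hs
  have h4 := log_add_eq ha1 hs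
  linarith

end Vale.Agent.Lib.P358
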