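import Vale.Agent.Lib.P358.Ensemble

/-! Boundedness of the Holevo values, product ensembles, and the final theorem. -/

namespace Vale.Agent.Lib.P358

open Matrix
open scoped ComplexOrder Kronecker

set_option linter.unusedSectionVars false

lemma entropy_nonneg {m : Type*} [Fintype m] [DecidableEq m] {M : Matrix m m ℂ}
    (hM : M.PosSemidef) (htr : M.trace.re = 1) : 0 ≤ entropy M := by
  rw [entropy_eq_sumEig, sumEig_eq hM.1]
  apply div_nonneg _ log_two_pos'.le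
  rw [← Finset.sum_neg_distrib]
  refine Finset.sum_nonneg fun i _ => ?_
  have h0 := hM.eigenvalues_nonneg i
  have h1 : hM.1.eigenvalues i ≤ 1 := by
    rw [← htr, trace_re_eq_sum hM.1]
    exact Finset.single_le_sum (f := hM.1.eigenvalues) (fun j _ => hM.eigenvalues_nonneg j)
      (Finset.mem_univ i)
  have := Real.negMulLog_nonneg h0 h1
  simpa [Real.negMulLog, phi] using this

lemma entropy_le_one {M : Matrix (Fin 2) (Fin 2) ℂ} (hM : M.PosSemidef) (htr : M.trace.re = 1) :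
    entropy M ≤ 1 := by
  rw [entropy_eq_sumEig, sumEig_eq hM.1, div_le_one log_two_pos']
  rw [trace_re_eq_sum hM.1, Fin.sum_univ_two] at htr
  rw [Fin.sum_univ_two]
  have h0 := hM.eigenvalues_nonneg 0
  have h1 := hM.eigenvalues_nonneg 1
  have hc := Real.convexOn_mul_log.2 (show hM.1.eigenvalues 0 ∈ Set.Ici (0 : ℝ) from h0)
    (show hM.1.eigenvalues 1 ∈ Set.Ici (0 : ℝ) from h1) (show (0 : ℝ) ≤ 1 / 2 by norm_num)
    (show (0 : ℝ) ≤ 1 / 2 by norm_num) (by norm_num)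
  simp only [smul_eq_mul] at hc
  have e1 : 1 / 2 * hM.1.eigenvalues 0 + 1 / 2 * hM.1.eigenvalues 1 = 1 / 2 := by linarith
  rw [e1] at hc
  have e2 : Real.log (1 / 2) = -Real.log 2 := by
    rw [one_div, Real.log_inv]
  rw [e2] at hc
  unfold phi
  nlinarith

section
variable {γ ν : ℝ}

lemma gadc_sum {κ : Type*} (s : Finset κ) (q : κ → ℝ) (ρ : κ → Matrix (Fin 2) (Fin 2) ℂ)
    (h0 : 0 ≤ γ) (h1 : γ ≤ 1) (h2 : 0 ≤ ν) (h3 : ν ≤ 1) (hq : ∀ a ∈ s, 0 ≤ q a)
    (hρ : ∀ a ∈ s, (ρ a).PosSemidef) : (∑ a ∈ s, q a • gadc γ ν (ρ a)).PosSemidef :=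
  Matrix.posSemidef_sum _ fun a ha => (gadc_psd h0 h1 h2 h3 (hρ a ha)).smul (hq a ha)

/-- Holevo values of one use are at most one bit. -/
lemma holevo_le_one (h0 : 0 ≤ γ) (h1 : γ ≤ 1) (h2 : 0 ≤ ν) (h3 : ν ≤ 1) {x : ℝ}
    (hx : x ∈ holevoSet (gadc γ ν)) : x ≤ 1 := by
  obtain ⟨k, q, ρ, hq0, hq1, hρ, rfl⟩ := hx
  have htr : ∀ a, (gadc γ ν (ρ a)).trace.re = 1 := fun a => by
    rw [gadc_trace, (hρ a).2]
    simp
  have hav : (∑ a, q a • gadc γ ν (ρ a)).trace.re = 1 := by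
    rw [Matrix.trace_sum, Complex.re_sum]
    simp only [trace_re_smul, htr, mul_one, hq1]
  have h4 := entropy_le_one (gadc_sum Finset.univ q ρ h0 h1 h2 h3 (fun a _ => hq0 a)
    (fun a _ => (hρ a).1)) hav
  have h5 : 0 ≤ ∑ a, q a * entropy (gadc γ ν (ρ a)) :=
    Finset.sum_nonneg fun a _ =>
      mul_nonneg (hq0 a) (entropy_nonneg (gadc_psd h0 h1 h2 h3 (hρ a).1) (htr a))
  linarith

lemma holevoSet_nonempty_one : (holevoSet (gadc γ ν)).Nonempty := by
  refine ⟨_, mem_holevoSet_fintype (gadc γ ν) (κ := Unit) (fun _ => 1) (fun _ => psiM 1 1 0)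
    (fun _ => zero_le_one) (by simp) (fun _ => ⟨psiM_psd (by norm_num) (by norm_num) le_rfl, ?_⟩)⟩
  rw [psiM_trace']
  simp

lemma holevoSet_zero : (0 : ℝ) ∈ holevoSet (tensorPow (gadc γ ν) 0) := by
  have h := mem_holevoSet_fintype (tensorPow (gadc γ ν) 0) (κ := Unit) (fun _ => 1)
    (fun _ => (1 : Matrix (S 0) (S 0) ℂ)) (fun _ => zero_le_one) (by simp)
    (fun _ => ⟨Matrix.PosSemidef.one, by simp [Matrix.trace_one]⟩)
  simpa using h

end

/-- The tensor product of a one-site matrix and an `n`-site matrix. -/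
noncomputable def kr {n : ℕ} (R : Matrix (Fin 2) (Fin 2) ℂ) (M : Matrix (S n) (S n) ℂ) :
    Matrix (S (n + 1)) (S (n + 1)) ℂ :=
  reindex (consE n) (consE n) (R ⊗ₖ M)

lemma kr_apply {n : ℕ} (R : Matrix (Fin 2) (Fin 2) ℂ) (M : Matrix (S n) (S n) ℂ) (a b : Fin 2)
    (x y : S n) : kr R M (consS a x) (consS b y) = R a b * M x y := by
  have h1 : (consE n).symm (consS a x) = (a, x) := (consE n).symm_apply_apply (a, x)
  have h2 : (consE n).symm (consS b y) = (b, y) := (consE n).symm_apply_apply (b, y)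
  simp [kr, h1, h2]

lemma kr_psd {n : ℕ} {R : Matrix (Fin 2) (Fin 2) ℂ} {M : Matrix (S n) (S n) ℂ}
    (hR : R.PosSemidef) (hM : M.PosSemidef) : (kr R M).PosSemidef := by
  unfold kr
  rw [reindex_apply]
  exact (hR.kronecker hM).submatrix _

lemma kr_trace {n : ℕ} (R : Matrix (Fin 2) (Fin 2) ℂ) (M : Matrix (S n) (S n) ℂ) :
    (kr R M).trace = R.trace * M.trace := by
  unfold kr
  rw [trace_reindex_aux, Matrix.trace_kronecker]

lemma consS_surj {n : ℕ} (z : S (n + 1)) : ∃ a x, z = consS a x :=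
  ⟨z 0, Fin.tail z, (Fin.cons_self_tail z).symm⟩

lemma Qb_kr {n : ℕ} (R : Matrix (Fin 2) (Fin 2) ℂ) (M : Matrix (S n) (S n) ℂ) (a b : Fin 2) :
    Qb (kr R M) a b = R a b • M := by
  ext x y
  simp [Qb, kr_apply]

lemma T_csmul {m : Type*} [Fintype m] [DecidableEq m] (N : Matrix m m ℂ → Matrix m m ℂ) {n : ℕ}
    (t : ℂ) (Q : Matrix (Fin n → m) (Fin n → m) ℂ) :
    tensorPow N n (t • Q) = t • tensorPow N n Q := by
  ext x y
  simp only [tensorPow, of_apply, Matrix.smul_apply, smul_eq_mul, Finset.mul_sum]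
  refine Finset.sum_congr rfl fun x' _ => Finset.sum_congr rfl fun y' _ => ?_
  ring

section
variable {γ ν : ℝ}

lemma gadc_expand (ρ : Matrix (Fin 2) (Fin 2) ℂ) (α β : Fin 2) :
    gadc γ ν ρ α β = ∑ a', ∑ b', gadc γ ν (Matrix.single a' b' 1) α β * ρ a' b' := by
  fin_cases α <;> fin_cases β <;>
    simp [gadc, Fin.sum_univ_two, Matrix.single]

lemma T_kr {n : ℕ} (ρ : Matrix (Fin 2) (Fin 2) ℂ) (τ : Matrix (S n) (S n) ℂ) :
    tensorPow (gadc γ ν) (n + 1) (kr ρ τ) = kr (gadc γ ν ρ) (tensorPow (gadc γ ν) n τ) := by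
  ext z w
  obtain ⟨a, x, rfl⟩ := consS_surj z
  obtain ⟨b, y, rfl⟩ := consS_surj w
  rw [Tcons, kr_apply, gadc_expand, Finset.sum_mul]
  refine Finset.sum_congr rfl fun a' _ => ?_
  rw [Finset.sum_mul]
  refine Finset.sum_congr rfl fun b' _ => ?_
  rw [Qb_kr, T_csmul, Matrix.smul_apply, smul_eq_mul]
  ring

end

lemma sumEig_kron {m n : Type*} [Fintype m] [DecidableEq m] [Fintype n] [DecidableEq n]
    {R : Matrix m m ℂ} {M : Matrix n n ℂ} (hR : R.IsHermitian) (hM : M.IsHermitian) (F : ℝ → ℝ) :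
    sumEig F (R ⊗ₖ M) = ∑ i, ∑ j, F (hR.eigenvalues i * hM.eigenvalues j) := by
  have hU : (eU hR ⊗ₖ eU hM) * (eU hR ⊗ₖ eU hM)ᴴ = 1 := by
    rw [conjTranspose_kronecker, ← Matrix.mul_kronecker_mul, eU_mul_star, eU_mul_star,
      Matrix.one_kronecker_one]
  have hD : diagonal (fun i => ((hR.eigenvalues i : ℝ) : ℂ)) ⊗ₖ
      diagonal (fun j => ((hM.eigenvalues j : ℝ) : ℂ)) =
      diagonal (fun p : m × n => ((hR.eigenvalues p.1 * hM.eigenvalues p.2 : ℝ) : ℂ)) := by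
    rw [Matrix.diagonal_kronecker_diagonal]
    congr 1
    funext p
    push_cast
    rfl
  have key : R ⊗ₖ M = (eU hR ⊗ₖ eU hM) * diagonal (fun p : m × n =>
      ((hR.eigenvalues p.1 * hM.eigenvalues p.2 : ℝ) : ℂ)) * (eU hR ⊗ₖ eU hM)ᴴ := by
    conv_lhs => rw [spectral_eq hR, spectral_eq hM]
    rw [conjTranspose_kronecker, ← hD, ← Matrix.mul_kronecker_mul, ← Matrix.mul_kronecker_mul]
  rw [key, sumEig_conj hU, sumEig_diagonal (fun p : m × n => hR.eigenvalues p.1 * hM.eigenvalues p.2),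
    Fintype.sum_prod_type]

lemma entropy_kr {n : ℕ} {R : Matrix (Fin 2) (Fin 2) ℂ} {M : Matrix (S n) (S n) ℂ}
    (hR : R.IsHermitian) (hM : M.IsHermitian) (h1 : R.trace.re = 1) (h2 : M.trace.re = 1) :
    entropy (kr R M) = entropy R + entropy M := by
  rw [entropy_eq_sumEig, entropy_eq_sumEig, entropy_eq_sumEig]
  unfold kr
  rw [sumEig_reindex, sumEig_kron hR hM, sumEig_eq hR, sumEig_eq hM]
  rw [trace_re_eq_sum hR] at h1
  rw [trace_re_eq_sum hM] at h2
  have : ∑ i, ∑ j, phi (hR.eigenvalues i * hM.eigenvalues j) =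
      ∑ i, phi (hR.eigenvalues i) + ∑ j, phi (hM.eigenvalues j) := by
    simp only [phi_mul, Finset.sum_add_distrib, ← Finset.mul_sum, ← Finset.sum_mul, h1, h2]
    ring
  rw [this]
  ring

lemma kr_sum {n : ℕ} {κ κ' : Type*} [Fintype κ] [Fintype κ'] (q : κ → ℝ) (q' : κ' → ℝ)
    (R : κ → Matrix (Fin 2) (Fin 2) ℂ) (M : κ' → Matrix (S n) (S n) ℂ) :
    ∑ p : κ × κ', (q p.1 * q' p.2) • kr (R p.1) (M p.2) =
      kr (∑ a, q a • R a) (∑ a, q' a • M a) := by
  ext z w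
  obtain ⟨a, x, rfl⟩ := consS_surj z
  obtain ⟨b, y, rfl⟩ := consS_surj w
  rw [kr_apply, Matrix.sum_apply, Matrix.sum_apply, Matrix.sum_apply, Finset.sum_mul_sum,
    Fintype.sum_prod_type]
  refine Finset.sum_congr rfl fun i _ => Finset.sum_congr rfl fun j _ => ?_
  simp only [Matrix.smul_apply, kr_apply, Complex.real_smul]
  push_cast
  ring

section
variable {γ ν : ℝ}

/-- Values of product ensembles add. -/
theorem holevo_add_mem (h0 : 0 ≤ γ) (h1 : γ ≤ 1) (h2 : 0 ≤ ν) (h3 : ν ≤ 1) {n : ℕ} {v v' : ℝ}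
    (hv : v ∈ holevoSet (gadc γ ν)) (hv' : v' ∈ holevoSet (tensorPow (gadc γ ν) n)) :
    v + v' ∈ holevoSet (tensorPow (gadc γ ν) (n + 1)) := by
  obtain ⟨k, q, ρ, hq0, hq1, hρ, rfl⟩ := hv
  obtain ⟨k', q', ρ', hq0', hq1', hρ', rfl⟩ := hv'
  have hw1 : ∑ p : Fin k × Fin k', q p.1 * q' p.2 = 1 := by
    rw [Fintype.sum_prod_type]
    simp only [← Finset.mul_sum, hq1', mul_one, hq1]
  have hmem := mem_holevoSet_fintype (tensorPow (gadc γ ν) (n + 1))
    (fun p : Fin k × Fin k' => q p.1 * q' p.2) (fun p => kr (ρ p.1) (ρ' p.2))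
    (fun p => mul_nonneg (hq0 _) (hq0' _)) hw1 (fun p => ⟨kr_psd (hρ _).1 (hρ' _).1, by
      rw [kr_trace, (hρ _).2, (hρ' _).2, one_mul]⟩)
  simp only [T_kr] at hmem
  have hk := kr_sum q q' (fun a => gadc γ ν (ρ a)) (fun a => tensorPow (gadc γ ν) n (ρ' a))
  rw [hk] at hmem
  convert hmem using 1
  have htr : ∀ a, (gadc γ ν (ρ a)).trace.re = 1 := fun a => by
    rw [gadc_trace, (hρ a).2]
    simp
  have htr' : ∀ a, (tensorPow (gadc γ ν) n (ρ' a)).trace.re = 1 := fun a => by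
    rw [T_trace, (hρ' a).2]
    simp
  have hav : (∑ a, q a • gadc γ ν (ρ a)).trace.re = 1 := by
    rw [Matrix.trace_sum, Complex.re_sum]
    simp only [trace_re_smul, htr, mul_one, hq1]
  have hav' : (∑ a, q' a • tensorPow (gadc γ ν) n (ρ' a)).trace.re = 1 := by
    rw [Matrix.trace_sum, Complex.re_sum]
    simp only [trace_re_smul, htr', mul_one, hq1']
  have hA := gadc_sum Finset.univ q ρ h0 h1 h2 h3 (fun a _ => hq0 a) (fun a _ => (hρ a).1)
  have hB : (∑ a, q' a • tensorPow (gadc γ ν) n (ρ' a)).PosSemidef :=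
    Matrix.posSemidef_sum _ fun a _ => (T_psd h0 h1 h2 h3 (hρ' a).1).smul (hq0' a)
  rw [entropy_kr hA.1 hB.1 hav hav']
  have hE : ∀ p : Fin k × Fin k', (q p.1 * q' p.2) *
      entropy (kr (gadc γ ν (ρ p.1)) (tensorPow (gadc γ ν) n (ρ' p.2))) =
      q' p.2 * (q p.1 * entropy (gadc γ ν (ρ p.1))) +
        q p.1 * (q' p.2 * entropy (tensorPow (gadc γ ν) n (ρ' p.2))) := by
    intro p
    rw [entropy_kr (gadc_psd h0 h1 h2 h3 (hρ _).1).1 (T_psd h0 h1 h2 h3 (hρ' _).1).1 (htr _)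
      (htr' _)]
    ring
  simp only [hE]
  rw [Finset.sum_add_distrib, Fintype.sum_prod_type, Fintype.sum_prod_type]
  have e1 : ∑ a, ∑ a', q' a' * (q a * entropy (gadc γ ν (ρ a))) =
      ∑ a, q a * entropy (gadc γ ν (ρ a)) := by
    refine Finset.sum_congr rfl fun a _ => ?_
    rw [← Finset.sum_mul, hq1', one_mul]
  have e2 : ∑ a : Fin k, ∑ a', q a * (q' a' * entropy (tensorPow (gadc γ ν) n (ρ' a'))) =
      ∑ a', q' a' * entropy (tensorPow (gadc γ ν) n (ρ' a')) := by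
    simp only [← Finset.mul_sum]
    rw [← Finset.sum_mul, hq1, one_mul]
  simp only [] at e1 e2 ⊢
  rw [e1, e2]
  ring

/-- The full statement. -/
theorem gadc_additivity (h0 : 0 ≤ γ) (h1 : γ ≤ 1) (h2 : 0 ≤ ν) (h3 : ν ≤ 1) :
    IsLUB (holevoSet (gadc γ ν)) (holevoCapacity (gadc γ ν)) ∧
    (∀ n : ℕ, IsLUB (holevoSet (tensorPow (gadc γ ν) n)) (n * holevoCapacity (gadc γ ν))) ∧
    (∀ n : ℕ, holevoCapacity (tensorPow (gadc γ ν) n) = n * holevoCapacity (gadc γ ν)) ∧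
    classicalCapacity (gadc γ ν) = holevoCapacity (gadc γ ν) := by
  have hne := holevoSet_nonempty_one (γ := γ) (ν := ν)
  have hbdd : BddAbove (holevoSet (gadc γ ν)) := ⟨1, fun x hx => holevo_le_one h0 h1 h2 h3 hx⟩
  have hlub : IsLUB (holevoSet (gadc γ ν)) (holevoCapacity (gadc γ ν)) := isLUB_csSup hne hbdd
  set χ := holevoCapacity (gadc γ ν) with hχ
  have hSS := ss_of_bound (γ := γ) (ν := ν) h0 h1 h2 h3 (fun x hx => hlub.1 hx)
  have hup : ∀ n : ℕ, ∀ x ∈ holevoSet (tensorPow (gadc γ ν) n), x ≤ n * χ :=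
    fun n x hx => holevo_le h0 h1 h2 h3 hSS n hx
  have hnonempty : ∀ n : ℕ, (holevoSet (tensorPow (gadc γ ν) n)).Nonempty := by
    intro n
    induction n with
    | zero => exact ⟨0, holevoSet_zero⟩
    | succ n ih =>
      obtain ⟨v', hv'⟩ := ih
      obtain ⟨v, hv⟩ := hne
      exact ⟨_, holevo_add_mem h0 h1 h2 h3 hv hv'⟩
  have hleast : ∀ n : ℕ, ∀ b : ℝ, (∀ x ∈ holevoSet (tensorPow (gadc γ ν) n), x ≤ b) →
      (n : ℝ) * χ ≤ b := by
    intro n
    induction n with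
    | zero =>
      intro b hb
      have := hb 0 holevoSet_zero
      simpa using this
    | succ n ih =>
      intro b hb
      have h4 : (n : ℝ) * χ ≤ b - χ := by
        apply ih
        intro v' hv'
        have h5 : χ ≤ b - v' := by
          apply hlub.2
          intro v hv
          have := hb _ (holevo_add_mem h0 h1 h2 h3 hv hv')
          linarith
        linarith
      push_cast
      linarith
  have hlubn : ∀ n : ℕ, IsLUB (holevoSet (tensorPow (gadc γ ν) n)) (n * χ) :=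
    fun n => ⟨fun x hx => hup n x hx, fun b hb => hleast n b hb⟩
  have hcap : ∀ n : ℕ, holevoCapacity (tensorPow (gadc γ ν) n) = n * χ :=
    fun n => (hlubn n).csSup_eq (hnonempty n)
  refine ⟨hlub, hlubn, hcap, ?_⟩
  unfold classicalCapacity
  have hset : {x | ∃ n : ℕ, 1 ≤ n ∧ x = holevoCapacity (tensorPow (gadc γ ν) n) / n} = {χ} := by
    ext x
    simp only [Set.mem_ofPred_eq, Set.mem_singleton_iff]
    constructor
    · rintro ⟨n, hn, rfl⟩
      rw [hcap]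
      have : (n : ℝ) ≠ 0 := by positivity
      field_simp
    · rintro rfl
      refine ⟨1, le_rfl, ?_⟩
      rw [hcap]
      simp
  rw [hset, csSup_singleton]

end

end Vale.Agent.Lib.P358
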