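import Mathlib

/-! Spectral basics for Hermitian complex matrices: quadratic forms, expansions in the eigenbasis,
the one-sided min-max lemma, sums over eigenvalues. -/

namespace Vale.Agent.Lib.P358

open Matrix
open scoped ComplexOrder

set_option linter.unusedSectionVars false

variable {ι : Type*} [Fintype ι] [DecidableEq ι]

/-- The real quadratic form `⟨v, H v⟩`. -/
noncomputable def qf (H : Matrix ι ι ℂ) (v : ι → ℂ) : ℝ := (star v ⬝ᵥ (H *ᵥ v)).re

/-- The squared Euclidean norm. -/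
noncomputable def nsq (v : ι → ℂ) : ℝ := (star v ⬝ᵥ v).re

lemma nsq_eq_sum (v : ι → ℂ) : nsq v = ∑ i, Complex.normSq (v i) := by
  simp [nsq, dotProduct, Complex.normSq_apply, Complex.mul_re]

lemma nsq_nonneg (v : ι → ℂ) : 0 ≤ nsq v := by
  rw [nsq_eq_sum]; exact Finset.sum_nonneg fun i _ => Complex.normSq_nonneg _

lemma nsq_pos {v : ι → ℂ} (hv : v ≠ 0) : 0 < nsq v := by
  rw [nsq_eq_sum]
  obtain ⟨i, hi⟩ := Function.ne_iff.mp hv
  refine Finset.sum_pos' (fun i _ => Complex.normSq_nonneg _) ⟨i, Finset.mem_univ _, ?_⟩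
  exact Complex.normSq_pos.mpr hi

/-- The unitary of eigenvectors, as a bare matrix. -/
noncomputable def eU {H : Matrix ι ι ℂ} (h : H.IsHermitian) : Matrix ι ι ℂ :=
  (h.eigenvectorUnitary : Matrix ι ι ℂ)

lemma eU_mul_star {H : Matrix ι ι ℂ} (h : H.IsHermitian) : eU h * (eU h)ᴴ = 1 := by
  have := Unitary.coe_mul_star_self h.eigenvectorUnitary
  simpa [eU, star_eq_conjTranspose] using this

lemma star_mul_eU {H : Matrix ι ι ℂ} (h : H.IsHermitian) : (eU h)ᴴ * eU h = 1 := by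
  have := Unitary.coe_star_mul_self h.eigenvectorUnitary
  simpa [eU, star_eq_conjTranspose] using this

/-- Spectral decomposition in bare matrix form. -/
lemma spectral_eq {H : Matrix ι ι ℂ} (h : H.IsHermitian) :
    H = eU h * diagonal (fun i => ((h.eigenvalues i : ℝ) : ℂ)) * (eU h)ᴴ := by
  have := h.spectral_theorem
  rw [Unitary.conjStarAlgAut_apply] at this
  simpa [eU, star_eq_conjTranspose, Function.comp_def] using this

lemma star_dot_mulVec_eq (M : Matrix ι ι ℂ) (U : Matrix ι ι ℂ) (z : ι → ℂ) :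
    star (U *ᵥ z) ⬝ᵥ (M *ᵥ (U *ᵥ z)) = star z ⬝ᵥ ((Uᴴ * M * U) *ᵥ z) := by
  rw [star_mulVec, ← dotProduct_mulVec]
  simp [mulVec_mulVec, Matrix.mul_assoc]

/-- Quadratic form in the eigenbasis coordinates. -/
lemma qf_eU_mulVec {H : Matrix ι ι ℂ} (h : H.IsHermitian) (z : ι → ℂ) :
    qf H (eU h *ᵥ z) = ∑ i, h.eigenvalues i * Complex.normSq (z i) := by
  have key : (eU h)ᴴ * H * eU h = diagonal (fun i => ((h.eigenvalues i : ℝ) : ℂ)) := by
    calc (eU h)ᴴ * H * eU h
        = (eU h)ᴴ * (eU h * diagonal (fun i => ((h.eigenvalues i : ℝ) : ℂ)) * (eU h)ᴴ) * eU h := by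
          rw [← spectral_eq h]
      _ = ((eU h)ᴴ * eU h) * diagonal (fun i => ((h.eigenvalues i : ℝ) : ℂ)) * ((eU h)ᴴ * eU h) := by
          simp only [Matrix.mul_assoc]
      _ = _ := by rw [star_mul_eU]; simp
  unfold qf
  rw [star_dot_mulVec_eq, key]
  simp [dotProduct, mulVec_diagonal, Complex.normSq_apply, Complex.mul_re]
  refine Finset.sum_congr rfl fun i _ => ?_
  ring

lemma nsq_eU_mulVec {H : Matrix ι ι ℂ} (h : H.IsHermitian) (z : ι → ℂ) :
    nsq (eU h *ᵥ z) = nsq z := by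
  unfold nsq
  rw [star_mulVec, ← dotProduct_mulVec]
  simp [mulVec_mulVec, star_mul_eU h]

/-- Every vector is `U` times its coordinates. -/
lemma eU_mulVec_coord {H : Matrix ι ι ℂ} (h : H.IsHermitian) (v : ι → ℂ) :
    eU h *ᵥ ((eU h)ᴴ *ᵥ v) = v := by
  rw [mulVec_mulVec, eU_mul_star, one_mulVec]

lemma qf_eq_sum {H : Matrix ι ι ℂ} (h : H.IsHermitian) (v : ι → ℂ) :
    qf H v = ∑ i, h.eigenvalues i * Complex.normSq (((eU h)ᴴ *ᵥ v) i) := by
  conv_lhs => rw [← eU_mulVec_coord h v]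
  exact qf_eU_mulVec h _

lemma nsq_coord {H : Matrix ι ι ℂ} (h : H.IsHermitian) (v : ι → ℂ) :
    ∑ i, Complex.normSq (((eU h)ᴴ *ᵥ v) i) = nsq v := by
  rw [← nsq_eq_sum]
  conv_rhs => rw [← eU_mulVec_coord h v]
  exact (nsq_eU_mulVec h _).symm


/-- Enumeration of the index set by sorted position, as used by `eigenvalues`. -/
noncomputable def sEq (ι : Type*) [Fintype ι] : Fin (Fintype.card ι) ≃ ι :=
  Fintype.equivOfCardEq (Fintype.card_fin _)

lemma eigenvalues_sEq {H : Matrix ι ι ℂ} (h : H.IsHermitian) (j : Fin (Fintype.card ι)) :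
    h.eigenvalues (sEq ι j) = h.eigenvalues₀ j := by
  simp [IsHermitian.eigenvalues, sEq]

lemma sum_eigenvalues_eq_sum₀ {H : Matrix ι ι ℂ} (h : H.IsHermitian) (F : ℝ → ℝ) :
    ∑ i, F (h.eigenvalues i) = ∑ j, F (h.eigenvalues₀ j) := by
  rw [← (sEq ι).sum_comp]
  exact Finset.sum_congr rfl fun j _ => by rw [eigenvalues_sEq]

/-- The one-sided min-max lemma: a lower bound for the quadratic form on a subspace of dimension
`j + 1` (the range of the left-invertible matrix `P`) is a lower bound for the `j`-th eigenvalue in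
decreasing order. -/
lemma le_eigenvalues₀_of_rect {H : Matrix ι ι ℂ} (h : H.IsHermitian) (j : Fin (Fintype.card ι))
    (P : Matrix ι (Fin (j.val + 1)) ℂ) (Q : Matrix (Fin (j.val + 1)) ι ℂ) (hQP : Q * P = 1) (κ : ℝ)
    (hκ : ∀ c : Fin (j.val + 1) → ℂ, κ * nsq (P *ᵥ c) ≤ qf H (P *ᵥ c)) :
    κ ≤ h.eigenvalues₀ j := by
  classical
  -- the linear constraints: vanishing of the first `j` sorted coordinates
  let M : Matrix (Fin j.val) (Fin (j.val + 1)) ℂ := Matrix.of fun k l =>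
    ((eU h)ᴴ * P) (sEq ι ⟨k.val, k.isLt.trans j.isLt⟩) l
  have hker : LinearMap.ker M.mulVecLin ≠ ⊥ := by
    apply LinearMap.ker_ne_bot_of_finrank_lt
    simp
  obtain ⟨c, hc, hc0⟩ := (Submodule.ne_bot_iff _).mp hker
  have hv : P *ᵥ c ≠ 0 := by
    intro h0
    apply hc0
    have : Q *ᵥ (P *ᵥ c) = c := by rw [mulVec_mulVec, hQP, one_mulVec]
    rw [← this, h0, mulVec_zero]
  set v := P *ᵥ c with hvdef
  set z := (eU h)ᴴ *ᵥ v with hz
  have hzk : ∀ k : Fin (Fintype.card ι), k < j → z (sEq ι k) = 0 := by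
    intro k hk
    have h1 : M *ᵥ c = 0 := by simpa using hc
    have h2 := congrFun h1 ⟨k.val, hk⟩
    have h3 : (M *ᵥ c) ⟨k.val, hk⟩ = z (sEq ι k) := by
      simp only [M, hz, hvdef, mulVec_mulVec]
      rfl
    rw [← h3, h2]; rfl
  have hq : qf H v ≤ h.eigenvalues₀ j * nsq v := by
    rw [qf_eq_sum h, ← nsq_coord h v, Finset.mul_sum, ← (sEq ι).sum_comp, ← (sEq ι).sum_comp]
    refine Finset.sum_le_sum fun k _ => ?_
    rw [eigenvalues_sEq]
    rcases lt_or_ge k j with hk | hk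
    · have hz' : ((eU h)ᴴ *ᵥ v) (sEq ι k) = 0 := hzk k hk
      rw [hz']; simp
    · exact mul_le_mul_of_nonneg_right (h.eigenvalues₀_antitone hk) (Complex.normSq_nonneg _)
  have hpos : 0 < nsq v := nsq_pos hv
  have := (hκ c).trans hq
  exact le_of_mul_le_mul_right this hpos

/-- The rectangular matrix of the top `j + 1` eigenvectors. -/
noncomputable def topRect {H : Matrix ι ι ℂ} (h : H.IsHermitian) (j : Fin (Fintype.card ι)) :
    Matrix ι (Fin (j.val + 1)) ℂ :=
  Matrix.of fun x l => eU h x (sEq ι ⟨l.val, by have := l.isLt; have := j.isLt; omega⟩)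

lemma topRect_left_inv {H : Matrix ι ι ℂ} (h : H.IsHermitian) (j : Fin (Fintype.card ι)) :
    (topRect h j)ᴴ * topRect h j = 1 := by
  ext l l'
  have h1 := congrFun (congrFun (star_mul_eU h) (sEq ι ⟨l.val, by have := l.isLt; have := j.isLt; omega⟩))
    (sEq ι ⟨l'.val, by have := l'.isLt; have := j.isLt; omega⟩)
  simp only [Matrix.mul_apply, conjTranspose_apply] at h1
  simp only [Matrix.mul_apply, conjTranspose_apply, topRect, Matrix.of_apply]
  rw [h1, Matrix.one_apply, Matrix.one_apply]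
  by_cases hll : l = l'
  · simp [hll]
  · have : sEq ι ⟨l.val, by have := l.isLt; have := j.isLt; omega⟩ ≠ sEq ι ⟨l'.val, by have := l'.isLt; have := j.isLt; omega⟩ := by
      intro h2
      apply hll
      have := (sEq ι).injective h2
      simpa [Fin.ext_iff] using this
    simp [hll, this]

/-- On the span of the top `j + 1` eigenvectors the form is at least the `j`-th eigenvalue. -/
lemma qf_topRect_ge {H : Matrix ι ι ℂ} (h : H.IsHermitian) (j : Fin (Fintype.card ι))
    (c : Fin (j.val + 1) → ℂ) :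
    h.eigenvalues₀ j * nsq (topRect h j *ᵥ c) ≤ qf H (topRect h j *ᵥ c) := by
  classical
  have hjl : ∀ l : Fin (j.val + 1), l.val < Fintype.card ι := fun l => by
    have := l.isLt; have := j.isLt; omega
  -- coordinates
  let z : ι → ℂ := fun i =>
    if hi : ((sEq ι).symm i).val < j.val + 1 then c ⟨((sEq ι).symm i).val, hi⟩ else 0
  have hv : topRect h j *ᵥ c = eU h *ᵥ z := by
    ext x
    simp only [mulVec, dotProduct, topRect, Matrix.of_apply]
    rw [← (sEq ι).sum_comp (fun i => eU h x i * z i)]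
    have hz : ∀ k : Fin (Fintype.card ι), z (sEq ι k) =
        if hk : k.val < j.val + 1 then c ⟨k.val, hk⟩ else 0 := by
      intro k; simp [z]
    simp only [hz]
    -- split the sum over `Fin card` according to position
    symm
    calc ∑ k : Fin (Fintype.card ι), eU h x (sEq ι k) * (if hk : k.val < j.val + 1 then c ⟨k.val, hk⟩ else 0)
        = ∑ k ∈ Finset.univ.filter (fun k : Fin (Fintype.card ι) => k.val < j.val + 1),
            eU h x (sEq ι k) * (if hk : k.val < j.val + 1 then c ⟨k.val, hk⟩ else 0) := by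
          rw [Finset.sum_filter]
          refine Finset.sum_congr rfl fun k _ => ?_
          by_cases hk : k.val < j.val + 1 <;> simp [hk]
      _ = ∑ l : Fin (j.val + 1), eU h x (sEq ι ⟨l.val, hjl l⟩) * c l := by
          refine Finset.sum_bij (fun k hk => ⟨k.val, (Finset.mem_filter.mp hk).2⟩) ?_ ?_ ?_ ?_
          · intro k hk; simp
          · intro a ha b hb hab
            simpa [Fin.ext_iff] using hab
          · intro l _
            exact ⟨⟨l.val, hjl l⟩, Finset.mem_filter.mpr ⟨Finset.mem_univ _, l.isLt⟩, rfl⟩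
          · intro k hk
            have := (Finset.mem_filter.mp hk).2
            simp [this]
  rw [hv, qf_eU_mulVec h, nsq_eU_mulVec h, nsq_eq_sum, Finset.mul_sum, ← (sEq ι).sum_comp,
    ← (sEq ι).sum_comp]
  refine Finset.sum_le_sum fun k _ => ?_
  rw [eigenvalues_sEq]
  by_cases hk : k.val < j.val + 1
  · have : k ≤ j := by
      rw [Fin.le_iff_val_le_val]; omega
    exact mul_le_mul_of_nonneg_right (h.eigenvalues₀_antitone this) (Complex.normSq_nonneg _)
  · have : z (sEq ι k) = 0 := by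
      simp only [z, Equiv.symm_apply_apply]; exact dif_neg hk
    rw [this]; simp

/-- Monotonicity of sorted eigenvalues. -/
lemma eigenvalues₀_mono {H H' : Matrix ι ι ℂ} (h : H.IsHermitian) (h' : H'.IsHermitian)
    (hle : ∀ v, qf H v ≤ qf H' v) (j : Fin (Fintype.card ι)) :
    h.eigenvalues₀ j ≤ h'.eigenvalues₀ j :=
  le_eigenvalues₀_of_rect h' j (topRect h j) (topRect h j)ᴴ (topRect_left_inv h j) _
    (fun c => (qf_topRect_ge h j c).trans (hle _))


/-- Sum of `F` over the eigenvalues with multiplicity (roots of the characteristic polynomial). -/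
noncomputable def sumEig {m : Type*} [Fintype m] [DecidableEq m] (F : ℝ → ℝ) (M : Matrix m m ℂ) : ℝ :=
  (M.charpoly.roots.map fun z => F z.re).sum

lemma sumEig_eq {H : Matrix ι ι ℂ} (h : H.IsHermitian) (F : ℝ → ℝ) :
    sumEig F H = ∑ i, F (h.eigenvalues i) := by
  unfold sumEig
  rw [h.roots_charpoly_eq_eigenvalues, Multiset.map_map]
  simp

lemma sumEig_eq₀ {H : Matrix ι ι ℂ} (h : H.IsHermitian) (F : ℝ → ℝ) :
    sumEig F H = ∑ j, F (h.eigenvalues₀ j) := by
  rw [sumEig_eq h, sum_eigenvalues_eq_sum₀]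

lemma det_unitary_conj (U D : Matrix ι ι ℂ) (hU : Uᴴ * U = 1) : (U * D * Uᴴ).det = D.det := by
  rw [Matrix.det_mul_comm (U * D) Uᴴ, ← Matrix.mul_assoc, hU, Matrix.one_mul]

/-- Determinant of a real shift of a multiple of a Hermitian matrix. -/
lemma det_shift {H : Matrix ι ι ℂ} (h : H.IsHermitian) (a b : ℝ) :
    (a • (1 : Matrix ι ι ℂ) + b • H).det = ((∏ i, (a + b * h.eigenvalues i) : ℝ) : ℂ) := by
  have key : a • (1 : Matrix ι ι ℂ) + b • H =
      eU h * diagonal (fun i => (((a + b * h.eigenvalues i : ℝ)) : ℂ)) * (eU h)ᴴ := by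
    have h1 : diagonal (fun i => (((a + b * h.eigenvalues i : ℝ)) : ℂ)) =
        a • (1 : Matrix ι ι ℂ) + b • diagonal (fun i => ((h.eigenvalues i : ℝ) : ℂ)) := by
      ext i j
      by_cases hij : i = j
      · subst hij; simp
      · simp [hij]
    rw [h1, Matrix.mul_add, Matrix.add_mul, Matrix.mul_smul, Matrix.smul_mul, Matrix.mul_one,
      eU_mul_star, Matrix.mul_smul, Matrix.smul_mul, ← spectral_eq h]
  rw [key, det_unitary_conj _ _ (star_mul_eU h), det_diagonal]
  push_cast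
  rfl

lemma qf_conj (B A : Matrix ι ι ℂ) (v : ι → ℂ) : qf (Bᴴ * A * B) v = qf A (B *ᵥ v) := by
  unfold qf
  rw [star_dot_mulVec_eq]

lemma qf_add (A B : Matrix ι ι ℂ) (v : ι → ℂ) : qf (A + B) v = qf A v + qf B v := by
  simp [qf, add_mulVec, dotProduct_add]

lemma qf_sub (A B : Matrix ι ι ℂ) (v : ι → ℂ) : qf (A - B) v = qf A v - qf B v := by
  simp [qf, sub_mulVec, dotProduct_sub]

lemma qf_smul (r : ℝ) (A : Matrix ι ι ℂ) (v : ι → ℂ) : qf (r • A) v = r * qf A v := by
  simp [qf, smul_mulVec, dotProduct_smul]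

lemma qf_one (v : ι → ℂ) : qf (1 : Matrix ι ι ℂ) v = nsq v := by
  simp [qf, nsq]

lemma qf_zero (v : ι → ℂ) : qf (0 : Matrix ι ι ℂ) v = 0 := by
  simp [qf]

lemma qf_nonneg {A : Matrix ι ι ℂ} (hA : A.PosSemidef) (v : ι → ℂ) : 0 ≤ qf A v :=
  hA.re_dotProduct_nonneg v

lemma posSemidef_smul {A : Matrix ι ι ℂ} (hA : A.PosSemidef) {r : ℝ} (hr : 0 ≤ r) :
    (r • A).PosSemidef := hA.smul hr

lemma isHermitian_smul {A : Matrix ι ι ℂ} (hA : A.IsHermitian) (r : ℝ) :
    (r • A).IsHermitian := by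
  simp [IsHermitian, conjTranspose_smul, hA.eq]

/-- Positive definiteness of a strictly positive shift of a positive semidefinite matrix. -/
lemma posDef_shift {A : Matrix ι ι ℂ} (hA : A.PosSemidef) {s : ℝ} (hs : 0 < s) :
    (s • (1 : Matrix ι ι ℂ) + A).PosDef := by
  have h1 : (s • (1 : Matrix ι ι ℂ)).PosDef := by
    rw [show s • (1 : Matrix ι ι ℂ) = diagonal (fun _ => (s : ℂ)) by
      ext i j; by_cases hij : i = j <;> simp [hij]]
    refine PosDef.diagonal fun i => ?_
    exact_mod_cast hs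
  exact h1.add_posSemidef hA

lemma qf_eigenvector {H : Matrix ι ι ℂ} (h : H.IsHermitian) (i : ι) :
    qf H (fun x => eU h x i) = h.eigenvalues i := by
  have := h.eigenvalues_eq i
  simpa [qf, eU] using this.symm

lemma eigenvalues_le_of_qf {H : Matrix ι ι ℂ} (h : H.IsHermitian) {b : ℝ}
    (hb : ∀ v, qf H v ≤ b * nsq v) (i : ι) : h.eigenvalues i ≤ b := by
  have h1 := hb (eU h *ᵥ Pi.single i 1)
  rw [qf_eU_mulVec h, nsq_eU_mulVec h, nsq_eq_sum] at h1
  simpa [Pi.single_apply, apply_ite Complex.normSq] using h1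

lemma le_eigenvalues_of_qf {H : Matrix ι ι ℂ} (h : H.IsHermitian) {b : ℝ}
    (hb : ∀ v, b * nsq v ≤ qf H v) (i : ι) : b ≤ h.eigenvalues i := by
  have h1 := hb (eU h *ᵥ Pi.single i 1)
  rw [qf_eU_mulVec h, nsq_eU_mulVec h, nsq_eq_sum] at h1
  simpa [Pi.single_apply, apply_ite Complex.normSq] using h1

lemma trace_re_eq_sum {H : Matrix ι ι ℂ} (h : H.IsHermitian) :
    H.trace.re = ∑ i, h.eigenvalues i := by
  have := h.trace_eq_sum_eigenvalues
  rw [this]; simp

lemma trace_re_eq_sum₀ {H : Matrix ι ι ℂ} (h : H.IsHermitian) :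
    H.trace.re = ∑ j, h.eigenvalues₀ j := by
  rw [trace_re_eq_sum h, ← (sEq ι).sum_comp]
  exact Finset.sum_congr rfl fun j _ => eigenvalues_sEq h j

/-- For a positive semidefinite matrix the form is bounded by trace times norm. -/
lemma qf_le_trace {A : Matrix ι ι ℂ} (hA : A.PosSemidef) (v : ι → ℂ) :
    qf A v ≤ A.trace.re * nsq v := by
  rw [qf_eq_sum hA.1, trace_re_eq_sum hA.1, ← nsq_coord hA.1 v, Finset.mul_sum]
  refine Finset.sum_le_sum fun i _ => ?_
  apply mul_le_mul_of_nonneg_right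
  · exact Finset.single_le_sum (f := hA.1.eigenvalues)
      (fun j _ => hA.eigenvalues_nonneg j) (Finset.mem_univ i)
  · exact Complex.normSq_nonneg _

/-- Inverse square root, built from the spectral decomposition. -/
noncomputable def invRoot {M : Matrix ι ι ℂ} (h : M.IsHermitian) : Matrix ι ι ℂ :=
  eU h * diagonal (fun i => (((Real.sqrt (h.eigenvalues i))⁻¹ : ℝ) : ℂ)) * (eU h)ᴴ

/-- Square root, built from the spectral decomposition. -/
noncomputable def sqRoot {M : Matrix ι ι ℂ} (h : M.IsHermitian) : Matrix ι ι ℂ :=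
  eU h * diagonal (fun i => ((Real.sqrt (h.eigenvalues i) : ℝ) : ℂ)) * (eU h)ᴴ

lemma conj_diag_mul {M : Matrix ι ι ℂ} (h : M.IsHermitian) (d d' : ι → ℂ) :
    (eU h * diagonal d * (eU h)ᴴ) * (eU h * diagonal d' * (eU h)ᴴ) =
      eU h * diagonal (fun i => d i * d' i) * (eU h)ᴴ := by
  calc (eU h * diagonal d * (eU h)ᴴ) * (eU h * diagonal d' * (eU h)ᴴ)
      = eU h * diagonal d * ((eU h)ᴴ * eU h) * diagonal d' * (eU h)ᴴ := by
        simp only [Matrix.mul_assoc]
    _ = _ := by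
        rw [star_mul_eU, Matrix.mul_one, Matrix.mul_assoc (eU h), diagonal_mul_diagonal]

lemma conj_diag_herm {M : Matrix ι ι ℂ} (h : M.IsHermitian) (d : ι → ℝ) :
    (eU h * diagonal (fun i => ((d i : ℝ) : ℂ)) * (eU h)ᴴ)ᴴ =
      eU h * diagonal (fun i => ((d i : ℝ) : ℂ)) * (eU h)ᴴ := by
  simp [conjTranspose_mul, diagonal_conjTranspose, Matrix.mul_assoc, Pi.star_def]

lemma invRoot_herm {M : Matrix ι ι ℂ} (h : M.IsHermitian) : (invRoot h)ᴴ = invRoot h :=
  conj_diag_herm h _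

lemma sqRoot_herm {M : Matrix ι ι ℂ} (h : M.IsHermitian) : (sqRoot h)ᴴ = sqRoot h :=
  conj_diag_herm h _

lemma conj_diag_one {M : Matrix ι ι ℂ} (h : M.IsHermitian) {d : ι → ℂ} (hd : ∀ i, d i = 1) :
    eU h * diagonal d * (eU h)ᴴ = 1 := by
  have : d = fun _ => 1 := funext hd
  rw [this, diagonal_one, Matrix.mul_one, eU_mul_star]

lemma invRoot_mul_sqRoot {M : Matrix ι ι ℂ} (hM : M.PosDef) :
    invRoot hM.1 * sqRoot hM.1 = 1 := by
  unfold invRoot sqRoot
  rw [conj_diag_mul]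
  refine conj_diag_one _ fun i => ?_
  have : Real.sqrt (hM.1.eigenvalues i) ≠ 0 := (Real.sqrt_pos.mpr (hM.eigenvalues_pos i)).ne'
  rw [← Complex.ofReal_mul, inv_mul_cancel₀ this]; simp

lemma sqRoot_mul_invRoot {M : Matrix ι ι ℂ} (hM : M.PosDef) :
    sqRoot hM.1 * invRoot hM.1 = 1 :=
  mul_eq_one_comm.mp (invRoot_mul_sqRoot hM)

lemma sqRoot_mul_self {M : Matrix ι ι ℂ} (hM : M.PosDef) :
    sqRoot hM.1 * sqRoot hM.1 = M := by
  conv_rhs => rw [spectral_eq hM.1]
  unfold sqRoot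
  rw [conj_diag_mul]
  congr 2
  ext i j
  by_cases hij : i = j
  · subst hij
    simp only [diagonal_apply_eq]
    rw [← Complex.ofReal_mul, Real.mul_self_sqrt (hM.eigenvalues_pos i).le]
  · simp [diagonal_apply_ne _ hij]

/-- `R M R = 1` for `R` the inverse square root of `M`. -/
lemma invRoot_conj {M : Matrix ι ι ℂ} (hM : M.PosDef) :
    invRoot hM.1 * M * invRoot hM.1 = 1 := by
  calc invRoot hM.1 * M * invRoot hM.1
      = invRoot hM.1 * (sqRoot hM.1 * sqRoot hM.1) * invRoot hM.1 := by rw [sqRoot_mul_self hM]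
    _ = (invRoot hM.1 * sqRoot hM.1) * (sqRoot hM.1 * invRoot hM.1) := by
        simp only [Matrix.mul_assoc]
    _ = 1 := by rw [invRoot_mul_sqRoot hM, sqRoot_mul_invRoot hM, Matrix.one_mul]

end Vale.Agent.Lib.P358
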