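import Vale.Agent.Lib.P358.Potentials

/-! The entropy inequality in terms of the functional `En`. -/

namespace Vale.Agent.Lib.P358

open Matrix Set
open scoped ComplexOrder

set_option linter.unusedSectionVars false

variable {ι : Type*} [Fintype ι] [DecidableEq ι]

/-- Entropy functional for positive matrices, homogeneous of degree one, in nats. -/
noncomputable def En {m : Type*} [Fintype m] [DecidableEq m] (M : Matrix m m ℂ) : ℝ :=
  phi M.trace.re - sumEig phi M

lemma phi_zero : phi 0 = 0 := by simp [phi]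

lemma phi_mul {x y : ℝ} : phi (x * y) = x * phi y + y * phi x := by
  unfold phi
  by_cases hx : x = 0
  · simp [hx]
  by_cases hy : y = 0
  · simp [hy]
  rw [Real.log_mul hx hy]
  ring

lemma sumEig_reindex {m n : Type*} [Fintype m] [DecidableEq m] [Fintype n] [DecidableEq n]
    (e : m ≃ n) (F : ℝ → ℝ) (M : Matrix m m ℂ) :
    sumEig F (reindex e e M) = sumEig F M := by
  unfold sumEig
  rw [Matrix.charpoly_reindex]

lemma sumEig_diagonal (d : ι → ℝ) (F : ℝ → ℝ) :
    sumEig F (diagonal fun i => (d i : ℂ)) = ∑ i, F (d i) := by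
  unfold sumEig
  rw [Matrix.charpoly_diagonal]
  have h : (∏ i, (Polynomial.X - Polynomial.C ((d i : ℝ) : ℂ))) =
      ((Finset.univ.val.map fun i => ((d i : ℝ) : ℂ)).map
        fun a => Polynomial.X - Polynomial.C a).prod := by
    rw [Multiset.map_map]
    rfl
  rw [h, Polynomial.roots_multiset_prod_X_sub_C, Multiset.map_map]
  simp

lemma sumEig_conj {U : Matrix ι ι ℂ} (hU : U * Uᴴ = 1) (F : ℝ → ℝ) (M : Matrix ι ι ℂ) :
    sumEig F (U * M * Uᴴ) = sumEig F M := by
  unfold sumEig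
  have hU' : Uᴴ * U = 1 := mul_eq_one_comm.mp hU
  have := Matrix.charpoly_units_conj (⟨U, Uᴴ, hU, hU'⟩ : (Matrix ι ι ℂ)ˣ) M
  simp only at this
  have hinv : U⁻¹ = Uᴴ := Matrix.inv_eq_right_inv hU
  rw [hinv] at this
  rw [this]

/-- Scaling the eigenvalues. -/
lemma sumEig_smul {M : Matrix ι ι ℂ} (h : M.IsHermitian) (t : ℝ) (F : ℝ → ℝ) :
    sumEig F (t • M) = ∑ i, F (t * h.eigenvalues i) := by
  have key : t • M = eU h * diagonal (fun i => (((t * h.eigenvalues i : ℝ)) : ℂ)) * (eU h)ᴴ := by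
    have h1 : diagonal (fun i => (((t * h.eigenvalues i : ℝ)) : ℂ)) =
        t • diagonal (fun i => ((h.eigenvalues i : ℝ) : ℂ)) := by
      ext i j
      by_cases hij : i = j
      · subst hij
        simp
      · simp [hij]
    rw [h1, Matrix.mul_smul, Matrix.smul_mul, ← spectral_eq h]
  rw [key, sumEig_conj (eU_mul_star h), sumEig_diagonal]

lemma sumEig_phi_smul {M : Matrix ι ι ℂ} (h : M.IsHermitian) (t : ℝ) :
    sumEig phi (t • M) = t * sumEig phi M + phi t * M.trace.re := by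
  rw [sumEig_smul h, sumEig_eq h, trace_re_eq_sum h, Finset.mul_sum, Finset.mul_sum,
    ← Finset.sum_add_distrib]
  refine Finset.sum_congr rfl fun i _ => ?_
  rw [phi_mul]
  ring

lemma trace_re_smul (t : ℝ) (M : Matrix ι ι ℂ) : (t • M).trace.re = t * M.trace.re := by
  simp [Matrix.trace_smul]

lemma En_smul {M : Matrix ι ι ℂ} (h : M.IsHermitian) (t : ℝ) :
    En (t • M) = t * En M := by
  unfold En
  rw [sumEig_phi_smul h, trace_re_smul, phi_mul]
  ring

/-- The scalar block matrix. -/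
noncomputable def blk (w00 w01 w10 w11 c q0 q1 : ℝ) : Matrix (Fin 2) (Fin 2) ℂ :=
  !![((w00 * q0 + w01 * q1 : ℝ) : ℂ), ((c * Real.sqrt (q0 * q1) : ℝ) : ℂ);
     ((c * Real.sqrt (q0 * q1) : ℝ) : ℂ), ((w11 * q1 + w10 * q0 : ℝ) : ℂ)]

lemma blk_charpoly (w00 w01 w10 w11 c q0 q1 : ℝ) {y1 y2 : ℝ} (hq0 : 0 ≤ q0) (hq1 : 0 ≤ q1)
    (hs : y1 + y2 = (w00 * q0 + w01 * q1) + (w11 * q1 + w10 * q0))
    (hd : y1 * y2 = (w00 * q0 + w01 * q1) * (w11 * q1 + w10 * q0) - c ^ 2 * (q0 * q1)) :
    (blk w00 w01 w10 w11 c q0 q1).charpoly =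
      (Polynomial.X - Polynomial.C (y1 : ℂ)) * (Polynomial.X - Polynomial.C (y2 : ℂ)) := by
  rw [Matrix.charpoly_fin_two]
  have htr : (blk w00 w01 w10 w11 c q0 q1).trace = ((y1 + y2 : ℝ) : ℂ) := by
    rw [hs]
    simp [blk, Matrix.trace_fin_two]
  have hdet : (blk w00 w01 w10 w11 c q0 q1).det = ((y1 * y2 : ℝ) : ℂ) := by
    rw [hd]
    have hsq : (c * Real.sqrt (q0 * q1)) * (c * Real.sqrt (q0 * q1)) = c ^ 2 * (q0 * q1) := by
      have := Real.mul_self_sqrt (mul_nonneg hq0 hq1)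
      nlinarith
    have : (blk w00 w01 w10 w11 c q0 q1).det =
        (((w00 * q0 + w01 * q1) * (w11 * q1 + w10 * q0) -
          (c * Real.sqrt (q0 * q1)) * (c * Real.sqrt (q0 * q1)) : ℝ) : ℂ) := by
      simp [blk, Matrix.det_fin_two]
    rw [this, hsq]
  rw [htr, hdet]
  simp only [Complex.ofReal_add, Complex.ofReal_mul, map_add, map_mul]
  ring

lemma blk_sumEig (w00 w01 w10 w11 c q0 q1 : ℝ) {y1 y2 : ℝ} (hq0 : 0 ≤ q0) (hq1 : 0 ≤ q1)
    (hs : y1 + y2 = (w00 * q0 + w01 * q1) + (w11 * q1 + w10 * q0))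
    (hd : y1 * y2 = (w00 * q0 + w01 * q1) * (w11 * q1 + w10 * q0) - c ^ 2 * (q0 * q1))
    (F : ℝ → ℝ) : sumEig F (blk w00 w01 w10 w11 c q0 q1) = F y1 + F y2 := by
  unfold sumEig
  rw [blk_charpoly w00 w01 w10 w11 c q0 q1 hq0 hq1 hs hd, Polynomial.roots_mul, 
    Polynomial.roots_X_sub_C, Polynomial.roots_X_sub_C]
  · simp
  · exact mul_ne_zero (Polynomial.X_sub_C_ne_zero _) (Polynomial.X_sub_C_ne_zero _)

lemma blk_trace (w00 w01 w10 w11 c q0 q1 : ℝ) :
    (blk w00 w01 w10 w11 c q0 q1).trace.re = (w00 * q0 + w01 * q1) + (w11 * q1 + w10 * q0) := by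
  simp [blk, Matrix.trace_fin_two]

/-- Roots and mixing parameter for the curve. -/
lemma curve_data {p r E : ℝ} (hE : 0 < E) (hEpr : E ≤ p * r) (hp : 0 ≤ p) (hr : 0 ≤ r) :
    ∃ y1 y2 l : ℝ, 0 ≤ y1 ∧ 0 ≤ y2 ∧ 0 ≤ l ∧ l ≤ 1 ∧ l * y1 + (1 - l) * y2 = p ∧
      (1 - l) * y1 + l * y2 = r ∧ y1 * y2 = p * r - E := by
  set D := (p - r) ^ 2 + 4 * E with hD
  have hDpos : 0 < D := by positivity
  set w := Real.sqrt D with hw
  have hw0 : 0 < w := Real.sqrt_pos.mpr hDpos
  have hw2 : w * w = D := Real.mul_self_sqrt hDpos.le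
  have habs : |p - r| ≤ w := by
    apply Real.abs_le_sqrt
    rw [hD]
    linarith
  have h1 := abs_le.mp habs
  have hdet : ((p + r + w) / 2) * ((p + r - w) / 2) = p * r - E := by
    have : ((p + r + w) / 2) * ((p + r - w) / 2) = ((p + r) ^ 2 - w * w) / 4 := by ring
    rw [this, hw2, hD]
    ring
  have hy1 : 0 ≤ (p + r + w) / 2 := by linarith
  have hy2 : 0 ≤ (p + r - w) / 2 := by
    by_contra hneg
    push Not at hneg
    have hy1p : 0 < (p + r + w) / 2 := by linarith
    have : ((p + r + w) / 2) * ((p + r - w) / 2) < 0 := mul_neg_of_pos_of_neg hy1p hneg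
    rw [hdet] at this
    linarith
  refine ⟨(p + r + w) / 2, (p + r - w) / 2, (p - r + w) / (2 * w), hy1, hy2, ?_, ?_, ?_, ?_, hdet⟩
  · apply div_nonneg <;> linarith
  · rw [div_le_one (by positivity)]
    linarith [h1.1]
  · field_simp
    nlinarith
  · field_simp
    nlinarith

section
variable {A B X : Matrix ι ι ℂ} {w00 w01 w10 w11 c : ℝ}

lemma X_eq_zero_of_trace {A B X : Matrix ι ι ℂ} (hQ : (fromBlocks A X Xᴴ B).PosSemidef)
    (h : A.trace.re = 0 ∨ B.trace.re = 0) : X = 0 := by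
  have hA := posSemidef_block_left hQ
  have hB := posSemidef_block_right hQ
  have key : ∀ u v, Complex.normSq (star u ⬝ᵥ X *ᵥ v) ≤ qf A u * qf B v := block_cs hQ
  have hz : ∀ u v, star u ⬝ᵥ X *ᵥ v = 0 := by
    intro u v
    have h1 := key u v
    have hq : qf A u * qf B v = 0 := by
      rcases h with h | h
      · have h3 := qf_le_trace hA u
        have h0 := qf_nonneg hA u
        have h2 : qf A u = 0 := by
          rw [h, zero_mul] at h3
          exact le_antisymm h3 h0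
        rw [h2, zero_mul]
      · have h3 := qf_le_trace hB v
        have h0 := qf_nonneg hB v
        have h2 : qf B v = 0 := by
          rw [h, zero_mul] at h3
          exact le_antisymm h3 h0
        rw [h2, mul_zero]
    rw [hq] at h1
    exact Complex.normSq_eq_zero.mp (le_antisymm h1 (Complex.normSq_nonneg _))
  ext i j
  have := hz (Pi.single i 1) (Pi.single j 1)
  simpa [Matrix.mulVec_single, dotProduct, Pi.single_apply] using this

lemma trace_fromBlocks_aux (A B C D : Matrix ι ι ℂ) :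
    (fromBlocks A B C D).trace = A.trace + D.trace := by
  simp [Matrix.trace, Fintype.sum_sum_type]

/-- The inequality for an abstract package. -/
theorem star_of_potentials {c θ : ℝ} {Λ1 Λ2 g0 g1 : ℝ → ℝ} (hQ : (fromBlocks A X Xᴴ B).PosSemidef)
    (h00 : 0 ≤ w00) (h01 : 0 ≤ w01) (h10 : 0 ≤ w10) (h11 : 0 ≤ w11)
    (hr0 : w00 + w10 = 1) (hr1 : w01 + w11 = 1) (hcw : c ^ 2 ≤ w00 * w11)
    (hcθ : c ^ 2 ≤ θ * (w00 * w11)) (hθ1 : θ ≤ 1) (P : Potentials θ Λ1 Λ2 g0 g1)
    {y1 y2 : ℝ} (hy1 : 0 ≤ y1) (hy2 : 0 ≤ y2)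
    (hs : y1 + y2 = (w00 * A.trace.re + w01 * B.trace.re) + (w11 * B.trace.re + w10 * A.trace.re))
    (hS : ∀ s, 0 < s → ellF y1 s + ellF y2 s =
      ellF (w01 • B).trace.re s + ellF (w10 • A).trace.re s +
        Lfun g0 ((w00 • A).trace.re / (s + (w01 • B).trace.re)) +
        Lfun g1 ((w11 • B).trace.re / (s + (w10 • A).trace.re))) :
    En A + En B + (phi (y1 + y2) - phi y1 - phi y2) ≤ En (outY w00 w01 w10 w11 c A B X) := by
  have hA := posSemidef_block_left hQ
  have hB := posSemidef_block_right hQ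
  have hY := outY_herm w00 w01 w10 w11 c hA.1 hB.1 X
  have hA0 : (w00 • A).PosSemidef := posSemidef_smul hA h00
  have hB0 : (w01 • B).PosSemidef := posSemidef_smul hB h01
  have hA1 : (w11 • B).PosSemidef := posSemidef_smul hB h11
  have hB1 : (w10 • A).PosSemidef := posSemidef_smul hA h10
  have hYtr : (outY w00 w01 w10 w11 c A B X).trace.re = y1 + y2 := by
    rw [hs]
    unfold outY
    rw [trace_fromBlocks_aux, Complex.add_re, Matrix.trace_add, Matrix.trace_add,
      Complex.add_re, Complex.add_re, trace_re_smul, trace_re_smul, trace_re_smul, trace_re_smul]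
  have htr : y1 + y2 = ∑ i, hY.eigenvalues i := by
    rw [← hYtr, trace_re_eq_sum hY]
  have main := star_abstract hQ h00 h01 h10 h11 hcw hcθ hθ1 P hY hA0 hB0 hA1 hB1 hy1 hy2 htr hS
  rw [← sumEig_eq hY phi, ← sumEig_eq hB0.1 phi, ← sumEig_eq hB1.1 phi, ← sumEig_eq₀ hA0.1 phi,
    ← sumEig_eq₀ hA1.1 phi, sumEig_phi_smul hB.1, sumEig_phi_smul hA.1, sumEig_phi_smul hA.1,
    sumEig_phi_smul hB.1, trace_re_smul, trace_re_smul, trace_re_smul, trace_re_smul,
    phi_mul, phi_mul, phi_mul, phi_mul] at main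
  unfold En
  rw [hYtr]
  set sA := sumEig phi A
  set sB := sumEig phi B
  have e1 : (w00 + w10) * (sA - phi A.trace.re) = sA - phi A.trace.re := by rw [hr0, one_mul]
  have e2 : (w01 + w11) * (sB - phi B.trace.re) = sB - phi B.trace.re := by rw [hr1, one_mul]
  nlinarith

/-- The main inequality. -/
theorem star_ineq (hQ : (fromBlocks A X Xᴴ B).PosSemidef)
    (h00 : 0 ≤ w00) (h01 : 0 ≤ w01) (h10 : 0 ≤ w10) (h11 : 0 ≤ w11)
    (hr0 : w00 + w10 = 1) (hr1 : w01 + w11 = 1) (hcw : c ^ 2 ≤ w00 * w11) :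
    En A + En B + En (blk w00 w01 w10 w11 c A.trace.re B.trace.re) ≤
      En (outY w00 w01 w10 w11 c A B X) := by
  have hA := posSemidef_block_left hQ
  have hB := posSemidef_block_right hQ
  have hq0 := trace_re_nonneg hA
  have hq1 := trace_re_nonneg hB
  have ta0 : (w00 • A).trace.re = w00 * A.trace.re := trace_re_smul _ _
  have tb0 : (w01 • B).trace.re = w01 * B.trace.re := trace_re_smul _ _
  have ta1 : (w10 • A).trace.re = w10 * A.trace.re := trace_re_smul _ _
  have tb1 : (w11 • B).trace.re = w11 * B.trace.re := trace_re_smul _ _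
  have hblk : ∀ {y1 y2 : ℝ},
      y1 + y2 = (w00 * A.trace.re + w01 * B.trace.re) + (w11 * B.trace.re + w10 * A.trace.re) →
      y1 * y2 = (w00 * A.trace.re + w01 * B.trace.re) * (w11 * B.trace.re + w10 * A.trace.re) -
        c ^ 2 * (A.trace.re * B.trace.re) →
      En (blk w00 w01 w10 w11 c A.trace.re B.trace.re) = phi (y1 + y2) - phi y1 - phi y2 := by
    intro y1 y2 hs hd
    unfold En
    rw [blk_sumEig w00 w01 w10 w11 c _ _ hq0 hq1 hs hd, blk_trace, hs]
    ring
  by_cases hdeg : c = 0 ∨ A.trace.re = 0 ∨ B.trace.re = 0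
  · -- degenerate case
    have hcX : c • X = (0 : ℝ) • X := by
      rcases hdeg with h | h
      · rw [h]
      · rw [X_eq_zero_of_trace hQ h]
        simp
    have hY : outY w00 w01 w10 w11 c A B X = outY w00 w01 w10 w11 0 A B X := by
      have hcX' : c • Xᴴ = (0 : ℝ) • Xᴴ := by
        have := congrArg conjTranspose hcX
        simpa [conjTranspose_smul] using this
      unfold outY
      rw [hcX, hcX']
    have hE : c ^ 2 * (A.trace.re * B.trace.re) = 0 := by
      rcases hdeg with h | h | h <;> simp [h]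
    have hb0 : 0 ≤ (w01 • B).trace.re := trace_re_nonneg (posSemidef_smul hB h01)
    have hb1 : 0 ≤ (w11 • B).trace.re := trace_re_nonneg (posSemidef_smul hB h11)
    have ha0 : 0 ≤ (w00 • A).trace.re := trace_re_nonneg (posSemidef_smul hA h00)
    have ha1 : 0 ≤ (w10 • A).trace.re := trace_re_nonneg (posSemidef_smul hA h10)
    obtain ⟨Λ1, Λ2, g0, g1, P, hS⟩ := trivial_potentials ha0 hb0 ha1 hb1
    have hs : (w00 • A).trace.re + (w01 • B).trace.re + ((w11 • B).trace.re + (w10 • A).trace.re) =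
        (w00 * A.trace.re + w01 * B.trace.re) + (w11 * B.trace.re + w10 * A.trace.re) := by
      rw [ta0, tb0, tb1, ta1]
    have hd : ((w00 • A).trace.re + (w01 • B).trace.re) * ((w11 • B).trace.re + (w10 • A).trace.re) =
        (w00 * A.trace.re + w01 * B.trace.re) * (w11 * B.trace.re + w10 * A.trace.re) -
          c ^ 2 * (A.trace.re * B.trace.re) := by
      rw [ta0, tb0, tb1, ta1, hE, sub_zero]
    rw [hY, hblk hs hd]
    exact star_of_potentials (c := 0) (θ := 0) hQ h00 h01 h10 h11 hr0 hr1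
      (by simpa using mul_nonneg h00 h11) (by simp) zero_le_one P (add_nonneg ha0 hb0)
      (add_nonneg hb1 ha1) hs hS
  · -- the curve case
    push Not at hdeg
    obtain ⟨hc1, hq01, hq11⟩ := hdeg
    have hq0p : 0 < A.trace.re := lt_of_le_of_ne hq0 (Ne.symm hq01)
    have hq1p : 0 < B.trace.re := lt_of_le_of_ne hq1 (Ne.symm hq11)
    have hc2 : 0 < c ^ 2 := by positivity
    have hww : 0 < w00 * w11 := lt_of_lt_of_le hc2 hcw
    have hw00 : 0 < w00 := by
      rcases h00.lt_or_eq with h | h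
      · exact h
      · rw [← h, zero_mul] at hww
        exact absurd hww (lt_irrefl _)
    have hw11 : 0 < w11 := by
      rcases h11.lt_or_eq with h | h
      · exact h
      · rw [← h, mul_zero] at hww
        exact absurd hww (lt_irrefl _)
    set θ := c ^ 2 / (w00 * w11) with hθ
    have hθ0 : 0 ≤ θ := by positivity
    have hθ1 : θ ≤ 1 := by
      rw [hθ, div_le_one hww]
      exact hcw
    have hθw : θ * (w00 * w11) = c ^ 2 := by
      rw [hθ]
      field_simp
    set a0 := (w00 • A).trace.re with ha0d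
    set b0 := (w01 • B).trace.re with hb0d
    set a1 := (w10 • A).trace.re with ha1d
    set b1 := (w11 • B).trace.re with hb1d
    have ha0 : 0 < a0 := by rw [ta0]; positivity
    have hb1p : 0 < b1 := by rw [tb1]; positivity
    have hb0 : 0 ≤ b0 := by rw [tb0]; positivity
    have ha1 : 0 ≤ a1 := by rw [ta1]; positivity
    have hEe : θ * a0 * b1 = c ^ 2 * (A.trace.re * B.trace.re) := by
      rw [ta0, tb1, ← hθw]
      ring
    have hEpos : 0 < θ * a0 * b1 := by
      rw [hEe]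
      positivity
    have hEle : θ * a0 * b1 ≤ (a0 + b0) * (b1 + a1) := by
      have h1 : θ * a0 * b1 ≤ 1 * a0 * b1 :=
        mul_le_mul_of_nonneg_right (mul_le_mul_of_nonneg_right hθ1 ha0.le) hb1p.le
      nlinarith [mul_nonneg ha0.le ha1, mul_nonneg hb0 hb1p.le, mul_nonneg hb0 ha1]
    obtain ⟨y1, y2, l, hy1, hy2, hl0, hl1, hp, hq, hdet⟩ :=
      curve_data hEpos hEle (by positivity) (by positivity)
    have D0 : SideData a0 b0 (b1 + a1) b1 θ y1 y2 l :=
      { ha := ha0, hb := hb0, hc := hb1p, hr := by linarith, hθ0 := hθ0, hθ1 := hθ1,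
        hy1 := hy1, hy2 := hy2, hl0 := hl0, hl1 := hl1, hp := hp, hq := hq, hdet := hdet }
    have D1 : SideData b1 a1 (a0 + b0) a0 θ y1 y2 (1 - l) :=
      { ha := hb1p, hb := ha1, hc := ha0, hr := by linarith, hθ0 := hθ0, hθ1 := hθ1,
        hy1 := hy1, hy2 := hy2, hl0 := by linarith, hl1 := by linarith,
        hp := by linarith, hq := by linarith, hdet := by rw [hdet]; ring }
    obtain ⟨Λ1, Λ2, g0, g1, P, hS⟩ := curve_potentials D0 D1
    have hs : y1 + y2 = (w00 * A.trace.re + w01 * B.trace.re) +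
        (w11 * B.trace.re + w10 * A.trace.re) := by
      rw [← ta0, ← tb0, ← tb1, ← ta1]
      linarith
    have hd : y1 * y2 = (w00 * A.trace.re + w01 * B.trace.re) * (w11 * B.trace.re +
        w10 * A.trace.re) - c ^ 2 * (A.trace.re * B.trace.re) := by
      rw [hdet, hEe, ← ta0, ← tb0, ← tb1, ← ta1]
    rw [hblk hs hd]
    exact star_of_potentials hQ h00 h01 h10 h11 hr0 hr1 hcw (by rw [hθw]) hθ1 P hy1 hy2 hs hS

end

end Vale.Agent.Lib.P358
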