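import Vale.Agent.Lib.P358.Theta

/-! The inequality at finite cutoff. -/

namespace Vale.Agent.Lib.P358

open Matrix MeasureTheory Set
open scoped ComplexOrder ENNReal

set_option linter.unusedSectionVars false

variable {ι : Type*} [Fintype ι] [DecidableEq ι]

/-- The package of scalar potentials used by the argument. -/
structure Potentials (θ : ℝ) (Λ1 Λ2 g0 g1 : ℝ → ℝ) : Prop where
  conv1 : ConvexOn ℝ (Ico 0 1) Λ1
  conv2 : ConvexOn ℝ (Ico 0 1) Λ2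
  nonneg1 : ∀ x ∈ Ico (0 : ℝ) 1, 0 ≤ Λ1 x
  nonneg2 : ∀ x ∈ Ico (0 : ℝ) 1, 0 ≤ Λ2 x
  young : ∀ x ∈ Ico (0 : ℝ) 1, ∀ y ∈ Ico (0 : ℝ) 1, -Real.log (1 - θ * x * y) ≤ Λ1 x + Λ2 y
  weight0 : BddWeight g0
  weight1 : BddWeight g1
  low0 : ∀ δ > 0, ∃ ε > 0, ∀ t ∈ Ioc 0 ε, 1 - δ ≤ g0 t
  low1 : ∀ δ > 0, ∃ ε > 0, ∀ t ∈ Ioc 0 ε, 1 - δ ≤ g1 t
  cmp0 : ∀ t ∈ Ico (0 : ℝ) 1, Lfun g0 (t / (1 - t)) ≤ -Real.log (1 - t) - Λ1 t
  cmp1 : ∀ t ∈ Ico (0 : ℝ) 1, Lfun g1 (t / (1 - t)) ≤ -Real.log (1 - t) - Λ2 t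

section
variable {A B X : Matrix ι ι ℂ} {w00 w01 w10 w11 c θ : ℝ} {Λ1 Λ2 g0 g1 : ℝ → ℝ}

/-- The pointwise inequality with the `ellF` integrands and the weights. -/
theorem pointwise (hQ : (fromBlocks A X Xᴴ B).PosSemidef)
    (h00 : 0 ≤ w00) (h01 : 0 ≤ w01) (h10 : 0 ≤ w10) (h11 : 0 ≤ w11)
    (hcw : c ^ 2 ≤ w00 * w11) (hcθ : c ^ 2 ≤ θ * (w00 * w11)) (hθ1 : θ ≤ 1)
    (P : Potentials θ Λ1 Λ2 g0 g1) {s : ℝ} (hs : 0 < s)
    (hY : (outY w00 w01 w10 w11 c A B X).IsHermitian)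
    (hA0 : (w00 • A).PosSemidef) (hB0 : (w01 • B).PosSemidef)
    (hA1 : (w11 • B).PosSemidef) (hB1 : (w10 • A).PosSemidef) :
    ∑ j, ellF (hB0.1.eigenvalues j) s + ∑ j, ellF (hB1.1.eigenvalues j) s +
      ∑ j, Lfun g0 (kapS hA0.1 hB0.1 s j) + ∑ j, Lfun g1 (kapS hA1.1 hB1.1 s j) ≤
    ∑ i, ellF (hY.eigenvalues i) s := by
  have hM0 := shiftM_herm hA0.1 hB0.1 s
  have hM1 := shiftM_herm hA1.1 hB1.1 s
  have hT0 := pencil_herm hA0.1 hM0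
  have hT1 := pencil_herm hA1.1 hM1
  have hc := chain_ineq hQ h00 h01 h10 h11 hcw hcθ hθ1 Λ1 Λ2 P.conv1 P.conv2 P.nonneg1 P.nonneg2
    P.young hs hY hB0.1 hB1.1 hM0 hM1 hT0 hT1
  have hYpsd := outY_psd h00 h01 h10 h11 hcw hQ
  have e1 : ∑ i, Real.log (s + hY.eigenvalues i) =
      ((Fintype.card ι : ℝ) + Fintype.card ι) * Real.log s + ∑ i, ellF (hY.eigenvalues i) s := by
    simp_rw [fun i => log_add_eq (hYpsd.eigenvalues_nonneg i) hs]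
    rw [Finset.sum_add_distrib, Finset.sum_const, Finset.card_univ, Fintype.card_sum, nsmul_eq_mul]
    push_cast; ring
  have e2 : ∑ j, Real.log (s + hB0.1.eigenvalues j) =
      (Fintype.card ι : ℝ) * Real.log s + ∑ j, ellF (hB0.1.eigenvalues j) s := by
    simp_rw [fun i => log_add_eq (hB0.eigenvalues_nonneg i) hs]
    rw [Finset.sum_add_distrib, Finset.sum_const, Finset.card_univ, nsmul_eq_mul]
  have e3 : ∑ j, Real.log (s + hB1.1.eigenvalues j) =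
      (Fintype.card ι : ℝ) * Real.log s + ∑ j, ellF (hB1.1.eigenvalues j) s := by
    simp_rw [fun i => log_add_eq (hB1.eigenvalues_nonneg i) hs]
    rw [Finset.sum_add_distrib, Finset.sum_const, Finset.card_univ, nsmul_eq_mul]
  rw [sum_eigenvalues_eq_sum₀ hT0 (fun t => -Real.log (1 - t) - Λ1 t),
    sum_eigenvalues_eq_sum₀ hT1 (fun t => -Real.log (1 - t) - Λ2 t)] at hc
  have h4 : ∑ j, Lfun g0 (kapS hA0.1 hB0.1 s j) ≤
      ∑ j, (-Real.log (1 - hT0.eigenvalues₀ j) - Λ1 (hT0.eigenvalues₀ j)) :=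
    Finset.sum_le_sum fun j _ => P.cmp0 _ (tauS_mem hA0 hB0 hs j)
  have h5 : ∑ j, Lfun g1 (kapS hA1.1 hB1.1 s j) ≤
      ∑ j, (-Real.log (1 - hT1.eigenvalues₀ j) - Λ2 (hT1.eigenvalues₀ j)) :=
    Finset.sum_le_sum fun j _ => P.cmp1 _ (tauS_mem hA1 hB1 hs j)
  rw [e1, e2, e3] at hc
  linarith

end

lemma Umin_nonneg {y b ε Λ : ℝ} (hy : 0 ≤ y) (hb : 0 ≤ b) (hε : 0 < ε) (hΛ : 0 ≤ Λ) :
    0 ≤ Umin y b ε Λ := by
  unfold Umin
  rw [intervalIntegral.integral_of_le hΛ]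
  exact setIntegral_nonneg measurableSet_Ioc fun s hs =>
    le_min (div_nonneg hy (by linarith [hs.1])) hε.le

lemma lintegral_sum_ellF {κ : Type*} [Fintype κ] (y : κ → ℝ) (hy : ∀ i, 0 ≤ y i) {Λ : ℝ}
    (hΛ : 0 < Λ) :
    ∫⁻ s in Ioc (0 : ℝ) Λ, ENNReal.ofReal (∑ i, ellF (y i) s) =
      ENNReal.ofReal (∑ i, thetaF Λ (y i)) := by
  rw [ENNReal.ofReal_sum_of_nonneg fun i _ => thetaF_nonneg (hy i) hΛ]
  simp_rw [← lintegral_ellF (hy _) hΛ]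
  have := lintegral_finsetSum (μ := volume.restrict (Ioc (0 : ℝ) Λ))
    (f := fun i s => ENNReal.ofReal (ellF (y i) s)) Finset.univ
    (fun i _ => ENNReal.measurable_ofReal.comp (ellF_measurable (y i)))
  rw [← this]
  refine setLIntegral_congr_fun measurableSet_Ioc fun s hs => ?_
  exact ENNReal.ofReal_sum_of_nonneg fun i _ => ellF_nonneg (hy i) hs.1

lemma lintegral_two_ellF {a b Λ : ℝ} (ha : 0 ≤ a) (hb : 0 ≤ b) (hΛ : 0 < Λ) :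
    ∫⁻ s in Ioc (0 : ℝ) Λ, ENNReal.ofReal (ellF a s + ellF b s) =
      ENNReal.ofReal (thetaF Λ a + thetaF Λ b) := by
  have h := lintegral_add_left (μ := volume.restrict (Ioc (0 : ℝ) Λ))
    (f := fun s => ENNReal.ofReal (ellF a s)) (ENNReal.measurable_ofReal.comp (ellF_measurable a))
    (fun s => ENNReal.ofReal (ellF b s))
  rw [ENNReal.ofReal_add (thetaF_nonneg ha hΛ) (thetaF_nonneg hb hΛ), ← lintegral_ellF ha hΛ,
    ← lintegral_ellF hb hΛ, ← h]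
  refine setLIntegral_congr_fun measurableSet_Ioc fun s hs => ?_
  exact ENNReal.ofReal_add (ellF_nonneg ha hs.1) (ellF_nonneg hb hs.1)

/-- Purely arithmetic combination in the extended reals. -/
lemma ennreal_combine {T1 T2 V0 V1 Y Z12 Z3 W0 W1 : ℝ} {M0 M1 I0 I1 : ℝ≥0∞}
    (hT1n : 0 ≤ T1) (hT2n : 0 ≤ T2) (hV0n : 0 ≤ V0) (hV1n : 0 ≤ V1) (hYn : 0 ≤ Y)
    (hZ12n : 0 ≤ Z12) (hZ3n : 0 ≤ Z3) (hW0n : 0 ≤ W0) (hW1n : 0 ≤ W1)
    (ha : ENNReal.ofReal T1 + ENNReal.ofReal T2 + M0 + M1 ≤ ENNReal.ofReal Z3)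
    (hb : I0 + ENNReal.ofReal V0 ≤ M0 + ENNReal.ofReal W0)
    (hc : I1 + ENNReal.ofReal V1 ≤ M1 + ENNReal.ofReal W1)
    (hd : ENNReal.ofReal Y ≤ ENNReal.ofReal Z12 + I0 + I1) :
    T1 + T2 + V0 + V1 + Y ≤ Z12 + Z3 + W0 + W1 := by
  rw [← ENNReal.ofReal_le_ofReal_iff (by positivity)]
  calc ENNReal.ofReal (T1 + T2 + V0 + V1 + Y)
      = ENNReal.ofReal T1 + ENNReal.ofReal T2 + ENNReal.ofReal V0 + ENNReal.ofReal V1 +
          ENNReal.ofReal Y := by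
        rw [ENNReal.ofReal_add (by positivity) hYn, ENNReal.ofReal_add (by positivity) hV1n,
          ENNReal.ofReal_add (by positivity) hV0n, ENNReal.ofReal_add hT1n hT2n]
    _ ≤ ENNReal.ofReal T1 + ENNReal.ofReal T2 + ENNReal.ofReal V0 + ENNReal.ofReal V1 +
          (ENNReal.ofReal Z12 + I0 + I1) := by gcongr
    _ = ENNReal.ofReal T1 + ENNReal.ofReal T2 + ENNReal.ofReal Z12 + (I0 + ENNReal.ofReal V0) +
          (I1 + ENNReal.ofReal V1) := by ring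
    _ ≤ ENNReal.ofReal T1 + ENNReal.ofReal T2 + ENNReal.ofReal Z12 + (M0 + ENNReal.ofReal W0) +
          (M1 + ENNReal.ofReal W1) := by gcongr
    _ = (ENNReal.ofReal T1 + ENNReal.ofReal T2 + M0 + M1) + ENNReal.ofReal Z12 +
          ENNReal.ofReal W0 + ENNReal.ofReal W1 := by ring
    _ ≤ ENNReal.ofReal Z3 + ENNReal.ofReal Z12 + ENNReal.ofReal W0 + ENNReal.ofReal W1 := by gcongr
    _ = ENNReal.ofReal (Z12 + Z3 + W0 + W1) := by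
        rw [ENNReal.ofReal_add (by positivity) hW1n, ENNReal.ofReal_add (by positivity) hW0n,
          ENNReal.ofReal_add hZ12n hZ3n]
        ring

section
variable {A B X : Matrix ι ι ℂ} {w00 w01 w10 w11 c θ : ℝ} {Λ1 Λ2 g0 g1 : ℝ → ℝ}

/-- The integrated chain. -/
lemma integrated_chain (hQ : (fromBlocks A X Xᴴ B).PosSemidef)
    (h00 : 0 ≤ w00) (h01 : 0 ≤ w01) (h10 : 0 ≤ w10) (h11 : 0 ≤ w11)
    (hcw : c ^ 2 ≤ w00 * w11) (hcθ : c ^ 2 ≤ θ * (w00 * w11)) (hθ1 : θ ≤ 1)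
    (P : Potentials θ Λ1 Λ2 g0 g1)
    (hY : (outY w00 w01 w10 w11 c A B X).IsHermitian)
    (hA0 : (w00 • A).PosSemidef) (hB0 : (w01 • B).PosSemidef)
    (hA1 : (w11 • B).PosSemidef) (hB1 : (w10 • A).PosSemidef) {Λ : ℝ} (hΛ : 0 < Λ) :
    ENNReal.ofReal (∑ j, thetaF Λ (hB0.1.eigenvalues j)) +
      ENNReal.ofReal (∑ j, thetaF Λ (hB1.1.eigenvalues j)) +
      (∫⁻ s in Ioc (0 : ℝ) Λ, ENNReal.ofReal (∑ j, Lfun g0 (kapS hA0.1 hB0.1 s j))) +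
      (∫⁻ s in Ioc (0 : ℝ) Λ, ENNReal.ofReal (∑ j, Lfun g1 (kapS hA1.1 hB1.1 s j))) ≤
    ENNReal.ofReal (∑ i, thetaF Λ (hY.eigenvalues i)) := by
  have hYpsd := outY_psd h00 h01 h10 h11 hcw hQ
  rw [← lintegral_sum_ellF _ (fun i => hYpsd.eigenvalues_nonneg i) hΛ,
    ← lintegral_sum_ellF _ (fun i => hB0.eigenvalues_nonneg i) hΛ,
    ← lintegral_sum_ellF _ (fun i => hB1.eigenvalues_nonneg i) hΛ]
  refine (add_le_add (add_le_add (le_lintegral_add _ _) le_rfl) le_rfl).trans ?_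
  refine (add_le_add (le_lintegral_add _ _) le_rfl).trans ?_
  refine (le_lintegral_add _ _).trans ?_
  refine setLIntegral_mono' measurableSet_Ioc fun s hs => ?_
  have hnn1 : 0 ≤ ∑ j, ellF (hB0.1.eigenvalues j) s :=
    Finset.sum_nonneg fun j _ => ellF_nonneg (hB0.eigenvalues_nonneg j) hs.1
  have hnn2 : 0 ≤ ∑ j, ellF (hB1.1.eigenvalues j) s :=
    Finset.sum_nonneg fun j _ => ellF_nonneg (hB1.eigenvalues_nonneg j) hs.1
  have hnn3 : 0 ≤ ∑ j, Lfun g0 (kapS hA0.1 hB0.1 s j) :=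
    Finset.sum_nonneg fun j _ => Lfun_nonneg P.weight0 (kapS_nonneg hA0 hB0 hs.1 j)
  have hnn4 : 0 ≤ ∑ j, Lfun g1 (kapS hA1.1 hB1.1 s j) :=
    Finset.sum_nonneg fun j _ => Lfun_nonneg P.weight1 (kapS_nonneg hA1 hB1 hs.1 j)
  rw [← ENNReal.ofReal_add hnn1 hnn2, ← ENNReal.ofReal_add (add_nonneg hnn1 hnn2) hnn3,
    ← ENNReal.ofReal_add (add_nonneg (add_nonneg hnn1 hnn2) hnn3) hnn4]
  exact ENNReal.ofReal_le_ofReal
    (pointwise hQ h00 h01 h10 h11 hcw hcθ hθ1 P hs.1 hY hA0 hB0 hA1 hB1)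

/-- The integrated scalar identity. -/
lemma integrated_scalar {g0 g1 : ℝ → ℝ} (hg0 : BddWeight g0) {y1 y2 a0 b0 b1 a1 Λ : ℝ}
    (hy1 : 0 ≤ y1) (hy2 : 0 ≤ y2) (hb0 : 0 ≤ b0) (ha1 : 0 ≤ a1) (hΛ : 0 < Λ)
    (hS : ∀ s, 0 < s → ellF y1 s + ellF y2 s =
      ellF b0 s + ellF a1 s + Lfun g0 (a0 / (s + b0)) + Lfun g1 (b1 / (s + a1))) :
    ENNReal.ofReal (thetaF Λ y1 + thetaF Λ y2) ≤
      ENNReal.ofReal (thetaF Λ b0 + thetaF Λ a1) +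
      (∫⁻ s in Ioc (0 : ℝ) Λ, ENNReal.ofReal (Lfun g0 (a0 / (s + b0)))) +
      (∫⁻ s in Ioc (0 : ℝ) Λ, ENNReal.ofReal (Lfun g1 (b1 / (s + a1)))) := by
  rw [← lintegral_two_ellF hy1 hy2 hΛ, ← lintegral_two_ellF hb0 ha1 hΛ]
  have hm1 : Measurable fun s : ℝ => ENNReal.ofReal (ellF b0 s + ellF a1 s) :=
    ENNReal.measurable_ofReal.comp ((ellF_measurable _).add (ellF_measurable _))
  have hm2 : Measurable fun s : ℝ => ENNReal.ofReal (Lfun g0 (a0 / (s + b0))) :=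
    ENNReal.measurable_ofReal.comp ((Lfun_continuous hg0).measurable.comp
      (measurable_const.div (measurable_id.add measurable_const)))
  have h1 := lintegral_add_left (μ := volume.restrict (Ioc (0 : ℝ) Λ)) hm1
    (fun s => ENNReal.ofReal (Lfun g0 (a0 / (s + b0))))
  have hm3 : Measurable fun s : ℝ => ENNReal.ofReal (ellF b0 s + ellF a1 s) +
      ENNReal.ofReal (Lfun g0 (a0 / (s + b0))) := hm1.add hm2
  have h2 := lintegral_add_left (μ := volume.restrict (Ioc (0 : ℝ) Λ)) hm3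
    (fun s => ENNReal.ofReal (Lfun g1 (b1 / (s + a1))))
  rw [← h1, ← h2]
  refine setLIntegral_mono' measurableSet_Ioc fun s hs => ?_
  rw [hS s hs.1]
  refine ENNReal.ofReal_add_le.trans (add_le_add ?_ le_rfl)
  exact ENNReal.ofReal_add_le

/-- The inequality at finite cutoff. -/
theorem star_finite (hQ : (fromBlocks A X Xᴴ B).PosSemidef)
    (h00 : 0 ≤ w00) (h01 : 0 ≤ w01) (h10 : 0 ≤ w10) (h11 : 0 ≤ w11)
    (hcw : c ^ 2 ≤ w00 * w11) (hcθ : c ^ 2 ≤ θ * (w00 * w11)) (hθ1 : θ ≤ 1)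
    (P : Potentials θ Λ1 Λ2 g0 g1)
    (hY : (outY w00 w01 w10 w11 c A B X).IsHermitian)
    (hA0 : (w00 • A).PosSemidef) (hB0 : (w01 • B).PosSemidef)
    (hA1 : (w11 • B).PosSemidef) (hB1 : (w10 • A).PosSemidef)
    {y1 y2 : ℝ} (hy1 : 0 ≤ y1) (hy2 : 0 ≤ y2)
    (hS : ∀ s, 0 < s → ellF y1 s + ellF y2 s =
      ellF (w01 • B).trace.re s + ellF (w10 • A).trace.re s +
        Lfun g0 ((w00 • A).trace.re / (s + (w01 • B).trace.re)) +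
        Lfun g1 ((w11 • B).trace.re / (s + (w10 • A).trace.re)))
    {ε η Λ : ℝ} (hε : 0 < ε) (hη1 : η ≤ 1) (hgη0 : ∀ t ∈ Ioc 0 ε, 1 - η ≤ g0 t)
    (hgη1 : ∀ t ∈ Ioc 0 ε, 1 - η ≤ g1 t) (hΛ0 : (w00 • A).trace.re / ε ≤ Λ)
    (hΛ1 : (w11 • B).trace.re / ε ≤ Λ) (hΛ : 0 < Λ) :
    ∑ j, thetaF Λ (hB0.1.eigenvalues j) + ∑ j, thetaF Λ (hB1.1.eigenvalues j) +
        (1 - η) * ∑ j, Umin (hA0.1.eigenvalues₀ j) (w01 • B).trace.re ε Λ +
        (1 - η) * ∑ j, Umin (hA1.1.eigenvalues₀ j) (w10 • A).trace.re ε Λ +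
        (thetaF Λ y1 + thetaF Λ y2) ≤
      (thetaF Λ (w01 • B).trace.re + thetaF Λ (w10 • A).trace.re) +
        ∑ i, thetaF Λ (hY.eigenvalues i) +
        Umin (w00 • A).trace.re (w01 • B).trace.re ε Λ +
        Umin (w11 • B).trace.re (w10 • A).trace.re ε Λ := by
  have hYpsd := outY_psd h00 h01 h10 h11 hcw hQ
  have ha0 := trace_re_nonneg hA0
  have hb0 := trace_re_nonneg hB0
  have ha1 := trace_re_nonneg hA1
  have hb1 := trace_re_nonneg hB1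
  have hηnn : 0 ≤ 1 - η := by linarith
  refine ennreal_combine ?_ ?_ ?_ ?_ ?_ ?_ ?_ ?_ ?_
    (integrated_chain hQ h00 h01 h10 h11 hcw hcθ hθ1 P hY hA0 hB0 hA1 hB1 hΛ)
    (main_finite hA0 hB0 P.weight0 hε hη1 hgη0 hΛ0)
    (main_finite hA1 hB1 P.weight1 hε hη1 hgη1 hΛ1)
    (integrated_scalar P.weight0 hy1 hy2 hb0 hb1 hΛ hS)
  · exact Finset.sum_nonneg fun j _ => thetaF_nonneg (hB0.eigenvalues_nonneg j) hΛ
  · exact Finset.sum_nonneg fun j _ => thetaF_nonneg (hB1.eigenvalues_nonneg j) hΛ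
  · exact mul_nonneg hηnn (Finset.sum_nonneg fun j _ => Umin_nonneg
      (by rw [← eigenvalues_sEq]; exact hA0.eigenvalues_nonneg _) hb0 hε hΛ.le)
  · exact mul_nonneg hηnn (Finset.sum_nonneg fun j _ => Umin_nonneg
      (by rw [← eigenvalues_sEq]; exact hA1.eigenvalues_nonneg _) hb1 hε hΛ.le)
  · exact add_nonneg (thetaF_nonneg hy1 hΛ) (thetaF_nonneg hy2 hΛ)
  · exact add_nonneg (thetaF_nonneg hb0 hΛ) (thetaF_nonneg hb1 hΛ)
  · exact Finset.sum_nonneg fun i _ => thetaF_nonneg (hYpsd.eigenvalues_nonneg i) hΛ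
  · exact Umin_nonneg ha0 hb0 hε hΛ.le
  · exact Umin_nonneg ha1 hb1 hε hΛ.le

end

end Vale.Agent.Lib.P358
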