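import Vale.Agent.Lib.P358.StarFinite

/-! Passing to the limit: the entropy inequality, for an abstract package of potentials. -/

namespace Vale.Agent.Lib.P358

open Matrix MeasureTheory Set
open scoped ComplexOrder ENNReal

set_option linter.unusedSectionVars false

variable {ι : Type*} [Fintype ι] [DecidableEq ι]

/-- The function `t log t`. -/
noncomputable def phi (t : ℝ) : ℝ := t * Real.log t

lemma eig₀_le_trace {A : Matrix ι ι ℂ} (hA : A.PosSemidef) (j : Fin (Fintype.card ι)) :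
    hA.1.eigenvalues₀ j ≤ A.trace.re := by
  rw [trace_re_eq_sum₀ hA.1]
  exact Finset.single_le_sum (f := hA.1.eigenvalues₀)
    (fun k _ => by rw [← eigenvalues_sEq]; exact hA.eigenvalues_nonneg _) (Finset.mem_univ j)

lemma eig₀_nonneg {A : Matrix ι ι ℂ} (hA : A.PosSemidef) (j : Fin (Fintype.card ι)) :
    0 ≤ hA.1.eigenvalues₀ j := by
  rw [← eigenvalues_sEq]; exact hA.eigenvalues_nonneg _

/-- Lower bound for a sum of `Θ`. -/
lemma sum_theta_lower {κ : Type*} [Fintype κ] (y : κ → ℝ) (hy : ∀ i, 0 ≤ y i) {Λ : ℝ} (hΛ : 0 < Λ) :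
    (∑ i, y i) * (Real.log Λ + 1) - ∑ i, phi (y i) ≤ ∑ i, thetaF Λ (y i) := by
  rw [Finset.sum_mul, ← Finset.sum_sub_distrib]
  refine Finset.sum_le_sum fun i _ => ?_
  have := (thetaF_asymp (hy i) hΛ).1
  unfold phi
  nlinarith

/-- Upper bound for a sum of `Θ`. -/
lemma sum_theta_upper {κ : Type*} [Fintype κ] (y : κ → ℝ) (hy : ∀ i, 0 ≤ y i) {Λ : ℝ} (hΛ : 0 < Λ) :
    ∑ i, thetaF Λ (y i) ≤ (∑ i, y i) * (Real.log Λ + 1) - ∑ i, phi (y i) + (∑ i, y i ^ 2) / Λ := by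
  rw [Finset.sum_mul, ← Finset.sum_sub_distrib, Finset.sum_div, ← Finset.sum_add_distrib]
  refine Finset.sum_le_sum fun i _ => ?_
  have := (thetaF_asymp (hy i) hΛ).2
  unfold phi
  nlinarith

/-- Lower bound for the truncated integrals, summed over the eigenvalues. -/
lemma sum_Umin_lower {A : Matrix ι ι ℂ} (hA : A.PosSemidef) {b ε η Λ : ℝ} (hb : 0 ≤ b) (hε : 0 < ε)
    (hη0 : 0 ≤ η) (hη1 : η ≤ 1) (hΛ : 0 < Λ) (hT : A.trace.re ≤ (Λ + b) * ε) {C : ℝ}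
    (hC : ∑ j, (hA.1.eigenvalues₀ j * (1 + Real.log ((Λ + b) * ε)) - phi (hA.1.eigenvalues₀ j)) ≤ C) :
    A.trace.re * (1 + Real.log ((Λ + b) * ε)) - ∑ j, phi (hA.1.eigenvalues₀ j) - η * C -
        Fintype.card ι * (ε * b) ≤
      (1 - η) * ∑ j, Umin (hA.1.eigenvalues₀ j) b ε Λ := by
  set κ := Real.log ((Λ + b) * ε) with hκ
  have h1 : ∑ j, (hA.1.eigenvalues₀ j * (1 + κ) - phi (hA.1.eigenvalues₀ j)) - Fintype.card ι * (ε * b) ≤
      ∑ j, Umin (hA.1.eigenvalues₀ j) b ε Λ := by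
    have h2 : ∀ j, hA.1.eigenvalues₀ j * (1 + κ) - phi (hA.1.eigenvalues₀ j) - ε * b ≤
        Umin (hA.1.eigenvalues₀ j) b ε Λ := fun j =>
      (Umin_bounds (eig₀_nonneg hA j) hb hε hΛ ((eig₀_le_trace hA j).trans hT)).1
    have h3 := Finset.sum_le_sum fun j (_ : j ∈ Finset.univ) => h2 j
    rw [Finset.sum_sub_distrib, Finset.sum_const, Finset.card_univ, Fintype.card_fin,
      nsmul_eq_mul] at h3
    exact h3
  have e : ∑ j, (hA.1.eigenvalues₀ j * (1 + κ) - phi (hA.1.eigenvalues₀ j)) =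
      A.trace.re * (1 + κ) - ∑ j, phi (hA.1.eigenvalues₀ j) := by
    rw [Finset.sum_sub_distrib, ← Finset.sum_mul, ← trace_re_eq_sum₀]
  rw [e] at h1
  have hd : 0 ≤ (Fintype.card ι : ℝ) * (ε * b) := by positivity
  have h4 : (1 - η) * (A.trace.re * (1 + κ) - ∑ j, phi (hA.1.eigenvalues₀ j) - Fintype.card ι * (ε * b)) ≤
      (1 - η) * ∑ j, Umin (hA.1.eigenvalues₀ j) b ε Λ :=
    mul_le_mul_of_nonneg_left h1 (by linarith)
  rw [e] at hC
  nlinarith [mul_le_mul_of_nonneg_left hC hη0]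

lemma sum_V_le {A : Matrix ι ι ℂ} (hA : A.PosSemidef) {κ L : ℝ} (hκ : κ ≤ L) :
    ∑ j, (hA.1.eigenvalues₀ j * (1 + κ) - phi (hA.1.eigenvalues₀ j)) ≤
      A.trace.re * (1 + L) + ∑ j, |phi (hA.1.eigenvalues₀ j)| := by
  rw [trace_re_eq_sum₀ hA.1, Finset.sum_mul, ← Finset.sum_add_distrib]
  refine Finset.sum_le_sum fun j _ => ?_
  have h1 := eig₀_nonneg hA j
  have h2 := neg_abs_le (phi (hA.1.eigenvalues₀ j))
  have h3 : hA.1.eigenvalues₀ j * (1 + κ) ≤ hA.1.eigenvalues₀ j * (1 + L) :=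
    mul_le_mul_of_nonneg_left (by linarith) h1
  linarith

section
variable {A B X : Matrix ι ι ℂ} {w00 w01 w10 w11 c θ : ℝ} {Λ1 Λ2 g0 g1 : ℝ → ℝ}

/-- The inequality with explicit error terms. -/
theorem star_err (hQ : (fromBlocks A X Xᴴ B).PosSemidef)
    (h00 : 0 ≤ w00) (h01 : 0 ≤ w01) (h10 : 0 ≤ w10) (h11 : 0 ≤ w11)
    (hcw : c ^ 2 ≤ w00 * w11) (hcθ : c ^ 2 ≤ θ * (w00 * w11)) (hθ1 : θ ≤ 1)
    (P : Potentials θ Λ1 Λ2 g0 g1)
    (hY : (outY w00 w01 w10 w11 c A B X).IsHermitian)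
    (hA0 : (w00 • A).PosSemidef) (hB0 : (w01 • B).PosSemidef)
    (hA1 : (w11 • B).PosSemidef) (hB1 : (w10 • A).PosSemidef)
    {y1 y2 : ℝ} (hy1 : 0 ≤ y1) (hy2 : 0 ≤ y2) (htr : y1 + y2 = ∑ i, hY.eigenvalues i)
    (hS : ∀ s, 0 < s → ellF y1 s + ellF y2 s =
      ellF (w01 • B).trace.re s + ellF (w10 • A).trace.re s +
        Lfun g0 ((w00 • A).trace.re / (s + (w01 • B).trace.re)) +
        Lfun g1 ((w11 • B).trace.re / (s + (w10 • A).trace.re)))
    {ε δ : ℝ} (hε : 0 < ε) (hε1 : ε ≤ 1) (hδ : 0 ≤ δ) (hδ1 : δ ≤ 1)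
    (hgη0 : ∀ t ∈ Ioc 0 ε, 1 - δ ≤ g0 t) (hgη1 : ∀ t ∈ Ioc 0 ε, 1 - δ ≤ g1 t) :
    ∑ i, phi (hY.eigenvalues i) ≤
      ∑ j, phi (hB0.1.eigenvalues j) + ∑ j, phi (hB1.1.eigenvalues j) +
        ∑ j, phi (hA0.1.eigenvalues₀ j) + ∑ j, phi (hA1.1.eigenvalues₀ j) -
        phi (w00 • A).trace.re - phi (w11 • B).trace.re + phi y1 + phi y2 -
        phi (w01 • B).trace.re - phi (w10 • A).trace.re +
      δ * (((w00 • A).trace.re * (1 + Real.log ((w00 • A).trace.re + (w11 • B).trace.re + 1 +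
              (w01 • B).trace.re)) + ∑ j, |phi (hA0.1.eigenvalues₀ j)|) +
           ((w11 • B).trace.re * (1 + Real.log ((w00 • A).trace.re + (w11 • B).trace.re + 1 +
              (w10 • A).trace.re)) + ∑ j, |phi (hA1.1.eigenvalues₀ j)|)) +
      ε * (Fintype.card ι * ((w01 • B).trace.re + (w10 • A).trace.re) +
        ((w01 • B).trace.re ^ 2 + (w10 • A).trace.re ^ 2 + ∑ i, hY.eigenvalues i ^ 2) /
          ((w00 • A).trace.re + (w11 • B).trace.re + 1)) := by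
  have hYpsd := outY_psd h00 h01 h10 h11 hcw hQ
  set a0 := (w00 • A).trace.re with ha0def
  set b0 := (w01 • B).trace.re with hb0def
  set b1 := (w11 • B).trace.re with hb1def
  set a1 := (w10 • A).trace.re with ha1def
  have ha0 : 0 ≤ a0 := trace_re_nonneg hA0
  have hb0 : 0 ≤ b0 := trace_re_nonneg hB0
  have hb1 : 0 ≤ b1 := trace_re_nonneg hA1
  have ha1 : 0 ≤ a1 := trace_re_nonneg hB1
  set Cq := a0 + b1 + 1 with hCq
  have hCqpos : 0 < Cq := by positivity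
  set Λ := Cq / ε with hΛdef
  have hΛ : 0 < Λ := div_pos hCqpos hε
  have hΛε : Λ * ε = Cq := by rw [hΛdef]; field_simp
  have hΛ0 : a0 / ε ≤ Λ := div_le_div_of_nonneg_right (by linarith) hε.le
  have hΛ1 : b1 / ε ≤ Λ := div_le_div_of_nonneg_right (by linarith) hε.le
  have hR := star_finite hQ h00 h01 h10 h11 hcw hcθ hθ1 P hY hA0 hB0 hA1 hB1 hy1 hy2 hS hε
    (by linarith : δ ≤ 1) hgη0 hgη1 hΛ0 hΛ1 hΛ
  -- theta bounds
  have hT1 := sum_theta_lower hB0.1.eigenvalues hB0.eigenvalues_nonneg hΛ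
  have hT2 := sum_theta_lower hB1.1.eigenvalues hB1.eigenvalues_nonneg hΛ
  rw [← trace_re_eq_sum hB0.1] at hT1
  rw [← trace_re_eq_sum hB1.1] at hT2
  have hY1 := (thetaF_asymp hy1 hΛ).1
  have hY2 := (thetaF_asymp hy2 hΛ).1
  have hZ1 := (thetaF_asymp hb0 hΛ).2
  have hZ2 := (thetaF_asymp ha1 hΛ).2
  have hZ3 := sum_theta_upper hY.eigenvalues hYpsd.eigenvalues_nonneg hΛ
  -- truncated integrals
  have hT0' : a0 ≤ (Λ + b0) * ε := by
    have : (Λ + b0) * ε = Cq + b0 * ε := by rw [add_mul, hΛε]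
    rw [this]
    have h := mul_nonneg hb0 hε.le
    linarith
  have hT1' : b1 ≤ (Λ + a1) * ε := by
    have : (Λ + a1) * ε = Cq + a1 * ε := by rw [add_mul, hΛε]
    rw [this]
    have h := mul_nonneg ha1 hε.le
    linarith
  have hU0 := (Umin_bounds ha0 hb0 hε hΛ hT0').2
  have hU1 := (Umin_bounds hb1 ha1 hε hΛ hT1').2
  have hκ0 : Real.log ((Λ + b0) * ε) ≤ Real.log (Cq + b0) := by
    apply Real.log_le_log
    · have : 0 < Λ + b0 := by linarith
      positivity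
    · have : (Λ + b0) * ε = Cq + b0 * ε := by rw [add_mul, hΛε]
      rw [this]
      have h := mul_le_mul_of_nonneg_left hε1 hb0
      linarith
  have hκ1 : Real.log ((Λ + a1) * ε) ≤ Real.log (Cq + a1) := by
    apply Real.log_le_log
    · have : 0 < Λ + a1 := by linarith
      positivity
    · have : (Λ + a1) * ε = Cq + a1 * ε := by rw [add_mul, hΛε]
      rw [this]
      have h := mul_le_mul_of_nonneg_left hε1 ha1
      linarith
  have hL0 := sum_Umin_lower hA0 hb0 hε hδ hδ1 hΛ hT0' (sum_V_le hA0 hκ0)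
  have hL1 := sum_Umin_lower hA1 ha1 hε hδ hδ1 hΛ hT1' (sum_V_le hA1 hκ1)
  -- the error term
  have hinvΛ : ∀ z : ℝ, z / Λ = ε * (z / Cq) := by
    intro z; rw [hΛdef]; field_simp
  rw [hinvΛ] at hZ1 hZ2 hZ3
  rw [← htr] at hZ3
  simp only [phi]
  simp only [phi] at hT1 hT2 hZ3 hL0 hL1 hU0 hU1
  simp only [← ha0def, ← hb0def, ← ha1def, ← hb1def] at hR hT1 hT2 hL0 hL1
  rw [add_div, add_div]
  linarith only [hR, hT1, hT2, hY1, hY2, hZ1, hZ2, hZ3, hU0, hU1, hL0, hL1]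

/-- The entropy inequality for an abstract package of potentials. -/
theorem star_abstract (hQ : (fromBlocks A X Xᴴ B).PosSemidef)
    (h00 : 0 ≤ w00) (h01 : 0 ≤ w01) (h10 : 0 ≤ w10) (h11 : 0 ≤ w11)
    (hcw : c ^ 2 ≤ w00 * w11) (hcθ : c ^ 2 ≤ θ * (w00 * w11)) (hθ1 : θ ≤ 1)
    (P : Potentials θ Λ1 Λ2 g0 g1)
    (hY : (outY w00 w01 w10 w11 c A B X).IsHermitian)
    (hA0 : (w00 • A).PosSemidef) (hB0 : (w01 • B).PosSemidef)
    (hA1 : (w11 • B).PosSemidef) (hB1 : (w10 • A).PosSemidef)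
    {y1 y2 : ℝ} (hy1 : 0 ≤ y1) (hy2 : 0 ≤ y2) (htr : y1 + y2 = ∑ i, hY.eigenvalues i)
    (hS : ∀ s, 0 < s → ellF y1 s + ellF y2 s =
      ellF (w01 • B).trace.re s + ellF (w10 • A).trace.re s +
        Lfun g0 ((w00 • A).trace.re / (s + (w01 • B).trace.re)) +
        Lfun g1 ((w11 • B).trace.re / (s + (w10 • A).trace.re))) :
    ∑ i, phi (hY.eigenvalues i) ≤
      ∑ j, phi (hB0.1.eigenvalues j) + ∑ j, phi (hB1.1.eigenvalues j) +
        ∑ j, phi (hA0.1.eigenvalues₀ j) + ∑ j, phi (hA1.1.eigenvalues₀ j) -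
        phi (w00 • A).trace.re - phi (w11 • B).trace.re + phi y1 + phi y2 -
        phi (w01 • B).trace.re - phi (w10 • A).trace.re := by
  set C : ℝ := (((w00 • A).trace.re * (1 + Real.log ((w00 • A).trace.re + (w11 • B).trace.re + 1 +
              (w01 • B).trace.re)) + ∑ j, |phi (hA0.1.eigenvalues₀ j)|) +
           ((w11 • B).trace.re * (1 + Real.log ((w00 • A).trace.re + (w11 • B).trace.re + 1 +
              (w10 • A).trace.re)) + ∑ j, |phi (hA1.1.eigenvalues₀ j)|)) with hC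
  set K : ℝ := (Fintype.card ι * ((w01 • B).trace.re + (w10 • A).trace.re) +
        ((w01 • B).trace.re ^ 2 + (w10 • A).trace.re ^ 2 + ∑ i, hY.eigenvalues i ^ 2) /
          ((w00 • A).trace.re + (w11 • B).trace.re + 1)) with hK
  have ha0 := trace_re_nonneg hA0
  have hb0 := trace_re_nonneg hB0
  have hb1 := trace_re_nonneg hA1
  have ha1 := trace_re_nonneg hB1
  have hC0 : 0 ≤ C := by
    have hl : ∀ z : ℝ, 0 ≤ z → 0 ≤ Real.log ((w00 • A).trace.re + (w11 • B).trace.re + 1 + z) := by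
      intro z hz
      apply Real.log_nonneg
      linarith
    have h1 := hl _ hb0
    have h2 := hl _ ha1
    have h3 : 0 ≤ ∑ j, |phi (hA0.1.eigenvalues₀ j)| := Finset.sum_nonneg fun j _ => abs_nonneg _
    have h4 : 0 ≤ ∑ j, |phi (hA1.1.eigenvalues₀ j)| := Finset.sum_nonneg fun j _ => abs_nonneg _
    rw [hC]
    positivity
  have hK0 : 0 ≤ K := by
    have h5 : 0 ≤ ∑ i, hY.eigenvalues i ^ 2 := Finset.sum_nonneg fun i _ => sq_nonneg _
    rw [hK]
    positivity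
  refine le_of_forall_pos_le_add fun ξ hξ => ?_
  set δ : ℝ := min 1 (ξ / (2 * (C + 1))) with hδ
  have hδpos : 0 < δ := lt_min one_pos (by positivity)
  have hδ1 : δ ≤ 1 := min_le_left _ _
  have hδC : δ * C ≤ ξ / 2 := by
    have h1 : δ ≤ ξ / (2 * (C + 1)) := min_le_right _ _
    calc δ * C ≤ (ξ / (2 * (C + 1))) * C := mul_le_mul_of_nonneg_right h1 hC0
      _ ≤ (ξ / (2 * (C + 1))) * (C + 1) :=
          mul_le_mul_of_nonneg_left (by linarith) (by positivity)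
      _ = ξ / 2 := by field_simp
  obtain ⟨ε0, hε0, h0⟩ := P.low0 δ hδpos
  obtain ⟨ε1, hε1, h1⟩ := P.low1 δ hδpos
  set ε : ℝ := min (min ε0 ε1) (min 1 (ξ / (2 * (K + 1)))) with hε
  have hεpos : 0 < ε :=
    lt_min (lt_min hε0 hε1) (lt_min one_pos (by positivity))
  have hε01 : ε ≤ 1 := (min_le_right _ _).trans (min_le_left _ _)
  have hεK : ε * K ≤ ξ / 2 := by
    have h2 : ε ≤ ξ / (2 * (K + 1)) := (min_le_right _ _).trans (min_le_right _ _)
    calc ε * K ≤ (ξ / (2 * (K + 1))) * K := mul_le_mul_of_nonneg_right h2 hK0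
      _ ≤ (ξ / (2 * (K + 1))) * (K + 1) :=
          mul_le_mul_of_nonneg_left (by linarith) (by positivity)
      _ = ξ / 2 := by field_simp
  have hε0' : ε ≤ ε0 := (min_le_left _ _).trans (min_le_left _ _)
  have hε1' : ε ≤ ε1 := (min_le_left _ _).trans (min_le_right _ _)
  have herr := star_err hQ h00 h01 h10 h11 hcw hcθ hθ1 P hY hA0 hB0 hA1 hB1 hy1 hy2 htr hS
    hεpos hε01 hδpos.le hδ1 (fun t ht => h0 t ⟨ht.1, ht.2.trans hε0'⟩)
    (fun t ht => h1 t ⟨ht.1, ht.2.trans hε1'⟩)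
  rw [← hC, ← hK] at herr
  linarith only [herr, hδC, hεK]

end

end Vale.Agent.Lib.P358
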