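import Vale.Agent.Lib.P358.Star
import Vale.Agent.Lib.P358.Defs

/-! Kraus form, tensor powers and their recursive block structure. -/

namespace Vale.Agent.Lib.P358

open Matrix
open scoped ComplexOrder

set_option linter.unusedSectionVars false

/-- Tuples of qubit labels. -/
abbrev S (n : ℕ) := Fin n → Fin 2

/-- Kraus operators. -/
noncomputable def Kr (γ ν : ℝ) : Fin 4 → Fin 2 → Fin 2 → ℝ :=
  ![fun a b => !![Real.sqrt (1 - ν), 0; 0, Real.sqrt (1 - ν) * Real.sqrt (1 - γ)] a b,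
    fun a b => !![0, Real.sqrt (1 - ν) * Real.sqrt γ; 0, 0] a b,
    fun a b => !![Real.sqrt ν * Real.sqrt (1 - γ), 0; 0, Real.sqrt ν] a b,
    fun a b => !![0, 0; Real.sqrt ν * Real.sqrt γ, 0] a b]

section
variable {γ ν : ℝ}

lemma gadc_single_kraus (h0 : 0 ≤ γ) (h1 : γ ≤ 1) (h2 : 0 ≤ ν) (h3 : ν ≤ 1) (a b α β : Fin 2) :
    gadc γ ν (Matrix.single a b 1) α β = ∑ j, ((Kr γ ν j α a : ℝ) : ℂ) * ((Kr γ ν j β b : ℝ) : ℂ) := by
  have hp : (((Real.sqrt (1 - ν)) : ℝ) : ℂ) * ((Real.sqrt (1 - ν) : ℝ) : ℂ) = 1 - (ν : ℂ) := by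
    rw [← Complex.ofReal_mul, Real.mul_self_sqrt (by linarith)]
    simp
  have hq : (((Real.sqrt (1 - γ)) : ℝ) : ℂ) * ((Real.sqrt (1 - γ) : ℝ) : ℂ) = 1 - (γ : ℂ) := by
    rw [← Complex.ofReal_mul, Real.mul_self_sqrt (by linarith)]
    simp
  have hr : (((Real.sqrt ν) : ℝ) : ℂ) * ((Real.sqrt ν : ℝ) : ℂ) = (ν : ℂ) := by
    rw [← Complex.ofReal_mul, Real.mul_self_sqrt h2]
  have hg : (((Real.sqrt γ) : ℝ) : ℂ) * ((Real.sqrt γ : ℝ) : ℂ) = (γ : ℂ) := by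
    rw [← Complex.ofReal_mul, Real.mul_self_sqrt h0]
  fin_cases a <;> fin_cases b <;> fin_cases α <;> fin_cases β <;>
    simp [gadc, Kr, Fin.sum_univ_four, Matrix.single]
  · linear_combination (-1) * hp - ((Real.sqrt (1 - γ) : ℝ) : ℂ) * ((Real.sqrt (1 - γ) : ℝ) : ℂ) * hr -
      (ν : ℂ) * hq
  · linear_combination (-((Real.sqrt γ : ℝ) : ℂ) * ((Real.sqrt γ : ℝ) : ℂ)) * hr - (ν : ℂ) * hg
  · linear_combination (-((Real.sqrt (1 - γ) : ℝ) : ℂ)) * hp - ((Real.sqrt (1 - γ) : ℝ) : ℂ) * hr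
  · linear_combination (-((Real.sqrt (1 - γ) : ℝ) : ℂ)) * hp - ((Real.sqrt (1 - γ) : ℝ) : ℂ) * hr
  · linear_combination (-((Real.sqrt γ : ℝ) : ℂ) * ((Real.sqrt γ : ℝ) : ℂ)) * hp - (1 - (ν : ℂ)) * hg
  · linear_combination (-((Real.sqrt (1 - γ) : ℝ) : ℂ) * ((Real.sqrt (1 - γ) : ℝ) : ℂ)) * hp -
      (1 - (ν : ℂ)) * hq - hr

/-- Product Kraus operators. -/
noncomputable def KK (γ ν : ℝ) {n : ℕ} (J : Fin n → Fin 4) : Matrix (S n) (S n) ℂ :=
  of fun x x' => ((∏ i, Kr γ ν (J i) (x i) (x' i) : ℝ) : ℂ)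

/-- Kraus form of the tensor power. -/
lemma T_eq_sum (h0 : 0 ≤ γ) (h1 : γ ≤ 1) (h2 : 0 ≤ ν) (h3 : ν ≤ 1) {n : ℕ}
    (ρ : Matrix (S n) (S n) ℂ) :
    tensorPow (gadc γ ν) n ρ = ∑ J : Fin n → Fin 4, KK γ ν J * ρ * (KK γ ν J)ᴴ := by
  ext x y
  have hprod : ∀ x' y' : S n, (∏ i, gadc γ ν (Matrix.single (x' i) (y' i) 1) (x i) (y i)) =
      ∑ J : Fin n → Fin 4, (((∏ i, Kr γ ν (J i) (x i) (x' i) : ℝ) : ℂ)) *
        ((∏ i, Kr γ ν (J i) (y i) (y' i) : ℝ) : ℂ) := by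
    intro x' y'
    simp_rw [gadc_single_kraus h0 h1 h2 h3]
    rw [Finset.prod_univ_sum, Fintype.piFinset_univ]
    refine Finset.sum_congr rfl fun J _ => ?_
    push_cast
    rw [Finset.prod_mul_distrib]
  simp only [tensorPow, of_apply, Matrix.sum_apply, Matrix.mul_apply, conjTranspose_apply, KK]
  simp_rw [hprod, Finset.sum_mul]
  have hR : ∀ J : Fin n → Fin 4, (∑ y' : S n, ∑ x' : S n,
      ((∏ i, Kr γ ν (J i) (x i) (x' i) : ℝ) : ℂ) * ρ x' y' *
        star (((∏ i, Kr γ ν (J i) (y i) (y' i) : ℝ) : ℂ))) =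
      ∑ x' : S n, ∑ y' : S n, ((∏ i, Kr γ ν (J i) (x i) (x' i) : ℝ) : ℂ) *
        ((∏ i, Kr γ ν (J i) (y i) (y' i) : ℝ) : ℂ) * ρ x' y' := by
    intro J
    rw [Finset.sum_comm]
    refine Finset.sum_congr rfl fun x' _ => Finset.sum_congr rfl fun y' _ => ?_
    rw [Complex.star_def, Complex.conj_ofReal]
    ring
  simp_rw [hR]
  exact (Finset.sum_congr rfl fun x' _ => Finset.sum_comm).trans Finset.sum_comm

lemma T_psd (h0 : 0 ≤ γ) (h1 : γ ≤ 1) (h2 : 0 ≤ ν) (h3 : ν ≤ 1) {n : ℕ}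
    {ρ : Matrix (S n) (S n) ℂ} (h : ρ.PosSemidef) : (tensorPow (gadc γ ν) n ρ).PosSemidef := by
  rw [T_eq_sum h0 h1 h2 h3]
  exact Matrix.posSemidef_sum _ fun J _ => h.mul_mul_conjTranspose_same _

lemma fromBlocks_sum {κ ι : Type*} [Fintype ι] (s : Finset κ) (A B C D : κ → Matrix ι ι ℂ) :
    fromBlocks (∑ J ∈ s, A J) (∑ J ∈ s, B J) (∑ J ∈ s, C J) (∑ J ∈ s, D J) =
      ∑ J ∈ s, fromBlocks (A J) (B J) (C J) (D J) := by
  ext (i | i) (j | j) <;> simp [Matrix.sum_apply]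

/-- Complete positivity on blocks. -/
lemma block_cp (h0 : 0 ≤ γ) (h1 : γ ≤ 1) (h2 : 0 ≤ ν) (h3 : ν ≤ 1) {n : ℕ}
    {Q00 Q01 Q10 Q11 : Matrix (S n) (S n) ℂ} (h : (fromBlocks Q00 Q01 Q10 Q11).PosSemidef) :
    (fromBlocks (tensorPow (gadc γ ν) n Q00) (tensorPow (gadc γ ν) n Q01)
      (tensorPow (gadc γ ν) n Q10) (tensorPow (gadc γ ν) n Q11)).PosSemidef := by
  simp_rw [T_eq_sum h0 h1 h2 h3]
  rw [fromBlocks_sum]
  refine Matrix.posSemidef_sum _ fun J _ => ?_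
  have := h.mul_mul_conjTranspose_same (fromBlocks (KK γ ν J) 0 0 (KK γ ν J))
  rw [fromBlocks_conjTranspose, fromBlocks_multiply, fromBlocks_multiply] at this
  simpa using this

end

/-- Adding a first site. -/
def consS {n : ℕ} (a : Fin 2) (x : S n) : S (n + 1) := Fin.cons a x

/-- Splitting off the first site. -/
def splitE (n : ℕ) : S (n + 1) ≃ S n ⊕ S n where
  toFun x := if x 0 = 0 then Sum.inl (Fin.tail x) else Sum.inr (Fin.tail x)
  invFun := Sum.elim (consS 0) (consS 1)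
  left_inv x := by
    by_cases h : x 0 = 0
    · simp only [h, if_true, Sum.elim_inl, consS]
      rw [← h]
      exact Fin.cons_self_tail x
    · have h' : x 0 = 1 := by
        have := (x 0).2
        ext
        have h2 : (x 0).1 ≠ 0 := fun h3 => h (Fin.ext h3)
        simp only [Fin.val_one]
        omega
      simp only [h', if_neg (show ¬ (1 : Fin 2) = 0 by decide), Sum.elim_inr, consS]
      rw [← h']
      exact Fin.cons_self_tail x
  right_inv := by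
    rintro (x | x)
    · simp [consS]
    · simp [consS]

/-- Blocks of a matrix on `n + 1` sites. -/
def Qb {n : ℕ} (Q : Matrix (S (n + 1)) (S (n + 1)) ℂ) (a b : Fin 2) : Matrix (S n) (S n) ℂ :=
  of fun x y => Q (consS a x) (consS b y)

lemma reindex_split {n : ℕ} (Q : Matrix (S (n + 1)) (S (n + 1)) ℂ) :
    reindex (splitE n) (splitE n) Q =
      fromBlocks (Qb Q 0 0) (Qb Q 0 1) (Qb Q 1 0) (Qb Q 1 1) := by
  ext (i | i) (j | j) <;> rfl

/-- Tuples as head and tail. -/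
def consE (n : ℕ) : Fin 2 × S n ≃ S (n + 1) where
  toFun p := consS p.1 p.2
  invFun x := (x 0, Fin.tail x)
  left_inv p := by simp [consS]
  right_inv x := Fin.cons_self_tail x

lemma sum_cons {n : ℕ} (f : S (n + 1) → ℂ) :
    ∑ x, f x = ∑ a, ∑ x : S n, f (consS a x) := by
  have h := Fintype.sum_equiv (consE n) (fun p => f (consS p.1 p.2)) f (fun p => rfl)
  rw [← h, Fintype.sum_prod_type]

section
variable {γ ν : ℝ}

lemma Tcons {n : ℕ} (Q : Matrix (S (n + 1)) (S (n + 1)) ℂ) (a b : Fin 2) (x y : S n) :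
    tensorPow (gadc γ ν) (n + 1) Q (consS a x) (consS b y) =
      ∑ a', ∑ b', gadc γ ν (Matrix.single a' b' 1) a b *
        tensorPow (gadc γ ν) n (Qb Q a' b') x y := by
  simp only [tensorPow, of_apply, Qb]
  rw [sum_cons]
  refine Finset.sum_congr rfl fun a' _ => ?_
  simp_rw [sum_cons]
  rw [Finset.sum_comm]
  refine Finset.sum_congr rfl fun b' _ => ?_
  rw [Finset.mul_sum]
  refine Finset.sum_congr rfl fun x' _ => ?_
  rw [Finset.mul_sum]
  refine Finset.sum_congr rfl fun y' _ => ?_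
  rw [Fin.prod_univ_succ]
  simp only [consS, Fin.cons_zero, Fin.cons_succ]
  ring

/-- The block structure of the next tensor power. -/
lemma T_blocks {n : ℕ} (Q : Matrix (S (n + 1)) (S (n + 1)) ℂ) :
    reindex (splitE n) (splitE n) (tensorPow (gadc γ ν) (n + 1) Q) =
      fromBlocks
        ((1 - γ * ν) • tensorPow (gadc γ ν) n (Qb Q 0 0) +
          (γ * (1 - ν)) • tensorPow (gadc γ ν) n (Qb Q 1 1))
        (Real.sqrt (1 - γ) • tensorPow (gadc γ ν) n (Qb Q 0 1))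
        (Real.sqrt (1 - γ) • tensorPow (gadc γ ν) n (Qb Q 1 0))
        ((1 - γ + γ * ν) • tensorPow (gadc γ ν) n (Qb Q 1 1) +
          (γ * ν) • tensorPow (gadc γ ν) n (Qb Q 0 0)) := by
  ext (i | i) (j | j)
  · have h1 : (reindex (splitE n) (splitE n) (tensorPow (gadc γ ν) (n + 1) Q)) (Sum.inl i) (Sum.inl j) =
        tensorPow (gadc γ ν) (n + 1) Q (consS 0 i) (consS 0 j) := rfl
    rw [h1, Tcons]
    simp [Fin.sum_univ_two, gadc, Matrix.single]
  · have h1 : (reindex (splitE n) (splitE n) (tensorPow (gadc γ ν) (n + 1) Q)) (Sum.inl i) (Sum.inr j) =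
        tensorPow (gadc γ ν) (n + 1) Q (consS 0 i) (consS 1 j) := rfl
    rw [h1, Tcons]
    simp [Fin.sum_univ_two, gadc, Matrix.single]
  · have h1 : (reindex (splitE n) (splitE n) (tensorPow (gadc γ ν) (n + 1) Q)) (Sum.inr i) (Sum.inl j) =
        tensorPow (gadc γ ν) (n + 1) Q (consS 1 i) (consS 0 j) := rfl
    rw [h1, Tcons]
    simp [Fin.sum_univ_two, gadc, Matrix.single]
  · have h1 : (reindex (splitE n) (splitE n) (tensorPow (gadc γ ν) (n + 1) Q)) (Sum.inr i) (Sum.inr j) =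
        tensorPow (gadc γ ν) (n + 1) Q (consS 1 i) (consS 1 j) := rfl
    rw [h1, Tcons]
    simp [Fin.sum_univ_two, gadc, Matrix.single]
    ring

end

end Vale.Agent.Lib.P358
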