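import Vale.Agent.Lib.P358.MainLemma

/-! The explicit integral `∫₀^Λ log (1 + y / s) ds`. -/

namespace Vale.Agent.Lib.P358

open Matrix MeasureTheory Set
open scoped ComplexOrder ENNReal

set_option linter.unusedSectionVars false

/-- Value of the logarithmic integral. -/
noncomputable def thetaF (Λ y : ℝ) : ℝ :=
  (Λ + y) * Real.log (Λ + y) - Λ * Real.log Λ - y * Real.log y

/-- The integrand. -/
noncomputable def ellF (y s : ℝ) : ℝ := Real.log (1 + y / s)

lemma ellF_nonneg {y s : ℝ} (hy : 0 ≤ y) (hs : 0 < s) : 0 ≤ ellF y s := by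
  apply Real.log_nonneg
  have : 0 ≤ y / s := div_nonneg hy hs.le
  linarith

lemma ellF_measurable (y : ℝ) : Measurable (ellF y) :=
  Real.measurable_log.comp (measurable_const.add (measurable_const.div measurable_id))

lemma log_add_eq {s y : ℝ} (hy : 0 ≤ y) (hs : 0 < s) :
    Real.log (s + y) = Real.log s + ellF y s := by
  unfold ellF
  have h1 : 1 + y / s = (s + y) / s := by field_simp
  have h2 : 0 < s + y := by linarith
  rw [h1, Real.log_div h2.ne' hs.ne']
  ring

lemma ellF_integral {y Λ : ℝ} (hy : 0 ≤ y) (hΛ : 0 < Λ) :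
    IntegrableOn (ellF y) (Ioc 0 Λ) ∧ ∫ s in (0 : ℝ)..Λ, ellF y s = thetaF Λ y := by
  set H : ℝ → ℝ := fun s => (s + y) * Real.log (s + y) - s * Real.log s with hH
  have hcont : Continuous H := by
    have h1 : Continuous fun s : ℝ => (s + y) * Real.log (s + y) :=
      Real.continuous_mul_log.comp (continuous_id.add continuous_const)
    exact h1.sub Real.continuous_mul_log
  have hderiv : ∀ s ∈ Ioo 0 Λ, HasDerivAt H (ellF y s) s := by
    intro s hs
    have hs0 : 0 < s := hs.1
    have hsy : 0 < s + y := by linarith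
    have h1 : HasDerivAt (fun s : ℝ => (s + y) * Real.log (s + y)) (Real.log (s + y) + 1) s := by
      have h2 := Real.hasDerivAt_mul_log hsy.ne'
      have h3 : HasDerivAt (fun s : ℝ => s + y) 1 s := (hasDerivAt_id s).add_const y
      have := h2.comp s h3
      simpa [Function.comp_def] using this
    have h4 := Real.hasDerivAt_mul_log hs0.ne'
    have h5 := h1.sub h4
    have e : Real.log (s + y) + 1 - (Real.log s + 1) = ellF y s := by
      rw [log_add_eq hy hs0]; ring
    rw [e] at h5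
    exact h5
  have hnn : ∀ s ∈ Ioo 0 Λ, 0 ≤ ellF y s := fun s hs => ellF_nonneg hy hs.1
  have hint : IntegrableOn (ellF y) (Ioc 0 Λ) :=
    intervalIntegral.integrableOn_deriv_of_nonneg hcont.continuousOn hderiv hnn
  refine ⟨hint, ?_⟩
  have h6 := intervalIntegral.integral_eq_sub_of_hasDerivAt_of_le hΛ.le hcont.continuousOn hderiv
    ((intervalIntegrable_iff_integrableOn_Ioc_of_le hΛ.le).mpr hint)
  rw [h6]
  simp only [hH, thetaF]
  simp

lemma thetaF_nonneg {y Λ : ℝ} (hy : 0 ≤ y) (hΛ : 0 < Λ) : 0 ≤ thetaF Λ y := by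
  rw [← (ellF_integral hy hΛ).2]
  rw [intervalIntegral.integral_of_le hΛ.le]
  exact setIntegral_nonneg measurableSet_Ioc fun s hs => ellF_nonneg hy hs.1

/-- The `lintegral` form. -/
lemma lintegral_ellF {y Λ : ℝ} (hy : 0 ≤ y) (hΛ : 0 < Λ) :
    ∫⁻ s in Ioc (0 : ℝ) Λ, ENNReal.ofReal (ellF y s) = ENNReal.ofReal (thetaF Λ y) := by
  obtain ⟨h1, h2⟩ := ellF_integral hy hΛ
  rw [← h2, intervalIntegral.integral_of_le hΛ.le, ofReal_integral_eq_lintegral_ofReal h1
    ((ae_restrict_iff' measurableSet_Ioc).mpr (ae_of_all _ fun s hs => ellF_nonneg hy hs.1))]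

/-- Quantitative asymptotics: `Θ_Λ(y) = y log Λ + y - y log y + e`, with `0 ≤ e ≤ y² / Λ`. -/
lemma thetaF_asymp {y Λ : ℝ} (hy : 0 ≤ y) (hΛ : 0 < Λ) :
    0 ≤ thetaF Λ y - (y * Real.log Λ + y - y * Real.log y) ∧
      thetaF Λ y - (y * Real.log Λ + y - y * Real.log y) ≤ y ^ 2 / Λ := by
  have hsum : 0 < Λ + y := by linarith
  have e1 : Real.log (Λ + y) = Real.log Λ + Real.log (1 + y / Λ) := by
    have : Λ + y = Λ * (1 + y / Λ) := by field_simp
    rw [this, Real.log_mul hΛ.ne' (by positivity)]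
  set x := y / Λ with hx
  have hx0 : 0 ≤ x := div_nonneg hy hΛ.le
  have hyx : y = Λ * x := by rw [hx]; field_simp
  have hlog1 : Real.log (1 + x) ≤ x := by
    have := Real.log_le_sub_one_of_pos (by linarith : 0 < 1 + x)
    linarith
  have hlog2 : x / (1 + x) ≤ Real.log (1 + x) := by
    have h3 := Real.one_sub_inv_le_log_of_pos (by linarith : 0 < 1 + x)
    have h4 : 1 - (1 + x)⁻¹ = x / (1 + x) := by field_simp; ring
    linarith
  have hexp : thetaF Λ y - (y * Real.log Λ + y - y * Real.log y) =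
      (Λ + y) * Real.log (1 + x) - y := by
    unfold thetaF
    rw [e1]
    ring
  rw [hexp]
  have h1x : 0 < 1 + x := by linarith
  constructor
  · have : y ≤ (Λ + y) * Real.log (1 + x) := by
      have e2 : (Λ + y) * (x / (1 + x)) = y := by
        rw [hyx]; field_simp
      calc y = (Λ + y) * (x / (1 + x)) := e2.symm
        _ ≤ _ := mul_le_mul_of_nonneg_left hlog2 hsum.le
    linarith
  · have h5 : (Λ + y) * Real.log (1 + x) ≤ (Λ + y) * x := mul_le_mul_of_nonneg_left hlog1 hsum.le
    have e3 : y ^ 2 / Λ = y * x := by rw [hx]; field_simp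
    rw [e3]
    have e4 : (Λ + y) * x = y + y * x := by rw [add_mul, ← hyx]
    linarith

end Vale.Agent.Lib.P358
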