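import Vale.Agent.Lib.P358.Pencil

/-! Bessel, Peierls and the matrix Young inequality for `-log det (1 - c² Z† Z)`. -/

namespace Vale.Agent.Lib.P358

open Matrix
open scoped ComplexOrder

set_option linter.unusedSectionVars false

variable {ι : Type*} [Fintype ι] [DecidableEq ι]

/-- Bessel inequality for a family of vectors that is orthonormal on a finite set of indices. -/
lemma bessel {κ : Type*} [DecidableEq κ] (J : Finset κ) (ψ : κ → ι → ℂ)
    (hψ : ∀ i ∈ J, ∀ j ∈ J, star (ψ i) ⬝ᵥ ψ j = if i = j then 1 else 0) (u : ι → ℂ) :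
    ∑ j ∈ J, Complex.normSq (star (ψ j) ⬝ᵥ u) ≤ nsq u := by
  classical
  let e : {j // j ∈ J} → EuclideanSpace ℂ ι := fun j => WithLp.toLp 2 (ψ j.1)
  have he : Orthonormal ℂ e := by
    rw [orthonormal_iff_ite]
    intro i j
    rw [EuclideanSpace.inner_eq_star_dotProduct, dotProduct_comm]
    have := hψ i.1 i.2 j.1 j.2
    simp only [e]
    rw [this]
    by_cases hij : i = j
    · subst hij; simp
    · have hne : i.1 ≠ j.1 := fun h => hij (Subtype.ext h)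
      simp [hij, hne]
  have := he.sum_inner_products_le (s := Finset.univ) (WithLp.toLp 2 u : EuclideanSpace ℂ ι)
  rw [nsq_eq_sum, ← Finset.sum_coe_sort J]
  have h2 : ‖(WithLp.toLp 2 u : EuclideanSpace ℂ ι)‖ ^ 2 = ∑ i, Complex.normSq (u i) := by
    rw [EuclideanSpace.norm_sq_eq]
    simp [Complex.normSq_eq_norm_sq]
  rw [h2] at this
  refine le_trans (le_of_eq ?_) this
  refine Finset.sum_congr rfl fun j _ => ?_
  rw [EuclideanSpace.inner_eq_star_dotProduct, dotProduct_comm, Complex.normSq_eq_norm_sq]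

/-- Peierls plus Bessel: for a convex nonnegative function on `[0,1)`. -/
lemma peierls_bessel {T : Matrix ι ι ℂ} (h : T.IsHermitian)
    (ht : ∀ k, h.eigenvalues k ∈ Set.Ico (0 : ℝ) 1)
    (Λ : ℝ → ℝ) (hΛ : ConvexOn ℝ (Set.Ico 0 1) Λ) (hΛn : ∀ x ∈ Set.Ico (0 : ℝ) 1, 0 ≤ Λ x)
    {κ : Type*} [DecidableEq κ] (J : Finset κ) (ψ : κ → ι → ℂ)
    (hψ : ∀ i ∈ J, ∀ j ∈ J, star (ψ i) ⬝ᵥ ψ j = if i = j then 1 else 0) :
    (∀ j ∈ J, qf T (ψ j) ∈ Set.Ico (0 : ℝ) 1) ∧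
    ∑ j ∈ J, Λ (qf T (ψ j)) ≤ ∑ k, Λ (h.eigenvalues k) := by
  classical
  set p : ι → κ → ℝ := fun k j => Complex.normSq (((eU h)ᴴ *ᵥ ψ j) k) with hp
  have hp0 : ∀ k j, 0 ≤ p k j := fun k j => Complex.normSq_nonneg _
  have hunit : ∀ j ∈ J, nsq (ψ j) = 1 := by
    intro j hj
    have := hψ j hj j hj
    simp only [if_true] at this
    simp [nsq, this]
  have hsum1 : ∀ j ∈ J, ∑ k, p k j = 1 := by
    intro j hj
    rw [hp]
    simp only
    rw [nsq_coord h, hunit j hj]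
  have hqf : ∀ j, qf T (ψ j) = ∑ k, p k j • h.eigenvalues k := by
    intro j
    rw [qf_eq_sum h]
    refine Finset.sum_congr rfl fun k _ => ?_
    simp only [hp, smul_eq_mul]; ring
  have hmem : ∀ j ∈ J, qf T (ψ j) ∈ Set.Ico (0 : ℝ) 1 := by
    intro j hj
    rw [hqf]
    exact (convex_Ico (0 : ℝ) 1).sum_mem (fun k _ => hp0 k j) (hsum1 j hj) (fun k _ => ht k)
  refine ⟨hmem, ?_⟩
  have hjensen : ∀ j ∈ J, Λ (qf T (ψ j)) ≤ ∑ k, p k j * Λ (h.eigenvalues k) := by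
    intro j hj
    rw [hqf]
    have := hΛ.map_sum_le (t := Finset.univ) (w := fun k => p k j) (p := h.eigenvalues)
      (fun k _ => hp0 k j) (hsum1 j hj) (fun k _ => ht k)
    simpa [smul_eq_mul] using this
  have hbessel : ∀ k, ∑ j ∈ J, p k j ≤ 1 := by
    intro k
    have h1 := bessel J ψ hψ (fun x => eU h x k)
    have h2 : nsq (fun x => eU h x k) = 1 := by
      have := nsq_eU_mulVec h (Pi.single k 1)
      rw [nsq_eq_sum (Pi.single k 1 : ι → ℂ)] at this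
      simp only [Pi.single_apply, apply_ite Complex.normSq, map_one, map_zero] at this
      simp only [Finset.sum_ite_eq', Finset.mem_univ, if_true] at this
      have h3 : nsq ((eU h).col k) = 1 := by simpa [mulVec_single_one] using this
      exact h3
    rw [h2] at h1
    refine le_trans (le_of_eq ?_) h1
    refine Finset.sum_congr rfl fun j _ => ?_
    simp only [hp]
    rw [← Complex.normSq_conj]
    congr 1
    simp only [mulVec, dotProduct, conjTranspose_apply, Pi.star_apply, map_sum, map_mul]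
    refine Finset.sum_congr rfl fun x _ => ?_
    simp only [Complex.star_def, Complex.conj_conj]
    ring
  calc ∑ j ∈ J, Λ (qf T (ψ j)) ≤ ∑ j ∈ J, ∑ k, p k j * Λ (h.eigenvalues k) :=
        Finset.sum_le_sum hjensen
    _ = ∑ k, (∑ j ∈ J, p k j) * Λ (h.eigenvalues k) := by
        rw [Finset.sum_comm]
        refine Finset.sum_congr rfl fun k _ => ?_
        rw [Finset.sum_mul]
    _ ≤ ∑ k, Λ (h.eigenvalues k) := by
        refine Finset.sum_le_sum fun k _ => ?_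
        have := hΛn _ (ht k)
        nlinarith [hbessel k]

/-- Orthonormality of the columns of the eigenvector matrix. -/
lemma eU_col_orthonormal {H : Matrix ι ι ℂ} (h : H.IsHermitian) (i j : ι) :
    star (fun x => eU h x i) ⬝ᵥ (fun x => eU h x j) = if i = j then 1 else 0 := by
  have := congrFun (congrFun (star_mul_eU h) i) j
  simp only [Matrix.mul_apply, conjTranspose_apply, Matrix.one_apply] at this
  simpa [dotProduct] using this

lemma mulVec_eU_col {H : Matrix ι ι ℂ} (h : H.IsHermitian) (j : ι) :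
    H *ᵥ (fun x => eU h x j) = ((h.eigenvalues j : ℝ) : ℂ) • (fun x => eU h x j) := by
  have := h.mulVec_eigenvectorBasis j
  ext x
  have h2 := congrFun this x
  simpa [eU, Complex.real_smul] using h2

/-- The matrix Young inequality. -/
theorem young_matrix {T0 T1 Z : Matrix ι ι ℂ} (h0 : T0.IsHermitian) (h1 : T1.IsHermitian)
    (hK : (Zᴴ * Z).IsHermitian) (c2 θ : ℝ) (hθ1 : θ ≤ 1)
    (ht0 : ∀ k, h0.eigenvalues k ∈ Set.Ico (0 : ℝ) 1)
    (ht1 : ∀ k, h1.eigenvalues k ∈ Set.Ico (0 : ℝ) 1)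
    (hZ : ∀ u v, c2 * Complex.normSq (star u ⬝ᵥ (Z *ᵥ v)) ≤ θ * qf T0 u * qf T1 v)
    (Λ1 Λ2 : ℝ → ℝ) (hΛ1 : ConvexOn ℝ (Set.Ico 0 1) Λ1) (hΛ2 : ConvexOn ℝ (Set.Ico 0 1) Λ2)
    (hΛ1n : ∀ x ∈ Set.Ico (0 : ℝ) 1, 0 ≤ Λ1 x) (hΛ2n : ∀ x ∈ Set.Ico (0 : ℝ) 1, 0 ≤ Λ2 x)
    (hY : ∀ x ∈ Set.Ico (0 : ℝ) 1, ∀ y ∈ Set.Ico (0 : ℝ) 1,
      -Real.log (1 - θ * x * y) ≤ Λ1 x + Λ2 y) :
    (∀ j, 0 < 1 - c2 * hK.eigenvalues j) ∧
    ∑ j, -Real.log (1 - c2 * hK.eigenvalues j) ≤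
      ∑ k, Λ1 (h0.eigenvalues k) + ∑ k, Λ2 (h1.eigenvalues k) := by
  classical
  set μ := hK.eigenvalues with hμdef
  have hμ0 : ∀ j, 0 ≤ μ j := fun j => (posSemidef_conjTranspose_mul_self Z).eigenvalues_nonneg j
  let η : ι → ι → ℂ := fun j x => eU hK x j
  have hη : ∀ i j, star (η i) ⬝ᵥ η j = if i = j then 1 else 0 := fun i j => eU_col_orthonormal hK i j
  have hKη : ∀ j, (Zᴴ * Z) *ᵥ η j = ((μ j : ℝ) : ℂ) • η j := fun j => mulVec_eU_col hK j
  let ξ : ι → ι → ℂ := fun j => Z *ᵥ η j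
  have hξ : ∀ i j, star (ξ i) ⬝ᵥ ξ j = ((μ j : ℝ) : ℂ) * (if i = j then 1 else 0) := by
    intro i j
    simp only [ξ]
    rw [star_mulVec, ← dotProduct_mulVec, mulVec_mulVec, ← star_eq_conjTranspose]
    have : star Z * Z = Zᴴ * Z := rfl
    have h2 : star (η i) ⬝ᵥ ((star Z * Z) *ᵥ η j) = ((μ j : ℝ) : ℂ) * (if i = j then 1 else 0) := by
      rw [this, hKη j, dotProduct_smul, hη i j]; rfl
    exact h2
  let J : Finset ι := Finset.univ.filter fun j => 0 < μ j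
  have hJ : ∀ j, j ∈ J ↔ 0 < μ j := fun j => by simp [J]
  let rt : ι → ℝ := fun j => Real.sqrt (μ j)
  have hrt : ∀ j ∈ J, rt j * rt j = μ j := fun j hj => Real.mul_self_sqrt (hμ0 j)
  have hrtpos : ∀ j ∈ J, 0 < rt j := fun j hj => Real.sqrt_pos.mpr ((hJ j).mp hj)
  let ψ : ι → ι → ℂ := fun j => ((rt j)⁻¹ : ℝ) • ξ j
  have hψdot : ∀ i j, star (ψ i) ⬝ᵥ ψ j =
      ((((rt i)⁻¹ * (rt j)⁻¹ * μ j : ℝ)) : ℂ) * (if i = j then 1 else 0) := by
    intro i j
    simp only [ψ, star_smul, smul_dotProduct, dotProduct_smul, hξ]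
    simp only [star_trivial, Complex.real_smul]
    push_cast
    ring
  have hψ : ∀ i ∈ J, ∀ j ∈ J, star (ψ i) ⬝ᵥ ψ j = if i = j then 1 else 0 := by
    intro i hi j hj
    rw [hψdot]
    by_cases hij : i = j
    · subst hij
      have hne := (hrtpos i hi).ne'
      have : (rt i)⁻¹ * (rt i)⁻¹ * μ i = 1 := by
        rw [← hrt i hi]; field_simp
      simp [this]
    · simp [hij]
  have hηJ : ∀ i ∈ J, ∀ j ∈ J, star (η i) ⬝ᵥ η j = if i = j then 1 else 0 :=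
    fun i _ j _ => hη i j
  obtain ⟨hx, hsum0⟩ := peierls_bessel h0 ht0 Λ1 hΛ1 hΛ1n J ψ hψ
  obtain ⟨hy, hsum1⟩ := peierls_bessel h1 ht1 Λ2 hΛ2 hΛ2n J η hηJ
  have hkey : ∀ j ∈ J, c2 * μ j ≤ θ * qf T0 (ψ j) * qf T1 (η j) := by
    intro j hj
    have h2 := hZ (ψ j) (η j)
    have hne := (hrtpos j hj).ne'
    have h3 : star (ψ j) ⬝ᵥ (Z *ᵥ η j) = ((rt j : ℝ) : ℂ) := by
      have h4 : star (ψ j) ⬝ᵥ (Z *ᵥ η j) = (((rt j)⁻¹ * μ j : ℝ) : ℂ) := by
        change star (((rt j)⁻¹ : ℝ) • ξ j) ⬝ᵥ ξ j = _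
        rw [star_smul, smul_dotProduct, hξ]
        simp [Complex.real_smul]
      rw [h4, ← hrt j hj]
      congr 1
      field_simp
    rw [h3, Complex.normSq_ofReal, hrt j hj] at h2
    exact h2
  have hθxy : ∀ j ∈ J, 0 < 1 - θ * qf T0 (ψ j) * qf T1 (η j) := by
    intro j hj
    have hxj := hx j hj
    have hyj := hy j hj
    have h5 : qf T0 (ψ j) * qf T1 (η j) < 1 := by
      nlinarith [hxj.1, hxj.2, hyj.1, hyj.2]
    have h6 : θ * (qf T0 (ψ j) * qf T1 (η j)) ≤ 1 * (qf T0 (ψ j) * qf T1 (η j)) :=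
      mul_le_mul_of_nonneg_right hθ1 (mul_nonneg hxj.1 hyj.1)
    nlinarith
  have hpos : ∀ j, 0 < 1 - c2 * μ j := by
    intro j
    by_cases hj : j ∈ J
    · linarith [hkey j hj, hθxy j hj]
    · have : μ j = 0 := le_antisymm (not_lt.mp (fun h => hj ((hJ j).mpr h))) (hμ0 j)
      rw [this]; simp
  refine ⟨hpos, ?_⟩
  have hsplit : ∑ j, -Real.log (1 - c2 * μ j) = ∑ j ∈ J, -Real.log (1 - c2 * μ j) := by
    symm
    apply Finset.sum_subset (Finset.subset_univ _)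
    intro j _ hj
    have : μ j = 0 := le_antisymm (not_lt.mp (fun h => hj ((hJ j).mpr h))) (hμ0 j)
    rw [this]; simp
  rw [hsplit]
  calc ∑ j ∈ J, -Real.log (1 - c2 * μ j)
      ≤ ∑ j ∈ J, (Λ1 (qf T0 (ψ j)) + Λ2 (qf T1 (η j))) := by
        refine Finset.sum_le_sum fun j hj => ?_
        have h7 : Real.log (1 - θ * qf T0 (ψ j) * qf T1 (η j)) ≤ Real.log (1 - c2 * μ j) :=
          Real.log_le_log (hθxy j hj) (by linarith [hkey j hj])
        have h8 := hY _ (hx j hj) _ (hy j hj)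
        linarith
    _ = ∑ j ∈ J, Λ1 (qf T0 (ψ j)) + ∑ j ∈ J, Λ2 (qf T1 (η j)) := Finset.sum_add_distrib
    _ ≤ _ := add_le_add hsum0 hsum1

end Vale.Agent.Lib.P358
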